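import Crest.Statements.S0054
import Crest.Agent.H1.P3Mix
import Crest.Agent.H2.P3Basic
import Crest.Agent.H3.P3B
import Crest.Agent.H4.P3Lab
import Crest.Agent.H5.P3Half
import Crest.Agent.H6.P3B
import Crest.Agent.H7.P3T2
import Crest.Agent.H8.P3C4
import Crest.Agent.H8.P3Good
import Crest.Agent.H9.P3Cyc
import Crest.Agent.H9.P3Geo
import Crest.Agent.H9.P3Simp
import Crest.Agent.Lead.P3C
import Crest.Agent.H9.PlSC
import Crest.Agent.H2.PlJ

set_option autoImplicit false
open Crest Crest.CombinatoricsR

namespace Crest.Agent.S0054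

/-- For every colouring of the Euclidean plane with five colours there are two points at distance one that receive the same colour. No measurability or other restriction is placed on the colour classes. -/
theorem result
    (c : EuclideanSpace ℝ (Fin 2) → Fin 5) :
    ∃ x y : EuclideanSpace ℝ (Fin 2), dist x y = 1 ∧ c x = c y := by
  have hB := Crest.Agent.H2.P3.basicStmt
  have hG := Crest.Agent.H9.P3.geoStmt
  have hL := Crest.Agent.H4.P3.labStmt hB hG
  have hTh := Crest.Agent.H3.P3.thinStmt hG
  have hTr := Crest.Agent.H3.P3.transStmt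
  have hJ := Crest.Agent.H3.P3.jStmt hB hG
  have hT := Crest.Agent.H3.P3.tStmt hB hTh hTr hJ
  have h5 := Crest.Agent.H6.P3.fiveStmt hB hL hTh hTr
  have hE := Crest.Agent.H6.P3.exStmt hB hTh hTr
  have h4 := Crest.Agent.H8.P3.c4Stmt hB hL hTh hTr hJ hE
  have hM := Crest.Agent.H1.P3.mixStmt hB
  have hS := Crest.Agent.H9.P3.simplexStmt hB hL hM
  have hH := Crest.Agent.H5.P3.halfStmt
  have hGood := Crest.Agent.H8.P3.goodStmt hB hH
  have hTree := Crest.Agent.H7.P3.treeStmt
  have hC := Crest.Agent.H9.P3.cycStmt hB hGood hTree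
  have hD := Crest.Agent.Lead.P3.deStmt hB hG hS hGood h5 h4
  exact Crest.Agent.H2.Pl.final_of Crest.Agent.H9.Pl.stepB
    (Crest.Agent.Lead.P3.geom_of hB hL h5 h4 hT hD hC) c

end Crest.Agent.S0054
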