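import Crest.Statements.S0066
import Crest.Agent.H2.OMRigid
import Crest.Agent.H2.OMFar

set_option autoImplicit false
open Crest Crest.CombinatoricsR

namespace Crest.Agent.S0066

open Crest.Agent.H2.OM Crest.CombinatoricsR.OrderedMatrix

open Classical in
noncomputable def AA (h n : ℕ) : Fin n → Fin n → Bool := fun i j => decide (AP h i.val j.val)

def HH : Fin 66 → Fin 66 → Bool := fun i j => decide (HP i.val j.val)

lemma far (h n : ℕ) (hh : 1 ≤ h) (hn : (6 * h + 69) * 2 ^ h ≤ n) (B : Fin n → Fin n → Bool)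
    (hB : orderedCopyCount HH B = 0) :
    2 ^ h * 2 ^ h ≤ (Finset.univ.filter (fun rc : Fin n × Fin n => AA h n rc.1 rc.2 ≠ B rc.1 rc.2)).card := by
  classical
  have key : ∀ p : Fin (2 ^ h) × Fin (2 ^ h), ∃ rc : Fin n × Fin n,
      Struct h p.1 p.2 rc.1 rc.2 ∧ AA h n rc.1 rc.2 ≠ B rc.1 rc.2 := by
    intro p
    by_contra hno
    push Not at hno
    let B' : ℕ → ℕ → Prop := fun i j => ∃ (hi : i < n) (hj : j < n), B ⟨i, hi⟩ ⟨j, hj⟩ = true
    have hB' : ∀ i j, Struct h p.1 p.2 i j → (B' i j ↔ AP h i j) := by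
      intro i j hs
      obtain ⟨hi, hj⟩ := Struct_lt hs
      have hi' : i < n := by omega
      have hj' : j < n := by omega
      have := hno (⟨i, hi'⟩, ⟨j, hj'⟩) hs
      simp only [AA] at this
      constructor
      · rintro ⟨_, _, e⟩
        rw [e] at this
        simpa using this
      · intro e
        exact ⟨hi', hj', by rw [← this]; simpa using e⟩
    obtain ⟨ρ, γ, h1, h2, h3, h4, h5⟩ := far_core hh p.1.2 p.2.2 hB'
    have lρ : ∀ i : Fin 66, ρ i < n := by
      intro i
      rcases Nat.lt_or_ge i.val 65 with a | a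
      · have := mono_of_succ h1 a (by omega); omega
      · have : i.val = 65 := by omega
        rw [this]; omega
    have lγ : ∀ i : Fin 66, γ i < n := by
      intro i
      rcases Nat.lt_or_ge i.val 65 with a | a
      · have := mono_of_succ h2 a (by omega); omega
      · have : i.val = 65 := by omega
        rw [this]; omega
    unfold orderedCopyCount at hB
    rw [Fintype.card_eq_zero_iff] at hB
    refine hB.false ⟨(fun i => ⟨ρ i, lρ i⟩, fun i => ⟨γ i, lγ i⟩), ?_, ?_, ?_⟩
    · intro a b hab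
      exact mono_of_succ h1 hab b.2
    · intro a b hab
      exact mono_of_succ h2 hab b.2
    · intro i j
      have := h5 i i.2 j j.2
      simp only [HH]
      by_cases e : HP i.val j.val
      · obtain ⟨_, _, e'⟩ := this.2 e
        simp [e, e']
      · have e' : ¬ B' (ρ i) (γ j) := fun c => e (this.1 c)
        simp only [e, decide_false]
        by_contra c
        exact e' ⟨lρ i, lγ j, by simpa using c⟩
  choose f hf using key
  have : (Finset.univ : Finset (Fin (2 ^ h) × Fin (2 ^ h))).card ≤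
      (Finset.univ.filter (fun rc : Fin n × Fin n => AA h n rc.1 rc.2 ≠ B rc.1 rc.2)).card := by
    apply Finset.card_le_card_of_injOn f
    · intro p _
      simp only [Finset.coe_filter, Finset.mem_univ, true_and, Set.mem_setOf_eq]
      exact (hf p).2
    · intro p _ q _ e
      have a := (hf p).1
      have b := (hf q).1
      rw [e] at a
      obtain ⟨e1, e2⟩ := Struct_inj p.1.2 p.2.2 q.1.2 q.2.2 a b
      exact Prod.ext (Fin.ext e1) (Fin.ext e2)
  simpa using this

lemma few (h n : ℕ) (hh : 1 ≤ h) : orderedCopyCount HH (AA h n) ≤ n ^ 66 * (n ^ 64 * 2 ^ h) := by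
  classical
  unfold orderedCopyCount
  have key : ∀ rc : {rc : (Fin 66 → Fin n) × (Fin 66 → Fin n) //
      StrictMono rc.1 ∧ StrictMono rc.2 ∧ ∀ i j : Fin 66, AA h n (rc.1 i) (rc.2 j) = HH i j},
      ∃ c : Fin (2 ^ h), (rc.1.2 64).val = colPos h h c ∧ (rc.1.2 65).val = colPos h (h + 1) c := by
    rintro ⟨⟨r, c⟩, h1, h2, h3⟩
    let ρ : ℕ → ℕ := fun i => if hi : i < 66 then (r ⟨i, hi⟩).val else 0
    let γ : ℕ → ℕ := fun i => if hi : i < 66 then (c ⟨i, hi⟩).val else 0
    obtain ⟨k, hk, e1, e2⟩ := rigid (ρ := ρ) (γ := γ) hh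
      (fun i hi => by
        simp only [ρ, dif_pos (show i < 66 by omega), dif_pos (show i + 1 < 66 by omega)]
        exact h1 (show (⟨i, _⟩ : Fin 66) < ⟨i + 1, _⟩ from Nat.lt_succ_self i))
      (fun i hi => by
        simp only [γ, dif_pos (show i < 66 by omega), dif_pos (show i + 1 < 66 by omega)]
        exact h2 (show (⟨i, _⟩ : Fin 66) < ⟨i + 1, _⟩ from Nat.lt_succ_self i))
      (fun i hi j hj => by
        simp only [ρ, γ, dif_pos hi, dif_pos hj]
        have := h3 ⟨i, hi⟩ ⟨j, hj⟩
        simp only [AA, HH] at this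
        exact decide_eq_decide.1 this)
    exact ⟨⟨k, hk⟩, e1, e2⟩
  choose g hg using key
  have : Fintype.card {rc : (Fin 66 → Fin n) × (Fin 66 → Fin n) //
      StrictMono rc.1 ∧ StrictMono rc.2 ∧ ∀ i j : Fin 66, AA h n (rc.1 i) (rc.2 j) = HH i j} ≤
      Fintype.card ((Fin 66 → Fin n) × ((Fin 64 → Fin n) × Fin (2 ^ h))) := by
    apply Fintype.card_le_of_injective
      (fun rc => (rc.1.1, (fun i : Fin 64 => rc.1.2 (Fin.castLE (by norm_num) i), g rc)))
    intro p q e
    simp only [Prod.mk.injEq] at e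
    obtain ⟨e1, e2, e3⟩ := e
    apply Subtype.ext
    apply Prod.ext e1
    funext i
    by_cases hi : i.val < 64
    · exact congrFun e2 ⟨i.val, hi⟩
    · have a := hg p
      have b := hg q
      rw [e3] at a
      by_cases h64 : i.val = 64
      · have : i = 64 := Fin.ext h64
        subst this
        exact Fin.ext (a.1.trans b.1.symm)
      · have : i = 65 := Fin.ext (by have := i.2; simp; omega)
        subst this
        exact Fin.ext (a.2.trans b.2.symm)
  simpa using this

/-- There is a fixed 66 × 66 binary pattern H such that for every h ≥ 1, with n = (386h + 2) · 2^h and ε = (386h + 2)⁻², some n × n binary matrix A is ε-far from free of ordered copies of H (every n × n binary matrix without an ordered copy of H differs from A in at least ε · n² cells) while the number of ordered copies of H in A is at most ε · 2^(-h) · n^132. An ordered copy picks 66 rows and 66 columns in increasing order on which A coincides with H, zeros included. -/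
theorem result :
    ∃ H : Fin 66 → Fin 66 → Bool, ∀ h : ℕ, 1 ≤ h →
      ∃ A : Fin ((386 * h + 2) * 2 ^ h) → Fin ((386 * h + 2) * 2 ^ h) → Bool,
        (∀ B : Fin ((386 * h + 2) * 2 ^ h) → Fin ((386 * h + 2) * 2 ^ h) → Bool,
          Crest.CombinatoricsR.OrderedMatrix.orderedCopyCount H B = 0 →
            ((386 * (h : ℝ) + 2) ^ 2)⁻¹ * (((386 * h + 2) * 2 ^ h : ℕ) : ℝ) ^ 2 ≤
              ((Finset.univ.filter (fun rc : Fin ((386 * h + 2) * 2 ^ h) × Fin ((386 * h + 2) * 2 ^ h) =>
                A rc.1 rc.2 ≠ B rc.1 rc.2)).card : ℝ)) ∧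
        (Crest.CombinatoricsR.OrderedMatrix.orderedCopyCount H A : ℝ) /
            (((386 * h + 2) * 2 ^ h : ℕ) : ℝ) ^ 132 ≤
          ((386 * (h : ℝ) + 2) ^ 2)⁻¹ * (2 : ℝ)⁻¹ ^ h := by
  refine ⟨HH, fun h hh => ⟨AA h _, fun B hB => ?_, ?_⟩⟩
  · have := far h ((386 * h + 2) * 2 ^ h) hh (Nat.mul_le_mul_right _ (by omega)) B hB
    have h2 : (((2 ^ h * 2 ^ h : ℕ) : ℝ)) ≤ _ := Nat.cast_le.2 this
    refine le_trans (le_of_eq ?_) h2
    have : (386 * (h : ℝ) + 2) ≠ 0 := by positivity
    push_cast
    field_simp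
  · have := few h ((386 * h + 2) * 2 ^ h) hh
    have h2 : ((orderedCopyCount HH (AA h ((386 * h + 2) * 2 ^ h)) : ℕ) : ℝ) ≤ _ := Nat.cast_le.2 this
    have hpos : (0 : ℝ) < (((386 * h + 2) * 2 ^ h : ℕ) : ℝ) := by positivity
    rw [div_le_iff₀ (by positivity)]
    refine le_trans h2 (le_of_eq ?_)
    have e : (((386 * h + 2) * 2 ^ h : ℕ) : ℝ) = (386 * (h : ℝ) + 2) * 2 ^ h := by push_cast; ring
    rw [Nat.cast_mul, Nat.cast_mul, Nat.cast_pow, Nat.cast_pow, Nat.cast_pow, e]
    have : (386 * (h : ℝ) + 2) ≠ 0 := by positivity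
    generalize (386 * (h : ℝ) + 2) = a at *
    rw [inv_pow]
    have : ((2 : ℝ) ^ h) ≠ 0 := by positivity
    push_cast
    generalize (2 : ℝ) ^ h = m at *
    field_simp

end Crest.Agent.S0066
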