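import Crest.Statements.S0072
import Crest.Agent.H1.FracB
import Crest.Agent.H1.PP

set_option autoImplicit false
open Crest Crest.CombinatoricsR

namespace Crest.Agent.S0072

section
open Finset H1.Cube

variable {ι : Type} [Fintype ι] [DecidableEq ι]

lemma Ex_st (p : ℝ) (D : Finset (Finset ι)) :
    Ex p (ind {x | st x ∈ D}) = ∑ S ∈ D, p ^ S.card * (1 - p) ^ (Fintype.card ι - S.card) := by
  classical
  simp only [Ex, ind, mul_ite, mul_one, mul_zero, Set.mem_ofPred_eq]
  rw [← sum_filter]
  refine sum_bij' (fun x _ => st x) (fun S _ e => decide (e ∈ S)) (fun x hx => (mem_filter.1 hx).2)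
    (fun S hS => ?_) (fun x _ => ?_) (fun S _ => ?_) fun x _ => ?_
  · simpa [st] using hS
  · ext e
    simp [st]
  · simp [st]
  · rw [FinProb.bernoulliWeight, prod_ite, prod_const, prod_const, st, filter_not,
      card_sdiff_of_subset (filter_subset _ _), card_univ]

/-- sets covered by at most `j` members of `D` -/
def Cov (D : Finset (Finset ι)) (j : ℕ) (T : Finset ι) : Prop :=
  ∃ M ⊆ D, #M ≤ j ∧ T ⊆ M.biUnion id

omit [Fintype ι] in
lemma Cov.union {D : Finset (Finset ι)} {j k : ℕ} {T T' S : Finset ι} (h : Cov D j T)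
    (h' : Cov D k T') (hS : S ⊆ T ∪ T') : Cov D (j + k) S := by
  obtain ⟨M, h1, h2, h3⟩ := h
  obtain ⟨M', h1', h2', h3'⟩ := h'
  refine ⟨M ∪ M', union_subset h1 h1', (card_union_le _ _).trans (by omega), hS.trans ?_⟩
  exact union_subset (h3.trans (biUnion_subset_biUnion_of_subset_left _ subset_union_left))
    (h3'.trans (biUnion_subset_biUnion_of_subset_left _ subset_union_right))

lemma Ex_cov {p ε : ℝ} (h0 : 0 ≤ p) (h1 : p ≤ 1) (D : Finset (Finset ι))
    (hD : 1 - ε ≤ Ex p (ind {x | st x ∈ D})) (j : ℕ) :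
    1 - j * ε ≤ Ex (1 - (1 - p) ^ j) (ind {x | Cov D j (st x)}) := by
  classical
  induction j with
  | zero =>
    simp only [pow_zero, sub_self, Nat.cast_zero, zero_mul, sub_zero]
    have := Ex_prod (ι := ι) (p := 0) (fun _ b => if b then 0 else 1)
    simp only [zero_mul, sub_zero, Bool.false_eq_true, if_false, mul_one, zero_add,
      prod_const_one] at this
    rw [← this]
    refine Ex_mono le_rfl zero_le_one fun x => ?_
    by_cases hx : ∃ e, x e = true
    · obtain ⟨e, he⟩ := hx
      rw [prod_eq_zero (mem_univ e) (by simp [he])]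
      rcases ind_isBool {x | Cov D 0 (st x)} x with h | h <;> simp [h]
    · push Not at hx
      rw [ind, if_pos ⟨∅, empty_subset _, le_rfl, fun e he => absurd (mem_filter.1 he).2 (hx e)⟩]
      simp [hx]
  | succ j ih =>
    have hq0 : 0 ≤ (1 - p) ^ j := pow_nonneg (by linarith) _
    have hq1 : (1 - p) ^ j ≤ 1 := pow_le_one₀ (by linarith) (by linarith)
    have e : 1 - (1 - p) ^ (j + 1) = 1 - (1 - (1 - (1 - p) ^ j)) * (1 - p) := by ring
    rw [e, Ex_union]
    have := Ex_mono (p := 1 - (1 - p) ^ j) (by linarith) (by linarith)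
      (f := fun x => ind {x | Cov D j (st x)} x + (Ex p (ind {x | st x ∈ D}) - 1))
      (g := fun x => Ex p fun y => ind {x | Cov D (j + 1) (st x)} fun e => x e || y e) fun x => by
        rw [← Ex_const (ι := ι) (p := p) (ind {x | Cov D j (st x)} x),
          ← Ex_const (ι := ι) (p := p) 1, ← Ex_sub, ← Ex_add]
        refine Ex_mono h0 h1 fun y => ?_
        unfold ind
        split_ifs with h2 h3 h4 <;> try norm_num
        refine h4 (Cov.union h2 (T' := st y) ⟨{st y}, by simpa using h3, by simp, by simp⟩ ?_)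
        intro e he
        simpa [st] using he
    rw [Ex_add, Ex_const] at this
    push_cast
    linarith

lemma hoffman {p : ℝ} (h0 : 0 < p) (h1 : p < 1) (a : (ι → Bool) → ℝ) (S : Finset ι)
    (h : ∀ x y, a x ≠ 0 → a y ≠ 0 → ∃ e ∈ S, x e = false ∧ y e = false) :
    Ex p a ^ 2 ≤ ∑ I ∈ S.powerset, if I = ∅ then 0 else ((1 - p) / p) ^ #I * fc p a I ^ 2 := by
  have key : ∑ I ∈ S.powerset, (-((1 - p) / p)) ^ #I * fc p a I ^ 2 = 0 := by
    have e1 : ∀ x y, ∑ I ∈ S.powerset, (-((1 - p) / p)) ^ #I *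
        ((a x * chi p I x) * (a y * chi p I y)) = 0 := fun x y => by
      have e2 : ∑ I ∈ S.powerset, (-((1 - p) / p)) ^ #I * ((a x * chi p I x) * (a y * chi p I y))
          = a x * a y * ∏ e ∈ S, (1 + -((1 - p) / p) * (ph p (x e) * ph p (y e))) := by
        rw [prod_one_add, mul_sum]
        refine sum_congr rfl fun I _ => ?_
        rw [prod_mul_distrib, prod_mul_distrib, prod_const, chi, chi]
        ring
      rw [e2]
      by_cases hx : a x = 0
      · simp [hx]
      by_cases hy : a y = 0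
      · simp [hy]
      obtain ⟨e, he, h2, h3⟩ := h x y hx hy
      rw [prod_eq_zero he, mul_zero]
      have h4 := sg_sq h0 h1
      have h5 := sg_pos h0 h1
      rw [h2, h3, ph]
      simp only [Bool.false_eq_true, if_false]
      field_simp
      linarith
    have e3 : (Ex p fun x => Ex p fun y => ∑ I ∈ S.powerset, (-((1 - p) / p)) ^ #I *
        ((a x * chi p I x) * (a y * chi p I y))) = 0 := by
      simp only [e1, Ex_const]
    rw [← e3]
    simp only [Ex_sum, Ex_const_mul, Ex_mul_const, fc, sq]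
  rw [← add_sum_erase _ _ (empty_mem_powerset S)] at key ⊢
  rw [card_empty, pow_zero, one_mul, fc_empty] at key
  rw [if_pos rfl, zero_add, eq_neg_of_add_eq_zero_left key, ← sum_neg_distrib]
  refine sum_le_sum fun I hI => ?_
  rw [if_neg (mem_erase.1 hI).1, ← neg_mul]
  refine mul_le_mul_of_nonneg_right ((neg_le_abs _).trans (le_of_eq ?_)) (sq_nonneg _)
  rw [abs_pow, abs_neg, abs_of_nonneg (div_nonneg (by linarith) h0.le)]

lemma main {p : ℝ} (h0 : 0 < p) (h1 : p < 1) (D : Finset (Finset ι)) (j k : ℕ)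
    (hj : 2 ^ 23 ≤ j) (hk : 3 * j ≤ k) (hD : 1 - 1 / (k : ℝ) ≤ Ex p (ind {x | st x ∈ D})) :
    ∃ G : Finset (Finset ι), (∀ S : Finset ι,
      (∀ f : Fin k → Finset ι, (∀ i, f i ∈ D) → ¬ S ⊆ univ.biUnion f) → ∃ I ∈ G, I ⊆ S) ∧
      ∑ I ∈ G, p ^ I.card ≤ 1 / 2 := by
  classical
  have hj0 : 0 < j := lt_of_lt_of_le (by norm_num) hj
  have hk' : (3 : ℝ) * j ≤ k := by exact_mod_cast hk
  have hj' : (1 : ℝ) ≤ j := by exact_mod_cast hj0
  have hkpos : (0 : ℝ) < k := by linarith
  have hq0 : 0 < (1 - p) ^ j := pow_pos (by linarith) _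
  have hq1 : (1 - p) ^ j < 1 := pow_lt_one₀ (by linarith) (by linarith) hj0.ne'
  set p' := 1 - (1 - p) ^ j with hp'
  have p0 : 0 < p' := by linarith
  have p1 : p' < 1 := by linarith
  set a : (ι → Bool) → ℝ := ind {x | Cov D j (st x)}
  have ha : 2 / 3 ≤ Ex p' a := by
    refine le_trans ?_ (Ex_cov h0.le h1.le D hD j)
    have : j * (1 / (k : ℝ)) ≤ 1 / 3 := by
      rw [mul_one_div, div_le_iff₀ hkpos]
      linarith
    linarith
  have hDne : D.Nonempty := by
    rw [nonempty_iff_ne_empty]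
    rintro rfl
    rw [Ex_st, sum_empty] at hD
    have : 1 / (k : ℝ) ≤ 1 / 3 := one_div_le_one_div_of_le (by norm_num) (by linarith)
    linarith
  refine (H1.Frac.frac_cover (univ.filter fun S => ¬ Cov D (j + j) S) (p' / (1 - p'))
    p h0.le ?_ (fun I => (if I = ∅ then 0 else ((1 - p') / p') ^ #I * fc p' a I ^ 2) / Ex p' a ^ 2)
    (fun I => ?_) (fun S hS => ?_) ?_).elim fun G ⟨hG, hc⟩ => ?_
  rotate_right
  · refine ⟨G, fun S hS => hG S (mem_filter.2 ⟨mem_univ _, fun ⟨M, hM1, hM2, hM3⟩ => ?_⟩), hc⟩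
    obtain ⟨d, hd⟩ := hDne
    refine hS (fun i => M.toList.getD i d) (fun i => ?_) fun e he => ?_
    · by_cases hi : (i : ℕ) < M.toList.length
      · rw [List.getD_eq_getElem _ _ hi]
        exact hM1 (mem_toList.1 (List.getElem_mem hi))
      · rwa [List.getD_eq_default _ _ (not_lt.1 hi)]
    · obtain ⟨A, hA, heA⟩ := mem_biUnion.1 (hM3 he)
      obtain ⟨i, hi, rfl⟩ := List.getElem_of_mem (mem_toList.2 hA)
      refine mem_biUnion.2 ⟨⟨i, ?_⟩, mem_univ _, ?_⟩
      · rw [length_toList] at hi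
        omega
      · rwa [List.getD_eq_getElem _ _ hi]
  · have h2 : (2 : ℝ) ^ 23 ≤ j := by exact_mod_cast hj
    have h3 := one_add_mul_le_pow (a := p) (by linarith) j
    have h4 : (1 + p) ^ j * (1 - p) ^ j ≤ 1 := by
      rw [← mul_pow]
      exact pow_le_one₀ (by nlinarith) (by nlinarith)
    rw [le_div_iff₀ (by linarith), hp', sub_sub_cancel]
    nlinarith [mul_le_mul_of_nonneg_right h3 hq0.le, mul_le_mul_of_nonneg_right h2 (mul_pos h0 hq0).le]
  · have : 0 < 1 - p' := by linarith
    split_ifs <;> positivity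
  · rw [← sum_div, le_div_iff₀ (by positivity), one_mul]
    refine hoffman p0 p1 a S fun x y hx hy => ?_
    by_contra h2
    refine (mem_filter.1 hS).2 (Cov.union (T := st x) (T' := st y) ?_ ?_ fun e he => ?_)
    · by_contra h3
      exact hx (if_neg h3)
    · by_contra h3
      exact hy (if_neg h3)
    · by_contra h3
      refine h2 ⟨e, he, ?_⟩
      simpa [st] using h3
  · have e : ∑ I : Finset ι, (if I = ∅ then 0 else ((1 - p') / p') ^ #I * fc p' a I ^ 2) /
        Ex p' a ^ 2 * (p' / (1 - p')) ^ #I = var p' a / Ex p' a ^ 2 := by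
      rw [var, sum_div]
      refine sum_congr rfl fun I _ => ?_
      split_ifs
      · simp
      · have : 0 < 1 - p' := by linarith
        rw [div_pow, div_pow]
        field_simp
    rw [e, var_eq p0 p1 (ind_isBool _), div_le_iff₀ (by positivity)]
    nlinarith

end

/-- Let N ≥ 1, 0 < p < 1, k = 2^75, and let D be any family of subsets of an N-element set whose probability under the product measure with density p (each element present independently with probability p) is at least 1 - 1/k. Then the family of all sets S that are contained in no union of k members of D (members may repeat) is p-small: there is a family G of sets such that every such S contains a member of G and Σ_{I ∈ G} p^(card I) ≤ 1/2. -/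
theorem result (N : ℕ) (hN : 1 ≤ N) (p : ℝ)
    (hp0 : 0 < p) (hp1 : p < 1) (D : Finset (Finset (Fin N)))
    (hD : 1 - 1 / 2 ^ 75 ≤ ∑ S ∈ D, p ^ S.card * (1 - p) ^ (N - S.card)) :
    ∃ G : Finset (Finset (Fin N)),
      (∀ S : Finset (Fin N),
        (∀ f : Fin (2 ^ 75) → Finset (Fin N), (∀ i, f i ∈ D) → ¬ S ⊆ Finset.univ.biUnion f) →
          ∃ I ∈ G, I ⊆ S) ∧
      ∑ I ∈ G, p ^ I.card ≤ 1 / 2 := by
  refine main hp0 hp1 D (2 ^ 23) (2 ^ 75) le_rfl (by norm_num) ?_
  rw [Ex_st, Fintype.card_fin]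
  exact_mod_cast hD

end Crest.Agent.S0072
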