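import Crest.Statements.S0073
import Crest.Agent.H1.DecG

set_option autoImplicit false
open Crest Crest.CombinatoricsR

namespace Crest.Agent.S0073

section
open Finset H1.Cube H1.Dec RandomGraph

variable {n : ℕ} {W : Type} [Fintype W] [DecidableEq W]

lemma good_one (hW : Fintype.card W ≤ n) (H : SimpleGraph W) : Good n 1 H.Adj := by
  obtain ⟨ι⟩ : Nonempty (W ↪ Fin n) := Function.Embedding.nonempty_of_card_le (by simpa using hW)
  have := Ex_prod (ι := EdgeSlot n) (p := 1) (fun _ b => if b then 1 else 0)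
  simp only [if_true, mul_one, sub_self, zero_mul, add_zero, prod_const_one] at this
  refine le_trans (by norm_num) (this.ge.trans (Ex_mono zero_le_one le_rfl fun x => ?_))
  by_cases hx : ∀ e, x e = true
  · rw [ind, if_pos ⟨ι, ι.injective, fun a b h => (adj_iff _ _ _).2 ⟨by simpa using h.ne, hx _⟩⟩]
    simp [hx]
  · push Not at hx
    obtain ⟨e, he⟩ := hx
    rw [prod_eq_zero (mem_univ e) (by simp [he])]
    exact ind_nonneg _ _

lemma dec_main {L p : ℝ} (hL : L = (2 * 64 ^ 40) ^ 2) (h0 : 0 < p) (hn : 2 ≤ n)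
    (hW : Fintype.card W ≤ n) {H : SimpleGraph W} (hH : H ≠ ⊥) (hs : Sp n p H) :
    ∃ R : W → W → Prop, (∀ a b, H.Adj a b → R a b ∨ R b a) ∧
      Dec n (min 1 (L * p)) (160 * (2 * 8192)) R := by
  classical
  rcases le_or_gt 1 (L * p) with h1 | h1
  · rw [min_eq_left h1]
    exact ⟨H.Adj, fun a b h => Or.inl h, (good_one hW H).dec.mono (by norm_num)⟩
  rw [min_eq_right h1.le]
  have hL' : 100000 ≤ L := by
    rw [hL]
    norm_num
  have hp1 : p < 1 := by nlinarith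
  have hn' : (2 : ℝ) ≤ n := by exact_mod_cast hn
  have hbig : 64 ^ 40 ≤ n := by
    obtain ⟨e, he⟩ := SimpleGraph.edgeSet_nonempty.2 hH
    induction e using Sym2.ind with | _ a b
    have hab : H.Adj a b := he
    obtain ⟨v, hv, h2⟩ := low_vertex h0.le hp1.le (by omega) hs (T := {a, b}) (by simp)
    have h3 : 1 ≤ #{u ∈ ({a, b} : Finset W) | H.Adj v u} := by
      refine card_pos.2 ?_
      rcases mem_insert.1 hv with rfl | hv
      · exact ⟨b, by simpa using hab⟩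
      · obtain rfl := mem_singleton.1 hv
        exact ⟨a, by simpa using hab.symm⟩
    have h4 := pow_le_pow_of_le_one h0.le hp1.le h3
    rw [pow_one] at h4
    have h5 : 1 ≤ (2 * n : ℝ) ^ 2 * p := h2.trans (mul_le_mul_of_nonneg_left (by convert h4)
      (by positivity))
    have h6 : L < (2 * n : ℝ) ^ 2 := lt_of_mul_lt_mul_right (h1.trans_le h5) h0.le
    rw [hL] at h6
    have h7 := lt_of_pow_lt_pow_left₀ 2 (by positivity) h6
    have h8 : (64 : ℝ) ^ 40 ≤ n := by linarith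
    exact_mod_cast h8
  have hex : ∃ d, (2 * n : ℝ) ^ 2 * p ^ (d + 1) < 1 := by
    obtain ⟨d, hd⟩ := exists_pow_lt_of_lt_one (x := 1 / (2 * n : ℝ) ^ 2) (by positivity) hp1
    rw [lt_div_iff₀ (by positivity)] at hd
    have := pow_le_pow_of_le_one h0.le hp1.le (Nat.le_succ d)
    exact ⟨d, (mul_le_mul_of_nonneg_left this (by positivity)).trans_lt (by linarith)⟩
  set d0 := Nat.find hex with hd0
  have hd1 : ∀ d, 1 ≤ (2 * n : ℝ) ^ 2 * p ^ d → d ≤ d0 := fun d hd => by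
    by_contra h
    have := pow_le_pow_of_le_one h0.le hp1.le (show d0 + 1 ≤ d by omega)
    have h2 := Nat.find_spec hex
    rw [← hd0] at h2
    linarith [mul_le_mul_of_nonneg_left this (by positivity : 0 ≤ (2 * n : ℝ) ^ 2)]
  obtain ⟨rk, hrk, hrk2⟩ := exists_rank H d0 fun T hT => by
    obtain ⟨v, hv, h⟩ := low_vertex h0.le hp1.le (by omega) hs hT
    exact ⟨v, hv, hd1 _ h⟩
  refine ⟨fun v u => H.Adj v u ∧ rk u < rk v, fun a b h => ?_, ?_⟩
  · rcases lt_trichotomy (rk a) (rk b) with h2 | h2 | h2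
    · exact Or.inr ⟨h.symm, h2⟩
    · exact absurd (hrk h2) h.ne
    · exact Or.inl ⟨h, h2⟩
  suffices key : ∃ D, d0 ≤ 160 * D ∧ ∀ R : W → W → Prop,
      (∀ v u, R v u → H.Adj v u ∧ rk u < rk v) → (∀ v, #{u | R v u} ≤ D) →
      Dec n (L * p) (2 * 8192) R by
    obtain ⟨D, h2, h3⟩ := key
    choose lab hlab using fun v => exists_split (k := 160) (D := D)
      ({u | H.Adj v u ∧ rk u < rk v} : Finset W) (by norm_num) ((hrk2 v).trans h2)
    refine (Dec.union (T := Fin 160) (fun i v u => (H.Adj v u ∧ rk u < rk v) ∧ lab v u = i)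
      (fun i => h3 _ (fun v u h => h.1) fun v => le_trans (card_le_card fun u hu => ?_) (hlab v i))
      fun a b h => ⟨_, h, rfl⟩).mono (by simp)
    simpa using hu
  rcases le_or_gt d0 160 with h2 | h2
  · exact ⟨1, h2, fun R hR hD => (dec_forest hL' h0 rfl h1 (le_trans (by norm_num) hbig) hW hs R rk
      hR hD).mono (by norm_num)⟩
  refine ⟨d0 / 80, by omega, fun R hR hD => ?_⟩
  have hex2 : ∃ t, 2 * n ≤ t ^ 40 := ⟨2 * n, Nat.le_self_pow (by norm_num) _⟩
  set t := Nat.find hex2 with ht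
  have ht1 : 2 * n ≤ t ^ 40 := Nat.find_spec hex2
  have ht2 : 64 ≤ t := (Nat.pow_le_pow_iff_left (n := 40) (by norm_num)).1 (by omega)
  have ht3 : (t - 1) ^ 40 < 2 * n := not_le.1 (Nat.find_min hex2 (by omega))
  refine dec_dense hL' h0 rfl h1 ht2 ?_ (by omega) ?_ hW hs R rk hR hD
  · have e1 : t ^ 40 ≤ (2 * (t - 1)) ^ 40 := Nat.pow_le_pow_left (by omega) _
    have e2 : 64 ^ 7 ≤ t ^ 7 := Nat.pow_le_pow_left ht2 _
    have e3 : t ^ 33 * 64 ^ 7 ≤ t ^ 40 := (Nat.mul_le_mul_left _ e2).trans (le_of_eq (by ring))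
    rw [mul_pow] at e1
    omega
  · have e1 : 1 ≤ (2 * n : ℝ) ^ 2 * p ^ d0 := by
      have := not_lt.1 (Nat.find_min hex (show d0 - 1 < d0 by omega))
      rwa [show d0 - 1 + 1 = d0 by omega] at this
    have e2 := pow_le_pow_of_le_one h0.le hp1.le (show d0 / 80 * 80 ≤ d0 by omega)
    have e3 : (2 * n : ℝ) ≤ t ^ 40 := by exact_mod_cast ht1
    have e4 := pow_le_pow_left₀ (by positivity) e3 2
    refine le_of_pow_le_pow_left₀ (n := 80) (by norm_num) (by positivity) ?_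
    rw [← pow_mul, one_div_pow, div_le_iff₀ (by positivity)]
    rw [← pow_mul] at e4
    exact e1.trans (mul_le_mul e4 e2 (by positivity) (by positivity))

end

open Finset H1.Cube H1.Dec RandomGraph in
/-- There are k ≥ 2 and L ≥ 1 such that for all n ≥ 2 and every simple graph H with an edge, on at most n vertices, the edges of H can be labelled by k labels so that each label class H_i (same vertex set) has p_c(H_i; n) ≤ L · q(H; n), unfolded: for some p ∈ [0, 1] at which the family of edge sets of K_n containing a copy of H has a cover of cost Σ p^(card S) ≤ 1/2, the binomial random graph on n vertices at edge probability min(1, L·p) contains a copy of H_i with probability ≥ 1/2. -/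
theorem result :
    ∃ k : ℕ, 2 ≤ k ∧ ∃ L : ℝ, 1 ≤ L ∧ ∀ n : ℕ, 2 ≤ n →
      ∀ (W : Type) [Fintype W] [DecidableEq W] (H : SimpleGraph W),
        Fintype.card W ≤ n → H ≠ ⊥ →
        ∃ c : H.edgeSet → Fin k, ∀ i : Fin k, ∃ p : ℝ, 0 ≤ p ∧ p ≤ 1 ∧
          (∃ C : Finset (Finset (Crest.CombinatoricsR.RandomGraph.EdgeSlot n)),
            (∀ A : Finset (Crest.CombinatoricsR.RandomGraph.EdgeSlot n),
              H.IsContained (Crest.CombinatoricsR.RandomGraph.edgeGraph A) → ∃ S ∈ C, S ⊆ A) ∧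
            ∑ S ∈ C, p ^ S.card ≤ 1 / 2) ∧
          1 / 2 ≤ Crest.CombinatoricsR.RandomGraph.gnpProb n (min 1 (L * p))
            {G | (Crest.CombinatoricsR.RandomGraph.pieceGraph H c i).IsContained G} := by
  refine ⟨160 * (2 * 8192), by norm_num, (2 * 64 ^ 40) ^ 2, by norm_num,
    fun n hn W _ _ H hW hH => ?_⟩
  obtain ⟨p, h0, h1, hs, hC⟩ := exists_p hW hH
  obtain ⟨R, hR, S, hS1, hS2, hS3⟩ := dec_main rfl h0 hn hW hH hs
  obtain ⟨e⟩ : Nonempty (S ↪ Fin (160 * (2 * 8192))) :=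
    Function.Embedding.nonempty_of_card_le (by rwa [Fintype.card_coe, Fintype.card_fin])
  have : ∀ ε : H.edgeSet, ∃ K : S, ∃ a b, ε.1 = s(a, b) ∧ K.1 a b := by
    rintro ⟨ε, hε⟩
    induction ε using Sym2.ind with | _ a b
    rcases hR a b hε with h | h
    · obtain ⟨K, hK, h2⟩ := hS3 _ _ h
      exact ⟨⟨K, hK⟩, a, b, rfl, h2⟩
    · obtain ⟨K, hK, h2⟩ := hS3 _ _ h
      exact ⟨⟨K, hK⟩, b, a, Sym2.eq_swap, h2⟩
  choose K hK using this
  refine ⟨fun ε => e (K ε), fun i => ⟨p, h0.le, h1, hC, ?_⟩⟩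
  obtain ⟨K0, hK0⟩ : ∃ K0 : S, ∀ ε, e (K ε) = i → K ε = K0 := by
    by_cases h : ∃ ε, e (K ε) = i
    · obtain ⟨ε, h⟩ := h
      exact ⟨K ε, fun ε' h2 => e.injective (h2.trans h.symm)⟩
    · obtain ⟨ε, hε⟩ := SimpleGraph.edgeSet_nonempty.2 hH
      exact ⟨K ⟨ε, hε⟩, fun ε' h2 => absurd ⟨ε', h2⟩ h⟩
  rw [gnpProb, prob_eq]
  refine (hS2 _ K0.2).trans (Ex_mono (le_min zero_le_one (by positivity)) (min_le_left _ _)
    fun x => ind_mono ?_)
  rintro ⟨φ, h2, h3⟩
  refine ⟨⟨⟨φ, fun {a b} hab => ?_⟩, h2⟩⟩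
  simp only [pieceGraph, SimpleGraph.fromEdgeSet_adj, Set.mem_ofPred_eq] at hab
  obtain ⟨⟨h4, h5⟩, -⟩ := hab
  obtain ⟨a', b', h6, h7⟩ := hK ⟨_, h4⟩
  rw [hK0 _ h5] at h7
  rcases Sym2.eq_iff.1 h6 with ⟨rfl, rfl⟩ | ⟨rfl, rfl⟩
  · exact h3 _ _ h7
  · exact (h3 _ _ h7).symm

end Crest.Agent.S0073
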