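import Crest.Statements.S0074
import Crest.Agent.H6.MatE

set_option autoImplicit false
open Crest Crest.CombinatoricsR

namespace Crest.Agent.H6.Mat

open Set

/-- the gluing involution -/
def sg {δ : Type} : ℕ × (δ ⊕ δ) → ℕ × (δ ⊕ δ)
  | (0, Sum.inl d) => (0, Sum.inl d)
  | (k + 1, Sum.inl d) => (k, Sum.inr d)
  | (k, Sum.inr d) => (k + 1, Sum.inl d)

theorem sg_sg {δ : Type} (x : ℕ × (δ ⊕ δ)) : sg (sg x) = x := by
  rcases x with ⟨_ | k, d | d⟩ <;> simp [sg]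

theorem exists_glued : ∃ M : Matroid (ℕ × (D ⊕ D)), M.E = univ ∧
    (∀ A, M.IsBase A ↔ M.IsBase Aᶜ) ∧
    ∀ A₀ A₁, M.Indep A₀ → M.Indep A₁ → ¬ ∀ x, x ∈ A₀ ∨ sg x ∈ A₁ := by
  obtain ⟨T, r, wo, S, hR, hS⟩ := exists_family (B := BD) BD_split.two
  have hcov : ∀ Y Z : Set D, (∀ d, d ∈ Y ∨ d ∈ Z) → cov BD Y Z := by
    intro Y Z h
    have : (Y ∪ Z)ᶜ = ∅ := by
      ext d
      simpa using fun h1 => (h d).resolve_left h1
    unfold cov
    rw [this]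
    exact BD.negl_empty
  have hv := fun i => BD.two.vertex {b | Mem S i b} (by
    rintro b ⟨l, hb⟩ b' ⟨l', hb'⟩
    have h := (hR _ hb _ hb').1 rfl
    refine ⟨h.1, fun h1 => h.2.2 ?_, fun h1 => h.2.1 ?_⟩
    · exact (hcov (L bᶜ) (L b) fun d => (em _).symm).of_le (le_L h1)
    · exact (hcov (Rr b) (Rr bᶜ) fun d => em _).of_le (le_Rr h1)) (fun I X h => hS i I X h)
  choose U hU1 hU2 hU3 using hv
  refine ⟨Matroid.sum' U, ?_, ?_, ?_⟩
  · rw [Matroid.sum'_ground_eq]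
    ext ⟨i, a⟩
    simp [hU1]
  · intro A
    rw [Matroid.sum'_isBase_iff, Matroid.sum'_isBase_iff]
    exact forall_congr' fun i => by rw [hU2 i, preimage_compl]
  · have hsym : ∀ A₀ A₁ : Set (ℕ × (D ⊕ D)), (∀ x, x ∈ A₀ ∨ sg x ∈ A₁) →
        ∀ x, x ∈ A₁ ∨ sg x ∈ A₀ := by
      intro A₀ A₁ h x
      have := h (sg x)
      rw [sg_sg] at this
      exact this.symm
    have wf : WellFounded r := IsWellFounded.wf
    have key : ∀ l : T, ∀ (k : ℕ) (c : Set (D ⊕ D)) (A₀ A₁ : Set (ℕ × (D ⊕ D))),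
        (Matroid.sum' U).Indep A₀ → (Matroid.sum' U).Indep A₁ → (∀ x, x ∈ A₀ ∨ sg x ∈ A₁) →
        (k, c, l) ∈ S → ¬ BD.two.le (Prod.mk k ⁻¹' A₀) c := by
      intro l
      induction l using wf.induction with
      | _ l ih =>
        intro k c A₀ A₁ h0 h1 h hc hle
        obtain ⟨b, hb, hb'⟩ := hU3 (k + 1) _ (Matroid.sum'_indep_iff.1 h1 (k + 1))
        have h2 : cov BD (Rr c) (L b) :=
          ((hcov (Rr (Prod.mk k ⁻¹' A₀)) (L (Prod.mk (k + 1) ⁻¹' A₁))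
            fun d => by
              have := h (k, Sum.inr d)
              rw [show sg (k, Sum.inr d) = (k + 1, Sum.inl d) by cases k <;> rfl] at this
              exact this).of_le (le_L hb')).symm.of_le (le_Rr hle) |>.symm
        rcases hb with ⟨l', hb⟩ | ⟨l', hb⟩
        · exact ih l' (((hR _ hc _ hb).2 rfl).2 h2) (k + 1) b A₁ A₀ h1 h0 (hsym _ _ h) hb hb'
        · apply ((hR _ hc _ hb).2 rfl).1
          simpa using h2
    intro A₀ A₁ h0 h1 h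
    obtain ⟨b, hb, hb'⟩ := hU3 0 _ (Matroid.sum'_indep_iff.1 h0 0)
    obtain ⟨c, hc, hc'⟩ := hU3 0 _ (Matroid.sum'_indep_iff.1 h1 0)
    rcases hb with ⟨l, hb⟩ | ⟨l, hb⟩
    · exact key l 0 b A₀ A₁ h0 h1 h hb hb'
    rcases hc with ⟨l', hc⟩ | ⟨l', hc⟩
    · exact key l' 0 c A₁ A₀ h1 h0 (hsym _ _ h) hc hc'
    have h2 : cov BD (L b) (L c) :=
      ((hcov (L (Prod.mk 0 ⁻¹' A₀)) (L (Prod.mk 0 ⁻¹' A₁))
        fun d => h (0, Sum.inl d)).of_le (le_L hc')).symm.of_le (le_L hb') |>.symm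
    apply ((hR _ hb _ hc).1 rfl).2.2
    simpa using h2

theorem mapEquiv_facts {α β : Type} (M : Matroid α) (f : α ≃ β) (hE : M.E = univ)
    (h : ∀ A, M.IsBase A ↔ M.IsBase Aᶜ) :
    (M.mapEquiv f).E = univ ∧ ∀ A, (M.mapEquiv f).IsBase A ↔ (M.mapEquiv f).IsBase Aᶜ := by
  constructor
  · rw [Matroid.mapEquiv_ground_eq, hE, image_univ, f.surjective.range_eq]
  · intro A
    rw [Matroid.mapEquiv_isBase_iff, Matroid.mapEquiv_isBase_iff, h,
      image_compl_eq f.symm.bijective]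

end Crest.Agent.H6.Mat

namespace Crest.Agent.S0074

/-- There are two matroids M₀, M₁ on the whole of ℕ (a countably infinite ground set), each equal to its own dual on the same labelled ground set, such that no independent set of M₀ together with an independent set of M₁ covers ℕ, and the pair has no packing/covering partition: no splitting ℕ = P ⊔ C allows disjoint S₀, S₁ ⊆ P with Sᵢ spanning the restriction of Mᵢ to P, and sets I₀, I₁ with union C, Iᵢ independent in the contraction of Mᵢ onto C (the complement of C contracted). -/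
theorem result :
    ∃ M₀ M₁ : Matroid ℕ, M₀.E = Set.univ ∧ M₁.E = Set.univ ∧ M₀.dual = M₀ ∧ M₁.dual = M₁ ∧
      (∀ I₀ I₁ : Set ℕ, M₀.Indep I₀ → M₁.Indep I₁ → I₀ ∪ I₁ ≠ Set.univ) ∧
      ¬ ∃ P C S₀ S₁ I₀ I₁ : Set ℕ, P ∪ C = Set.univ ∧ Disjoint P C ∧
          S₀ ⊆ P ∧ S₁ ⊆ P ∧ Disjoint S₀ S₁ ∧
          (M₀.restrict P).closure S₀ = P ∧ (M₁.restrict P).closure S₁ = P ∧
          I₀ ⊆ C ∧ I₁ ⊆ C ∧ (M₀.contract Cᶜ).Indep I₀ ∧ (M₁.contract Cᶜ).Indep I₁ ∧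
          I₀ ∪ I₁ = C := by
  obtain ⟨M, hE, hB, hno⟩ := Crest.Agent.H6.Mat.exists_glued
  obtain ⟨e⟩ : Nonempty ((ℕ × (H6.Mat.D ⊕ H6.Mat.D)) ≃ ℕ) := nonempty_equiv_of_countable
  let σ : Equiv.Perm (ℕ × (H6.Mat.D ⊕ H6.Mat.D)) :=
    Function.Involutive.toPerm H6.Mat.sg H6.Mat.sg_sg
  obtain ⟨a1, a2⟩ := H6.Mat.mapEquiv_facts M e hE hB
  obtain ⟨b1, b2⟩ := H6.Mat.mapEquiv_facts M (σ.trans e) hE hB
  have hcov : ∀ I₀ I₁ : Set ℕ, (M.mapEquiv e).Indep I₀ → (M.mapEquiv (σ.trans e)).Indep I₁ →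
      I₀ ∪ I₁ ≠ Set.univ := by
    intro I₀ I₁ h0 h1 h
    rw [Matroid.mapEquiv_indep_iff] at h0 h1
    refine hno _ _ h0 h1 fun x => ?_
    have hx : e x ∈ I₀ ∪ I₁ := h ▸ Set.mem_univ _
    rcases hx with hx | hx
    · exact Or.inl ⟨e x, hx, by simp⟩
    · refine Or.inr ⟨e x, hx, ?_⟩
      simp [σ, Function.Involutive.toPerm]
  refine ⟨M.mapEquiv e, M.mapEquiv (σ.trans e), a1, b1, H6.Mat.dual_eq_of _ a1 a2,
    H6.Mat.dual_eq_of _ b1 b2, hcov, ?_⟩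
  rintro ⟨P, C, S₀, S₁, I₀, I₁, h1, h2, h3, h4, h5, h6, h7, _, _, h10, h11, h12⟩
  have hC : Cᶜ = P := by
    ext x
    have hx : x ∈ P ∪ C := h1 ▸ Set.mem_univ x
    constructor
    · intro h
      exact hx.resolve_right h
    · intro h h'
      exact Set.disjoint_left.1 h2 h h'
  rw [hC] at h10 h11
  refine hcov _ _ (H6.Mat.indep_of_partition _ a1 a2 P S₀ I₀ h3 h6 h10)
    (H6.Mat.indep_of_partition _ b1 b2 P S₁ I₁ h4 h7 h11) ?_
  ext x
  simp only [Set.mem_univ, iff_true]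
  have hx : x ∈ P ∪ C := h1 ▸ Set.mem_univ x
  rcases hx with hx | hx
  · by_cases h : x ∈ S₀
    · exact Or.inr (Or.inr ⟨hx, fun h' => Set.disjoint_left.1 h5 h h'⟩)
    · exact Or.inl (Or.inr ⟨hx, h⟩)
  · rw [← h12] at hx
    rcases hx with hx | hx
    · exact Or.inl (Or.inl hx)
    · exact Or.inr (Or.inl hx)

end Crest.Agent.S0074
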