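import Crest.Statements.S0076
import Crest.Agent.H1.PP
import Crest.Agent.H1.EntC

set_option autoImplicit false
open Crest Crest.CombinatoricsR

namespace Crest.Agent.S0076

open Finset Pointwise H1.Cube RandomGraph in
instance act (n : ℕ) : MulAction (Equiv.Perm (Fin n)) (EdgeSlot n) where
  smul σ e := ⟨e.1.map σ, fun h => e.2 ((Sym2.isDiag_map σ.injective).1 h)⟩
  one_smul e := Subtype.ext (by
    change e.1.map _ = _
    simp)
  mul_smul σ τ e := Subtype.ext (by
    change e.1.map _ = (e.1.map _).map _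
    simp [Sym2.map_map])

lemma smul_val {n : ℕ} (σ : Equiv.Perm (Fin n)) (e : RandomGraph.EdgeSlot n) :
    (σ • e).1 = e.1.map σ := rfl

lemma adj_iff {n : ℕ} (x : RandomGraph.EdgeSlot n → Bool) (a b : Fin n) :
    (RandomGraph.graphOf x).Adj a b ↔ ∃ h : ¬ s(a, b).IsDiag, x ⟨s(a, b), h⟩ = true := by
  simp only [RandomGraph.graphOf, SimpleGraph.fromEdgeSet_adj, Set.mem_ofPred_eq]
  exact ⟨fun h => h.1, fun h => ⟨h, by simpa using h.1⟩⟩

open Finset Pointwise H1.Cube H1.Ent RandomGraph in
lemma sparse {n : ℕ} {W : Type} [Fintype W] (H : SimpleGraph W) (ι : W ↪ Fin n) {p : ℝ}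
    (hp0 : 0 ≤ p) (hp1 : p ≤ 1)
    (hE : ∀ F : H.Subgraph, (1 : ℝ) / 2 ≤ gnpExpect n p (fun G => (G.copyCount F.coe : ℝ)))
    (B : Finset (EdgeSlot n)) (hB : ∀ e ∈ B, ∃ a b, H.Adj a b ∧ e.1 = s(ι a, ι b)) :
    1 / 2 ≤ #(orb (Equiv.Perm (Fin n)) B) * p ^ #B := by
  classical
  let F : H.Subgraph :=
    { verts := {a | ∃ b, H.Adj a b ∧ ∃ e ∈ B, e.1 = s(ι a, ι b)}
      Adj := fun a b => H.Adj a b ∧ ∃ e ∈ B, e.1 = s(ι a, ι b)
      adj_sub := fun h => h.1
      edge_vert := fun h => ⟨_, h⟩
      symm := ⟨fun a b h => ⟨h.1.symm, by rw [Sym2.eq_swap]; exact h.2⟩⟩ }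
  refine (hE F).trans ?_
  have h1 : ∀ x : EdgeSlot n → Bool, ((graphOf x).copyCount F.coe : ℝ) ≤
      ∑ B' ∈ orb (Equiv.Perm (Fin n)) B, ∏ e, if e ∈ B' then (if x e then 1 else 0) else 1 := by
    intro x
    have h2 : (graphOf x).copyCount F.coe ≤ #{B' ∈ orb (Equiv.Perm (Fin n)) B | B' ⊆ st x} := by
      unfold SimpleGraph.copyCount
      refine card_le_card_of_injOn (fun G' => univ.filter fun e => e.1 ∈ G'.edgeSet)
        (fun G' hG' => ?_) fun G1 h1 G2 h2 h => ?_
      · simp only [coe_filter, mem_univ, true_and, Set.mem_ofPred_eq] at hG' ⊢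
        obtain ⟨φ⟩ := hG'
        obtain ⟨σ, hσ⟩ := Equiv.Perm.exists_extending_pair (fun a : F.verts => ι a.1)
          (fun a => (φ a).1) (ι.injective.comp Subtype.val_injective)
          (Subtype.val_injective.comp φ.injective)
        refine ⟨mem_image.2 ⟨σ, mem_univ _, ?_⟩, fun e he => ?_⟩
        · ext e
          simp only [mem_smul_finset, mem_filter, mem_univ, true_and]
          constructor
          · rintro ⟨e0, he0, rfl⟩
            obtain ⟨a, b, hab, h3⟩ := hB e0 he0
            have h4 : F.Adj a b := ⟨hab, e0, he0, h3⟩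
            have h5 : G'.coe.Adj (φ ⟨a, h4.fst_mem⟩) (φ ⟨b, h4.snd_mem⟩) := φ.map_adj_iff.2 h4
            rw [smul_val, h3, Sym2.map_mk, hσ ⟨a, h4.fst_mem⟩, hσ ⟨b, h4.snd_mem⟩]
            exact h5
          · obtain ⟨e, he⟩ := e
            induction e using Sym2.ind with | _ u v
            intro h3
            have h4 : G'.Adj u v := h3
            have h5 : F.coe.Adj (φ.symm ⟨u, h4.fst_mem⟩) (φ.symm ⟨v, h4.snd_mem⟩) :=
              φ.symm.map_adj_iff.2 h4
            obtain ⟨-, e0, he0, h6⟩ := h5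
            refine ⟨e0, he0, Subtype.ext ?_⟩
            rw [smul_val, h6, Sym2.map_mk, hσ, hσ]
            simp
        · obtain ⟨e, he'⟩ := e
          induction e using Sym2.ind with | _ u v
          have h4 : G'.Adj u v := (mem_filter.1 he).2
          obtain ⟨h5, h6⟩ := (adj_iff _ _ _).1 (G'.adj_sub h4)
          exact mem_filter.2 ⟨mem_univ _, h6⟩
      · simp only [coe_filter, mem_univ, true_and, Set.mem_ofPred_eq] at h1 h2
        have key : ∀ G1 G2 : (graphOf x).Subgraph, (univ.filter fun e : EdgeSlot n =>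
            e.1 ∈ G1.edgeSet) = (univ.filter fun e => e.1 ∈ G2.edgeSet) →
            ∀ u v, G1.Adj u v → G2.Adj u v := by
          intro G1 G2 h u v huv
          obtain ⟨h5, -⟩ := (adj_iff _ _ _).1 (G1.adj_sub huv)
          have : (⟨s(u, v), h5⟩ : EdgeSlot n) ∈ univ.filter fun e : EdgeSlot n =>
            e.1 ∈ G1.edgeSet := mem_filter.2 ⟨mem_univ _, huv⟩
          rw [h] at this
          exact (mem_filter.1 this).2
        have key2 : ∀ G1 : (graphOf x).Subgraph, Nonempty (F.coe ≃g G1.coe) →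
            ∀ u ∈ G1.verts, ∃ v, G1.Adj u v := by
          rintro G1 ⟨φ⟩ u hu
          obtain ⟨b, hb⟩ := (φ.symm ⟨u, hu⟩).2
          have h4 : F.Adj _ b := hb
          have h5 : G1.coe.Adj (φ (φ.symm ⟨u, hu⟩)) (φ ⟨b, h4.snd_mem⟩) := φ.map_adj_iff.2 h4
          rw [RelIso.apply_symm_apply] at h5
          exact ⟨_, h5⟩
        ext u v
        · constructor
          · intro hu
            obtain ⟨v, hv⟩ := key2 G1 h1 u hu
            exact (key _ _ h _ _ hv).fst_mem
          · intro hu
            obtain ⟨v, hv⟩ := key2 G2 h2 u hu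
            exact (key _ _ h.symm _ _ hv).fst_mem
        · exact ⟨key _ _ h _ _, key _ _ h.symm _ _⟩
    refine le_trans (Nat.cast_le.2 h2) (le_of_eq ?_)
    rw [card_filter]
    push_cast
    refine sum_congr rfl fun B' _ => ?_
    rw [prod_ite_mem, univ_inter, prod_ite_zero]
    simp [st, subset_iff]
  refine le_trans (Ex_mono hp0 hp1 h1) (le_of_eq ?_)
  rw [Ex_sum, ← nsmul_eq_mul, ← sum_const]
  refine sum_congr rfl fun B' hB' => ?_
  rw [Ex_prod (fun e (b : Bool) => if e ∈ B' then (if b then (1 : ℝ) else 0) else 1)]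
  obtain ⟨σ, _, rfl⟩ := mem_image.1 hB'
  rw [← card_smul_finset σ B, ← prod_const, ← univ_inter (σ • B), ← prod_ite_mem, univ_inter]
  refine prod_congr rfl fun e _ => ?_
  split_ifs <;> simp_all

open Finset Pointwise H1.Cube H1.Ent RandomGraph in
/-- Let n ≥ 2 and let H be a finite simple graph with h ≥ 1 edges on at most n vertices. Suppose the edge probability p ∈ [0, 1] is such that for every subgraph F of H the expected number of subgraphs of the binomial random graph on n labelled vertices that are isomorphic to F is at least 1/2. Then at edge probability min(1, 2^11 · e^50 · p · (1 + log₂ h)) that random graph contains a (not necessarily induced) copy of H with probability at least 1/2. -/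
theorem result
    (n : ℕ) (hn : 2 ≤ n) (W : Type) [Fintype W] [DecidableEq W] (H : SimpleGraph W)
    [DecidableRel H.Adj] (hW : Fintype.card W ≤ n) (hH : 1 ≤ H.edgeFinset.card)
    (p : ℝ) (hp0 : 0 ≤ p) (hp1 : p ≤ 1)
    (hE : ∀ F : H.Subgraph, (1 : ℝ) / 2 ≤
      Crest.CombinatoricsR.RandomGraph.gnpExpect n p (fun G => (G.copyCount F.coe : ℝ))) :
    (1 : ℝ) / 2 ≤ Crest.CombinatoricsR.RandomGraph.gnpProb n
      (min 1 (2048 * Real.exp 50 * p * (1 + Real.logb 2 (H.edgeFinset.card : ℝ))))
      {G | H.IsContained G} := by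
  classical
  obtain ⟨ι⟩ : Nonempty (W ↪ Fin n) := Function.Embedding.nonempty_of_card_le (by simpa using hW)
  set HH : Finset (EdgeSlot n) := univ.filter fun e => ∃ a b, H.Adj a b ∧ e.1 = s(ι a, ι b)
    with hHH
  have hs : ∀ B ⊆ HH, 1 / 2 ≤ #(orb (Equiv.Perm (Fin n)) B) * p ^ #B := fun B hB =>
    sparse H ι hp0 hp1 hE B fun e he => (mem_filter.1 (hB he)).2
  have hne : HH.Nonempty := by
    obtain ⟨e, he⟩ := card_pos.1 hH
    induction e using Sym2.ind with | _ a b
    have hab : H.Adj a b := by simpa using he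
    exact ⟨⟨s(ι a, ι b), by simpa using hab.ne⟩, mem_filter.2 ⟨mem_univ _, a, b, hab, rfl⟩⟩
  have hp : 0 < p := by
    refine hp0.lt_of_ne' fun h => ?_
    have := hs HH le_rfl
    rw [h, zero_pow hne.card_pos.ne'] at this
    norm_num at this
  have hcard : #HH ≤ #H.edgeFinset := by
    rw [← card_map (Function.Embedding.subtype _)]
    refine le_trans (card_le_card fun e he => ?_) (card_image_le (f := Sym2.map ι))
    obtain ⟨e', he', rfl⟩ := mem_map.1 he
    obtain ⟨a, b, hab, h⟩ := (mem_filter.1 he').2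
    exact mem_image.2 ⟨s(a, b), by simpa using hab, h.symm⟩
  set h := #H.edgeFinset
  set r := min 1 (2048 * Real.exp 50 * p * (1 + Real.logb 2 h)) with hr
  have hl : (Nat.log 2 h : ℝ) ≤ Real.logb 2 h := by exact_mod_cast Real.natLog_le_logb h 2
  have hl0 : (0 : ℝ) ≤ Nat.log 2 h := Nat.cast_nonneg _
  have r0 : 0 ≤ r := le_min zero_le_one (by
    have : 0 ≤ 1 + Real.logb 2 h := by linarith
    positivity)
  have r1 : r ≤ 1 := min_le_left _ _
  have hq : 16 * (Real.exp 30 * p) * (Nat.log 2 h + 1) ≤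
      2048 * Real.exp 50 * p * (1 + Real.logb 2 h) := by
    refine mul_le_mul ?_ (by linarith) (by positivity) (by positivity)
    have : Real.exp 30 ≤ Real.exp 50 := Real.exp_le_exp.2 (by norm_num)
    have := Real.exp_pos 30
    nlinarith
  have fail : Ex r (ind {x | ∀ S ∈ orb (Equiv.Perm (Fin n)) HH, ¬ S ⊆ st x}) ≤ 1 / 3 := by
    rcases lt_or_ge (16 * (Real.exp 30 * p)) 1 with h1 | h1
    · have := park_pham (q := Real.exp 30 * p) (by positivity) h1 (Nat.log 2 h + 1)
        (orb (Equiv.Perm (Fin n)) HH) 1 r (fun S hS => by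
          obtain ⟨σ, _, rfl⟩ := mem_image.1 hS
          rw [card_smul_finset]
          exact hcard.trans_lt (Nat.lt_pow_succ_log_self one_lt_two h)) (fun G hG => by
          have hc : (0 : ℝ) < Fintype.card (Equiv.Perm (Fin n)) := by
            exact_mod_cast Fintype.card_pos
          refine le_of_mul_le_mul_left ?_ hc
          rw [mul_sum, mul_one]
          refine le_trans ?_ (sum_le_sum fun T _ => spread hp (fun B hB _ => hs B hB) T)
          rw [← Nat.cast_sum, Nat.cast_le]
          refine le_trans (card_le_card fun σ _ => ?_) card_biUnion_le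
          obtain ⟨T, hT, hT2⟩ := hG (σ⁻¹ • HH) (mem_image.2 ⟨_, mem_univ _, rfl⟩)
          exact mem_biUnion.2 ⟨T, hT, mem_filter.2 ⟨mem_univ _,
            Finset.smul_finset_subset_iff.2 hT2⟩⟩) r0 r1 (by
          have h2 := one_add_mul_le_pow (a := -(16 * (Real.exp 30 * p))) (by linarith)
            (Nat.log 2 h + 1)
          rw [← sub_eq_add_neg] at h2
          rcases le_total 1 (2048 * Real.exp 50 * p * (1 + Real.logb 2 h)) with h3 | h3
          · rw [hr, min_eq_left h3, sub_self]
            exact pow_nonneg (by linarith) _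
          · rw [hr, min_eq_right h3]
            push_cast at h2
            linarith)
      have h2 : (0 : ℝ) ≤ (1 / 4) ^ (Nat.log 2 h + 1) := by positivity
      linarith
    · have : r = 1 := min_eq_left (by nlinarith)
      rw [this, Ex, sum_eq_zero]
      · norm_num
      intro x _
      by_cases hx : ∀ e, x e = true
      · rw [ind, if_neg, mul_zero]
        intro h2
        exact h2 _ (mem_image.2 ⟨1, mem_univ _, rfl⟩) fun e _ => mem_filter.2 ⟨mem_univ _, hx e⟩
      · push Not at hx
        obtain ⟨e, he⟩ := hx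
        rw [FinProb.bernoulliWeight, prod_eq_zero (mem_univ e) (by simp [he]), zero_mul]
  rw [gnpProb, prob_eq]
  have k := Ex_mono r0 r1 (f := fun x => 1 -
    ind {x | ∀ S ∈ orb (Equiv.Perm (Fin n)) HH, ¬ S ⊆ st x} x)
    (g := ind {ω | graphOf ω ∈ {G | H.IsContained G}}) (fun x => by
      unfold ind
      split_ifs with h1 h2 h2
      · norm_num
      · norm_num
      · norm_num
      · refine absurd ?_ h2
        simp only [Set.mem_ofPred_eq, not_forall, not_not] at h1 ⊢
        obtain ⟨S, hS, h3⟩ := h1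
        obtain ⟨σ, _, rfl⟩ := mem_image.1 hS
        refine ⟨⟨⟨fun a => σ (ι a), fun {a b} hab => ?_⟩, σ.injective.comp ι.injective⟩⟩
        have h4 : (⟨s(ι a, ι b), by simpa using hab.ne⟩ : EdgeSlot n) ∈ HH :=
          mem_filter.2 ⟨mem_univ _, a, b, hab, rfl⟩
        exact (adj_iff _ _ _).2 ⟨_, (mem_filter.1 (h3 (smul_mem_smul_finset h4))).2⟩)
  rw [Ex_sub, Ex_const] at k
  linarith

end Crest.Agent.S0076
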