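import Crest.Statements.S0077
import Crest.Agent.H1.CubeE

set_option autoImplicit false
open Crest Crest.CombinatoricsR

namespace Crest.Agent.S0077

/-- the action of a transposition on edge slots -/
def act {n : ℕ} (v w : Fin n) (e : RandomGraph.EdgeSlot n) : RandomGraph.EdgeSlot n :=
  ⟨e.1.map (Equiv.swap v w), fun h => e.2 ((Sym2.isDiag_map (Equiv.injective _)).1 h)⟩

lemma act_invol {n : ℕ} (v w : Fin n) : Function.Involutive (act v w) := fun e => by
  ext1
  simp [act, Sym2.map_map]

lemma adj_iff {n : ℕ} (x : RandomGraph.EdgeSlot n → Bool) (a b : Fin n) :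
    (RandomGraph.graphOf x).Adj a b ↔ ∃ h : ¬ s(a, b).IsDiag, x ⟨s(a, b), h⟩ = true := by
  simp only [RandomGraph.graphOf, SimpleGraph.fromEdgeSet_adj, Set.mem_ofPred_eq]
  exact ⟨fun h => h.1, fun h => ⟨h, by simpa using h.1⟩⟩

lemma graphOf_act {n : ℕ} (v w : Fin n) (x : RandomGraph.EdgeSlot n → Bool) :
    RandomGraph.graphOf (x ∘ act v w) =
      (RandomGraph.graphOf x).map (Equiv.swap v w).toEmbedding := by
  ext a b
  rw [SimpleGraph.map_adj, adj_iff]
  constructor
  · rintro ⟨h, h2⟩
    refine ⟨Equiv.swap v w a, Equiv.swap v w b, (adj_iff _ _ _).2 ⟨_, h2⟩, by simp, by simp⟩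
  · rintro ⟨a', b', h, rfl, rfl⟩
    obtain ⟨h1, h2⟩ := (adj_iff _ _ _).1 h
    refine ⟨(act v w ⟨_, h1⟩).2, ?_⟩
    exact (congrArg x (act_invol v w ⟨_, h1⟩)).trans h2

/-- Let n ≥ 2 and let P be a family of simple graphs on n labelled vertices that is invariant under renaming vertices, closed under adding edges, non-empty and not everything; let 0 < ε < 1/2. If the binomial random graph with edge probability p ∈ [0, 1] lies in P with probability at least ε, then at every edge probability q ∈ [0, 1] with q ≥ p + 2^19 · log(1/(2ε)) / (log n)² it lies in P with probability at least 1 - ε: the threshold interval from ε to 1 - ε is at most that long. -/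
theorem result (n : ℕ) (hn : 2 ≤ n)
    (P : Set (SimpleGraph (Fin n)))
    (hsymm : ∀ σ : Equiv.Perm (Fin n), ∀ G : SimpleGraph (Fin n), G ∈ P → G.map σ.toEmbedding ∈ P)
    (hmono : ∀ G G' : SimpleGraph (Fin n), G ≤ G' → G ∈ P → G' ∈ P)
    (hne : P.Nonempty) (hnu : P ≠ Set.univ) (ε : ℝ) (hε0 : 0 < ε) (hε : ε < 1 / 2)
    (p q : ℝ) (hp0 : 0 ≤ p) (hp1 : p ≤ 1) (hq0 : 0 ≤ q) (hq1 : q ≤ 1)
    (hp : ε ≤ Crest.CombinatoricsR.RandomGraph.gnpProb n p P)
    (hq : p + 2 ^ 19 / Real.log n ^ 2 * Real.log (1 / (2 * ε)) ≤ q) :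
    1 - ε ≤ Crest.CombinatoricsR.RandomGraph.gnpProb n q P := by
  set E : Set (RandomGraph.EdgeSlot n → Bool) := {ω | RandomGraph.graphOf ω ∈ P} with hE
  have hl : 0 < Real.log n := Real.log_pos (by exact_mod_cast (by omega : 1 < n))
  have hlε : 0 < Real.log (1 / (2 * ε)) :=
    Real.log_pos (by rw [lt_div_iff₀ (by positivity)]; linarith)
  have hs : ∀ v w x, x ∈ E → x ∘ act v w ∈ E := fun v w x hx => by
    simp only [hE, Set.mem_ofPred_eq] at hx ⊢
    rw [graphOf_act]
    exact hsymm _ _ hx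
  rw [RandomGraph.gnpProb, H1.Cube.prob_eq] at hp ⊢
  have h2 : 0 < 2 ^ 19 / Real.log n ^ 2 * Real.log (1 / (2 * ε)) := by positivity
  refine H1.Cube.threshold (H1.Cube.ind_isBool _) (fun x e => ?_) (L := Real.log n ^ 2 / 2 ^ 17)
    (fun t t0 t1 => ?_) hε0 hε hp0 (by linarith) hq1 hp ?_
  · unfold H1.Cube.ind
    split_ifs with h1 h2
    · rfl
    · refine absurd (hmono _ _ (fun a b hab => ?_) h1) h2
      obtain ⟨h3, h4⟩ := (adj_iff _ _ _).1 hab
      refine (adj_iff _ _ _).2 ⟨h3, ?_⟩
      by_cases h5 : ⟨s(a, b), h3⟩ = e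
      · simp [h5]
      · rwa [Function.update_of_ne h5] at h4 ⊢
    · norm_num
    · rfl
  · have key := H1.Cube.main_log t0 t1 (H1.Cube.ind_isBool E) (r := 2) (n := n)
      le_rfl (by omega) (inc := fun e : RandomGraph.EdgeSlot n => e.1.toFinset)
      (fun e e' h => Subtype.ext (Sym2.ext fun u => by
        rw [← Sym2.mem_toFinset, ← Sym2.mem_toFinset]
        exact iff_of_eq (congrArg (u ∈ ·) h)))
      (fun e => Sym2.card_toFinset_of_not_isDiag _ e.2) (fun v w => by
        refine ⟨(act_invol v w).toPerm, fun x => ?_, fun e => ?_⟩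
        · have : x ∘ act v w ∈ E ↔ x ∈ E := ⟨fun h => by
            have := hs v w _ h
            rwa [Function.comp_assoc, (act_invol v w).comp_self, Function.comp_id] at this,
            hs v w x⟩
          exact H1.Cube.ind_congr this
        · ext u
          simp only [act, Function.Involutive.coe_toPerm, Sym2.mem_toFinset, Sym2.mem_map,
            Finset.mem_map, Equiv.coe_toEmbedding])
    have hI : 0 ≤ ∑ e, H1.Cube.inf t (H1.Cube.ind E) e := Finset.sum_nonneg fun e _ =>
      H1.Cube.Ex_nonneg t0.le t1.le fun x => sq_nonneg _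
    norm_num at key
    rw [← mul_div_assoc, div_le_iff₀ (by positivity)]
    linarith
  · have : 2 ^ 19 / Real.log n ^ 2 * Real.log (1 / (2 * ε)) ≤ q - p := by linarith
    refine le_trans (le_of_eq ?_) (mul_le_mul_of_nonneg_left this (by positivity))
    field_simp
    norm_num

end Crest.Agent.S0077
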