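import Crest.Statements.S0078
import Crest.Agent.H1.CubeE

set_option autoImplicit false
open Crest Crest.CombinatoricsR

namespace Crest.Agent.S0078

/-- For every r ≥ 3 there is a real constant C such that for all n ≥ r, all 0 < p < 1 and every Boolean function f of the simple r-uniform hypergraph on n labelled vertices that is invariant under renaming the vertices (no monotonicity assumed), the variance of f under independent edge-coins of bias p, namely P(f = true) · (1 - P(f = true)), is at most C · (log n)^(-r/(r-1)) times the total pivotal influence of f at bias p (natural logarithm). -/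
theorem result (r : ℕ) (hr : 3 ≤ r) :
    ∃ C : ℝ, ∀ n : ℕ, r ≤ n → ∀ p : ℝ, 0 < p → p < 1 →
      ∀ f : (Crest.CombinatoricsR.HypergraphCube.HyperedgeSlot n r → Bool) → Bool,
        Crest.CombinatoricsR.HypergraphCube.IsSymmetric f →
          Crest.CombinatoricsR.HypergraphCube.probTrue p f *
              (1 - Crest.CombinatoricsR.HypergraphCube.probTrue p f) ≤
            C / Real.log n ^ ((r : ℝ) / ((r : ℝ) - 1)) *
              Crest.CombinatoricsR.HypergraphCube.totalInfluence p f := by
  refine ⟨(11 * r + 11) ^ ((r : ℝ) / (r - 1)), fun n hn p h0 h1 f hf => ?_⟩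
  have key := H1.Cube.main_log h0 h1 (H1.Cube.ind_isBool {x | f x = true}) (r := r) (n := n)
    (by omega) (by omega) (inc := fun e : HypergraphCube.HyperedgeSlot n r => e.1)
    Subtype.val_injective (fun e => e.2) (fun v w => by
      refine ⟨Function.Involutive.toPerm (HypergraphCube.relabelSlot (Equiv.swap v w))
        (fun e => ?_), fun x => ?_, fun e => rfl⟩
      · ext u
        simp [HypergraphCube.relabelSlot]
      · have := hf (Equiv.swap v w) x
        exact H1.Cube.ind_congr (iff_of_eq (congrArg (· = true) this)))
  rw [H1.Cube.var_eq h0 h1 (H1.Cube.ind_isBool _), ← H1.Cube.prob_eq] at key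
  have e2 : ∑ e, H1.Cube.inf p (H1.Cube.ind {x | f x = true}) e =
      HypergraphCube.totalInfluence p f := by
    refine Finset.sum_congr rfl fun e _ => ?_
    rw [H1.Cube.inf_ind, HypergraphCube.pivotalInfluence]
    congr 1
    ext x
    simp only [Set.mem_ofPred_eq, Bool.coe_iff_coe]
  rw [e2] at key
  have hl : 0 < Real.log n := Real.log_pos (by exact_mod_cast (by omega : 1 < n))
  rw [div_mul_eq_mul_div, le_div_iff₀ (by positivity)]
  exact key

end Crest.Agent.S0078
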