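import Crest.Statements.S0094
import Crest.Agent.Lead.CovC

set_option autoImplicit false
open Pointwise Crest.AnalysisR
open Crest Crest.AnalysisR

namespace Crest.Agent.S0094

/-- For all real a, b ≥ 1 there are n ≥ 1 and a compact convex set K in Euclidean n-space with nonempty interior, symmetric about 0, such that, with L the cube of points having all coordinates in [-1, 1] and polars taken for the standard inner product (the y pairing to at most 1 with each point of the set): some m translates of a⁻¹ • (polar of K) cover the polar of L, while any k translates of L covering K satisfy b * log m < log k. So log N(K, L) > b log N(L°, a⁻¹K°) for covering numbers N. -/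
theorem result
    (a b : ℝ) (ha : 1 ≤ a) (hb : 1 ≤ b) :
    ∃ n : ℕ, 0 < n ∧ ∃ K : Set (EuclideanSpace ℝ (Fin n)),
      Convex ℝ K ∧ IsCompact K ∧ (interior K).Nonempty ∧ (∀ x ∈ K, -x ∈ K) ∧
      ∃ t₁ : Finset (EuclideanSpace ℝ (Fin n)),
        polarSet {x : EuclideanSpace ℝ (Fin n) | ∀ i, |x i| ≤ 1} ⊆ ⋃ y ∈ t₁, (y +ᵥ a⁻¹ • polarSet K) ∧
        ∀ t₂ : Finset (EuclideanSpace ℝ (Fin n)),
          K ⊆ ⋃ x ∈ t₂, (x +ᵥ {z : EuclideanSpace ℝ (Fin n) | ∀ i, |z i| ≤ 1}) →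
          b * Real.log t₁.card < Real.log t₂.card := by
  classical
  obtain ⟨L, hL⟩ : ∃ L : ℕ, 60 * a ≤ L := ⟨⌈60 * a⌉₊, Nat.le_ceil _⟩
  obtain ⟨b', hb'⟩ : ∃ b' : ℕ, b ≤ b' := ⟨⌈b⌉₊, Nat.le_ceil _⟩
  have hL0 : 0 < L := by
    have : (0:ℝ) < L := by linarith
    exact_mod_cast this
  have hb0 : 0 < b' := by
    have : (0:ℝ) < b' := by linarith
    exact_mod_cast this
  obtain ⟨k, hk⟩ : ∃ k : ℕ, k + 1 = 4 * (b' * L ^ 2) :=
    ⟨4 * (b' * L ^ 2) - 1, by have : 0 < b' * L ^ 2 := by positivity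
                              omega⟩
  obtain ⟨h, hh⟩ : ∃ h : ℕ, h = 2 ^ L * (2 * (k+1) ^ (2 ^ L)) := ⟨_, rfl⟩
  have hh0 : 0 < h := by rw [hh]; positivity
  obtain ⟨M, hM⟩ : ∃ M : ℕ, M + 1 = L * h :=
    ⟨L * h - 1, by have : 0 < L * h := by positivity
                   omega⟩
  obtain ⟨u, hu⟩ : ∃ u : ℕ, u = b' * (L ^ 2 * (k+1) ^ M) := ⟨_, rfl⟩
  have hu0 : 0 < u := by rw [hu]; positivity
  have hN : Fintype.card (Fin (M+1) → Fin (k+1)) = 2 * (2 * u) := by
    rw [Fintype.card_fun, Fintype.card_fin, Fintype.card_fin, pow_succ, hu]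
    nth_rewrite 2 [hk]
    ring
  obtain ⟨C, hC⟩ : ∃ C : ℕ, C = (M+1) * Fintype.card (CovDual.Shape (Fin (M+1)) k (L^2) →
      (Finset.Icc (-((L * Fintype.card (CovDual.Shape (Fin (M+1)) k (L^2)) : ℕ) : ℤ))
        ((L * Fintype.card (CovDual.Shape (Fin (M+1)) k (L^2)) : ℕ) : ℤ))) := ⟨_, rfl⟩
  obtain ⟨q, hq⟩ : ∃ q : ℕ, q = C ^ b' * 2 ^ (2 * (2 * u)) + 1 := ⟨_, rfl⟩
  have hq0 : 0 < q := by omega
  haveI : Nonempty (Fin q) := ⟨⟨0, hq0⟩⟩
  let X := {H : Finset (Fin (M+1)) // Hᶜ.card ≤ h} × ((Fin (M+1) → Fin (k+1)) → Fin q)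
  haveI : Nonempty X := ⟨(⟨Finset.univ, by simp⟩, Classical.arbitrary _)⟩
  let e : Fin (Fintype.card X) ≃ X := (Fintype.equivFin X).symm
  obtain ⟨G, hG⟩ := CovDual.exists_desc (k := k) hq0 L h hL0 hh0
    (by rw [Fintype.card_fin, hM]) (fun x => (e x).1.1) (fun x => (e x).1.2) (fun x => (e x).2)
  obtain ⟨K, h1, h2, h3, h4, t₁, h5, h6, h7⟩ := CovDual.geom a ha L hL
    (fun z x => (CovDual.phi L (e x).1.1 (CovDual.agree z (e x).2) : ℝ)) G hG
    (2 ^ Fintype.card (Fin (M+1) → Fin (k+1)) * q ^ (2 * u)) (by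
      intro z
      refine le_trans (Finset.card_le_card ?_) (CovDual.card_close hq0 (2 * u) hN z)
      intro z' hz'
      rw [Finset.mem_filter] at hz' ⊢
      refine ⟨Finset.mem_univ _, ?_⟩
      by_contra hcon
      obtain ⟨H, hH1, hH2⟩ := CovDual.exists_indep (2 ^ L) (CovDual.agree z' z) (not_lt.1 hcon)
      have := hz'.2 (e.symm (⟨H, by rw [hh]; exact hH1⟩, z))
      simp only [Equiv.apply_symm_apply] at this
      rw [CovDual.agree_self, CovDual.phi_univ, CovDual.phi_eq_zero L H hH2] at this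
      simp at this)
  refine ⟨Fintype.card X, Fintype.card_pos, K, h1, h2, h3, h4, t₁, h5, fun t₂ ht => ?_⟩
  have h8 := h7 t₂ ht
  rw [CovDual.card_desc, Fintype.card_fin, Nat.add_sub_cancel, mul_right_comm, ← hC] at h6
  rw [Fintype.card_fun, Fintype.card_fin, hN] at h8
  have hC0 : 0 < C := by
    rw [hC]
    refine Nat.mul_pos (by omega) (Fintype.card_pos_iff.2 ⟨fun _ => ⟨0, Finset.mem_Icc.2
      ⟨neg_nonpos.2 (Int.natCast_nonneg _), Int.natCast_nonneg _⟩⟩⟩)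
  have h9 : (C * q ^ (L ^ 2 * (k+1) ^ M)) ^ b' < t₂.card := by
    by_contra hcon
    have hcon := not_lt.1 hcon
    rw [mul_pow, ← pow_mul, mul_comm _ b', ← hu] at hcon
    have h10 : q ^ (2 * (2 * u)) ≤ C ^ b' * 2 ^ (2 * (2 * u)) * q ^ (3 * u) := by
      refine h8.trans ((Nat.mul_le_mul_right _ hcon).trans (le_of_eq ?_))
      ring
    have h11 : C ^ b' * 2 ^ (2 * (2 * u)) * q ^ (3 * u) < q * q ^ (3 * u) :=
      Nat.mul_lt_mul_of_pos_right (by omega) (by positivity)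
    have h12 : q * q ^ (3 * u) ≤ q ^ (2 * (2 * u)) := by
      rw [← pow_succ']
      exact Nat.pow_le_pow_right hq0 (by omega)
    omega
  have hD : (0:ℝ) < ((C * q ^ (L ^ 2 * (k+1) ^ M) : ℕ) : ℝ) := by positivity
  have h13 : Real.log t₁.card ≤ Real.log ((C * q ^ (L ^ 2 * (k+1) ^ M) : ℕ) : ℝ) := by
    rcases Nat.eq_zero_or_pos t₁.card with h0 | h0
    · rw [h0, Nat.cast_zero, Real.log_zero]
      exact Real.log_natCast_nonneg _
    · exact Real.log_le_log (by exact_mod_cast h0) (by exact_mod_cast h6)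
  calc b * Real.log t₁.card ≤ b' * Real.log ((C * q ^ (L ^ 2 * (k+1) ^ M) : ℕ) : ℝ) :=
        mul_le_mul hb' h13 (Real.log_natCast_nonneg _) (by linarith)
    _ = Real.log ((((C * q ^ (L ^ 2 * (k+1) ^ M)) ^ b' : ℕ) : ℝ)) := by
        rw [Nat.cast_pow, Real.log_pow]
    _ < Real.log t₂.card := Real.log_lt_log (by positivity) (by exact_mod_cast h9)

end Crest.Agent.S0094
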