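import Crest.Statements.S0098
import Crest.Agent.H2.KEPGroup

set_option autoImplicit false
open Filter Crest.AnalysisR.CStarEmbedding
open Crest Crest.AnalysisR

namespace Crest.Agent.S0098

/-- There are a countable group `Γ`, a full group C⋆-algebra `(A, u)` of `Γ` and a universal C⋆-algebra `O` on two isometries with `s₁s₁⋆ + s₂s₂⋆ = 1`, each algebra given by generation and its universal property, such that for every free ultrafilter `ω` on `ℕ` no sequence of maps `A → O` induces a unital injective ⋆-homomorphism of `A` into the norm ultrapower `O^ω`. Thus some countable group's full group C⋆-algebra has no unital embedding into `O^ω`; the prover supplies the group. -/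
theorem result :
    ∃ (Γ : Type) (_ : Group Γ) (_ : Countable Γ) (A : Type) (_ : CStarAlgebra A) (u : Γ →* unitary A),
      IsFullGroupCStar A u ∧
      ∃ (O : Type) (_ : CStarAlgebra O) (s₁ s₂ : O), IsCuntzTwo O s₁ s₂ ∧
        ∀ ω : Ultrafilter ℕ, (∀ n : ℕ, (ω : Filter ℕ) ≠ pure n) →
          ¬ ∃ φ : ℕ → A → O, IsUltrapowerEmbedding ω A O φ := by
  have : Fact (Nat.Prime 37) := ⟨by norm_num⟩
  obtain ⟨A, iA, u, hA⟩ := Crest.Agent.H2.KEP.exists_full (Crest.Agent.H2.KEP.Gam (ZMod 37))
  obtain ⟨O, iO, s₁, s₂, hO⟩ := Crest.Agent.H2.KEP.exists_cuntz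
  refine ⟨Crest.Agent.H2.KEP.Gam (ZMod 37), inferInstance, inferInstance, A, iA, u, hA,
    O, iO, s₁, s₂, hO, fun ω _ ⟨φ, hφ⟩ => ?_⟩
  exact (Crest.Agent.H2.KEP.setup (F := ZMod 37) (by simp)).no_embedding hA hO ω φ hφ

end Crest.Agent.S0098
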