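import Crest.Statements.S0109
import Crest.Agent.H3.Limit

set_option autoImplicit false
open MeasureTheory
open scoped ENNReal NNReal
open Crest.AnalysisR.OT
open Crest Crest.AnalysisR Crest.AnalysisR.OT

namespace Crest.Agent.S0109

lemma opt_h {I W a b r B : ℝ} (hW0 : 0 ≤ W) (hWB : W ≤ B) (hr : 0 < r) (hb : 0 ≤ b)
    (H : ∀ h, 0 < h → h ≤ r → I ≤ a * W / h ^ 2 + b * h) :
    I ≤ (a / (r / (1 + B)) ^ 2 + b * (r / (1 + B))) * W ^ (1 / 3 : ℝ) := by
  have hB : 0 < 1 + B := by linarith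
  rcases hW0.eq_or_lt with h0 | h0
  · subst h0
    rw [Real.zero_rpow (by norm_num), mul_zero]
    refine le_of_forall_pos_le_add fun ε hε => ?_
    have h1 := H (min r (ε / (b + 1))) (lt_min hr (by positivity)) (min_le_left _ _)
    have h2 : b * min r (ε / (b + 1)) ≤ b * (ε / (b + 1)) :=
      mul_le_mul_of_nonneg_left (min_le_right _ _) hb
    have h3 : b * (ε / (b + 1)) ≤ ε := by
      rw [← mul_div_assoc, div_le_iff₀ (by positivity)]; nlinarith
    simp only [mul_zero, zero_div, zero_add] at h1 ⊢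
    linarith
  · set w := W ^ (1 / 3 : ℝ) with hw
    have hw0 : 0 < w := Real.rpow_pos_of_pos h0 _
    have hw3 : w ^ 3 = W := by
      rw [hw, ← Real.rpow_natCast, ← Real.rpow_mul h0.le]; norm_num
    have hwB : w ≤ 1 + B := by
      by_contra hc
      push Not at hc
      have h1 : 1 ≤ w := by linarith
      have : w ≤ w ^ 3 := le_self_pow₀ h1 (by norm_num)
      linarith
    have h1 := H (r / (1 + B) * w) (by positivity) (by
      rw [div_mul_eq_mul_div, div_le_iff₀ hB]; exact mul_le_mul_of_nonneg_left hwB hr.le)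
    refine h1.trans (le_of_eq ?_)
    rw [← hw3]; field_simp

/-- Fix d ≥ 2, a compact convex K ⊆ ℝᵈ with nonempty interior, ρ the uniform probability measure on K, and a nonempty compact Y ⊆ ℝᵈ. There is a constant C such that for all probability measures μ, ν carried by Y, all quadratic optimal transport maps Tμ from ρ to μ and Tν from ρ to ν, and every coupling π of μ and ν, ∫ ‖Tμ - Tν‖² dρ ≤ C · (∫ ‖y - z‖² dπ)^(1/3). With the best coupling: the L²(ρ) distance of the maps is at most √C times the cube root of the Wasserstein-2 distance of the targets. -/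
theorem result
    (d : ℕ) (hd : 2 ≤ d) (K : Set (EuclideanSpace ℝ (Fin d))) (hKc : IsCompact K) (hKv : Convex ℝ K)
    (hKi : (interior K).Nonempty) (Y : Set (EuclideanSpace ℝ (Fin d))) (hYc : IsCompact Y) (hYn : Y.Nonempty) :
    ∃ C : ℝ≥0, ∀ μ ν : Measure (EuclideanSpace ℝ (Fin d)), IsProbabilityOn Y μ → IsProbabilityOn Y ν →
      ∀ Tμ Tν : EuclideanSpace ℝ (Fin d) → EuclideanSpace ℝ (Fin d),
        IsOptimalMap (uniformProbOn K) μ Tμ → IsOptimalMap (uniformProbOn K) ν Tν →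
        ∀ π : Measure (EuclideanSpace ℝ (Fin d) × EuclideanSpace ℝ (Fin d)), IsPairCoupling μ ν π →
          ∫⁻ x, ‖Tμ x - Tν x‖ₑ ^ 2 ∂(uniformProbOn K) ≤ C * quadCost π ^ (1 / 3 : ℝ) := by
  obtain ⟨R, hR0, hR⟩ := hKc.isBounded.exists_pos_norm_le
  obtain ⟨M', hM0, hM⟩ := hYc.isBounded.exists_pos_norm_le
  lift M' to ℝ≥0 using hM0.le with M
  obtain ⟨x₀, hx₀⟩ := hKi
  obtain ⟨r, hr, hB⟩ := Metric.nhds_basis_closedBall.mem_iff.1 (mem_interior_iff_mem_nhds.1 hx₀)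
  have hs := H3.OT.src_uniform (H3.OT.hasPL_euclidean d) hKc hKv ⟨x₀, hx₀⟩ hR0 hR
  have hρ := hs.prob
  have hd' : 2 ≤ Module.finrank ℝ (EuclideanSpace ℝ (Fin d)) := by simpa using hd
  set n : ℝ := (Module.finrank ℝ (EuclideanSpace ℝ (Fin d)) : ℝ) with hn
  set a : ℝ := 9 * n * (887046 * R ^ 2) with ha
  set b : ℝ := (12 * n + 4) * ((M + 1 : ℝ≥0) : ℝ) ^ 2 * (n / r) with hb
  set c : ℝ := a / (r / (1 + (2 * M) ^ 2)) ^ 2 + b * (r / (1 + (2 * M) ^ 2)) with hc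
  have hc0 : 0 ≤ c := by positivity
  refine ⟨c.toNNReal, fun μ ν hμ hν Tμ Tν hTμ hTν π hπ => ?_⟩
  obtain ⟨rfl, rfl⟩ := hπ
  have hYm := hYc.measurableSet
  have hp : IsProbabilityMeasure π := by
    have := hμ.1.measure_univ
    rw [Measure.map_apply measurable_fst MeasurableSet.univ] at this
    exact ⟨this⟩
  have hY1 : ∀ᵐ y ∂(π.map Prod.fst), y ∈ Y := hμ.2
  have hY2 : ∀ᵐ y ∂(π.map Prod.snd), y ∈ Y := hν.2
  have hπ : ∀ᵐ p ∂π, ‖p.1‖ ≤ M ∧ ‖p.2‖ ≤ M := by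
    filter_upwards [ae_of_ae_map measurable_fst.aemeasurable hY1,
      ae_of_ae_map measurable_snd.aemeasurable hY2] with p h1 h2
    exact ⟨hM _ h1, hM _ h2⟩
  have hT : ∀ᵐ x ∂(uniformProbOn K), ‖Tμ x - Tν x‖ ^ 2 ≤ (2 * M) ^ 2 := by
    rw [← hTμ.2.1] at hY1
    rw [← hTν.2.1] at hY2
    filter_upwards [ae_of_ae_map hTμ.1.aemeasurable hY1, ae_of_ae_map hTν.1.aemeasurable hY2]
      with x h1 h2
    gcongr
    linarith [norm_sub_le (Tμ x) (Tν x), hM _ h1, hM _ h2]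
  have hπ' : ∀ᵐ p ∂π, ‖p.1 - p.2‖ ^ 2 ≤ (2 * M) ^ 2 := by
    filter_upwards [hπ] with p hp
    gcongr
    linarith [norm_sub_le p.1 p.2, hp.1, hp.2]
  have i1 : Integrable (fun x => ‖Tμ x - Tν x‖ ^ 2) (uniformProbOn K) :=
    Integrable.of_bound ((hTμ.1.sub hTν.1).norm.pow_const 2).aestronglyMeasurable _
      (hT.mono fun x hx => by rwa [Real.norm_eq_abs, abs_of_nonneg (sq_nonneg _)])
  have i2 : Integrable (fun p : EuclideanSpace ℝ (Fin d) × EuclideanSpace ℝ (Fin d) =>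
      ‖p.1 - p.2‖ ^ 2) π :=
    Integrable.of_bound (by fun_prop) _
      (hπ'.mono fun x hx => by rwa [Real.norm_eq_abs, abs_of_nonneg (sq_nonneg _)])
  have hW0 : 0 ≤ ∫ p, ‖p.1 - p.2‖ ^ 2 ∂π := integral_nonneg fun p => sq_nonneg _
  have hWB : ∫ p, ‖p.1 - p.2‖ ^ 2 ∂π ≤ (2 * M) ^ 2 := by
    simpa using integral_mono_ae i2 (integrable_const _) hπ'
  rw [quadCost, H3.OT.lintegral_enorm_sq i1, H3.OT.lintegral_enorm_sq i2,
    ENNReal.ofReal_rpow_of_nonneg hW0 (by norm_num)]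
  change _ ≤ ENNReal.ofReal c * _
  rw [← ENNReal.ofReal_mul hc0]
  refine ENNReal.ofReal_le_ofReal (opt_h hW0 hWB hr (by positivity) fun h hh hhr => ?_)
  refine (H3.OT.stability_real hs hKc hd' hr hB hπ hTμ hTν hh hhr).trans (le_of_eq ?_)
  simp only [norm_sub_rev (Prod.snd _)]
  rw [ha, hb]; ring

end Crest.Agent.S0109
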