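import Crest.Statements.S0110
import Crest.Agent.H3.Sharp

set_option autoImplicit false
open MeasureTheory
open scoped ENNReal NNReal
open Crest.AnalysisR.OT
open Crest Crest.AnalysisR Crest.AnalysisR.OT

namespace Crest.Agent.S0110

lemma exists_small {α c₁ c₂ : ℝ} (hα : 1 / 3 < α) (C : ℝ) (h₁ : 0 < c₁) (h₂ : 0 < c₂) :
    ∃ η : ℝ, 0 < η ∧ η < 1 / 2 ∧ C * (c₁ * η ^ 3) ^ α < c₂ * η := by
  have hβ : 0 < 3 * α - 1 := by linarith
  have h1 : Filter.Tendsto (fun η : ℝ => C * c₁ ^ α * η ^ (3 * α - 1)) (nhds 0) (nhds 0) := by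
    have := (Real.continuousAt_rpow_const 0 (3 * α - 1) (Or.inr hβ.le)).tendsto.const_mul
      (C * c₁ ^ α)
    simpa [Real.zero_rpow hβ.ne'] using this
  have h2 : ∀ᶠ η : ℝ in nhdsWithin 0 (Set.Ioi 0),
      0 < η ∧ η < 1 / 2 ∧ C * c₁ ^ α * η ^ (3 * α - 1) < c₂ :=
    (eventually_mem_nhdsWithin).and (Filter.Eventually.filter_mono nhdsWithin_le_nhds
      ((eventually_lt_nhds (by norm_num)).and (h1.eventually (eventually_lt_nhds h₂))))
  obtain ⟨η, h0, h3, h4⟩ := h2.exists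
  refine ⟨η, h0, h3, ?_⟩
  have e : C * (c₁ * η ^ 3) ^ α = C * c₁ ^ α * η ^ (3 * α - 1) * η := by
    rw [Real.mul_rpow h₁.le (by positivity), ← Real.rpow_natCast, ← Real.rpow_mul h0.le,
      Real.rpow_sub_one h0.ne']
    push_cast; field_simp
  rw [e]
  exact mul_lt_mul_of_pos_right h4 h0

/-- The exponent one third is optimal, even on the cube with three-atom targets: for d ≥ 2, ρ the uniform probability measure on the cube of points of ℝᵈ with all coordinates in [-1, 1], every α > 1/3 and every C ≥ 0, there are three-atomic probability measures μ, ν on that cube, each admitting a quadratic optimal transport map from ρ, such that for all such optimal maps Tμ, Tν some coupling π of μ, ν has C · (∫ ‖y - z‖² dπ)^α < ∫ ‖Tμ - Tν‖² dρ. Hence ‖Tμ - Tν‖_{L²(ρ)} > √C · W₂(μ, ν)^α. -/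
theorem result
    (d : ℕ) (hd : 2 ≤ d) (α : ℝ) (hα : 1 / 3 < α) (C : ℝ≥0) :
    ∃ μ ν : Measure (EuclideanSpace ℝ (Fin d)),
      IsProbabilityOn {x : EuclideanSpace ℝ (Fin d) | ∀ i, |x i| ≤ 1} μ ∧
      IsProbabilityOn {x : EuclideanSpace ℝ (Fin d) | ∀ i, |x i| ≤ 1} ν ∧
      IsThreeAtomic μ ∧ IsThreeAtomic ν ∧
      (∃ T, IsOptimalMap (uniformProbOn {x : EuclideanSpace ℝ (Fin d) | ∀ i, |x i| ≤ 1}) μ T) ∧
      (∃ T, IsOptimalMap (uniformProbOn {x : EuclideanSpace ℝ (Fin d) | ∀ i, |x i| ≤ 1}) ν T) ∧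
      ∀ Tμ Tν : EuclideanSpace ℝ (Fin d) → EuclideanSpace ℝ (Fin d),
        IsOptimalMap (uniformProbOn {x : EuclideanSpace ℝ (Fin d) | ∀ i, |x i| ≤ 1}) μ Tμ →
        IsOptimalMap (uniformProbOn {x : EuclideanSpace ℝ (Fin d) | ∀ i, |x i| ≤ 1}) ν Tν →
        ∃ π : Measure (EuclideanSpace ℝ (Fin d) × EuclideanSpace ℝ (Fin d)), IsPairCoupling μ ν π ∧
          (C : ℝ≥0∞) * quadCost π ^ α < ∫⁻ x, ‖Tμ x - Tν x‖ₑ ^ 2 ∂(uniformProbOn {x : EuclideanSpace ℝ (Fin d) | ∀ i, |x i| ≤ 1}) := by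
  obtain ⟨k, rfl⟩ := Nat.exists_eq_add_of_le' hd
  have hQ := H3.OT.isCompact_cube (k + 2)
  obtain ⟨R, hR0, hR⟩ := hQ.isBounded.exists_pos_norm_le
  have hi : (interior (H3.OT.cube (k + 2))).Nonempty := ⟨0, H3.OT.mem_interior_cube (by simp)⟩
  have hs := H3.OT.src_uniform (H3.OT.hasPL_euclidean (k + 2)) hQ (H3.OT.convex_cube _) hi hR0 hR
  have hρ := hs.prob
  have hv0 : volume (H3.OT.cube (k + 2)) ≠ 0 := (Measure.measure_pos_of_nonempty_interior _ hi).ne'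
  have hv1 : volume (H3.OT.cube (k + 2)) ≠ ⊤ := hQ.measure_lt_top.ne
  obtain ⟨V, hV0, hV⟩ : ∃ V : ℝ, 0 < V ∧ (volume (H3.OT.cube (k + 2)))⁻¹ = ENNReal.ofReal V :=
    ⟨_, ENNReal.toReal_pos (ENNReal.inv_ne_zero.2 hv1) (ENNReal.inv_ne_top.2 hv0),
      (ENNReal.ofReal_toReal (ENNReal.inv_ne_top.2 hv0)).symm⟩
  obtain ⟨η, h0, h1, h2⟩ := exists_small (c₁ := 16 * 2 ^ (k + 1) * V) (c₂ := (1 / 2) ^ (k + 2) * V)
    hα C (by positivity) (by positivity)
  have hP : ∀ θ : ℝ, |θ| ≤ 1 → IsProbabilityOn (H3.OT.cube (k + 2))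
      ((uniformProbOn (H3.OT.cube (k + 2))).map
        (H3.OT.tmap (H3.OT.atoms k θ) (H3.OT.wts η))) := fun θ hθ => by
    refine ⟨Measure.isProbabilityMeasure_map (H3.OT.measurable_tmap _ _).aemeasurable, ?_⟩
    rw [Measure.map_apply (H3.OT.measurable_tmap _ _) hQ.measurableSet.compl]
    convert measure_empty (μ := uniformProbOn (H3.OT.cube (k + 2)))
    ext x
    simpa using H3.OT.tmap_mem (A := H3.OT.cube (k + 2)) (by simp) (H3.OT.atoms_mem hθ) _ x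
  have hA : ∀ θ : ℝ, IsThreeAtomic ((uniformProbOn (H3.OT.cube (k + 2))).map
        (H3.OT.tmap (H3.OT.atoms k θ) (H3.OT.wts η))) := fun θ =>
    ⟨_, H3.OT.atoms_inj θ, _, H3.OT.atoms_mass_pos hs θ h0 h1, hs.map_tmap (H3.OT.atoms_inj θ) _⟩
  have hO := fun θ : ℝ => H3.OT.tmap_optimal hs hQ (H3.OT.atoms_inj (k := k) θ) (H3.OT.wts η)
  refine ⟨_, _, hP η (by rw [abs_of_pos h0]; linarith),
    hP (-η) (by rw [abs_neg, abs_of_pos h0]; linarith), hA η, hA (-η), ⟨_, (hO η).1⟩,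
    ⟨_, (hO (-η)).1⟩, fun Tμ Tν hμ hν => ?_⟩
  have m1 := H3.OT.measurable_tmap (H3.OT.atoms k η) (H3.OT.wts η)
  have m2 := H3.OT.measurable_tmap (H3.OT.atoms k (-η)) (H3.OT.wts η)
  have m3 : Measurable fun x => H3.OT.tmap (H3.OT.atoms k (-η)) (H3.OT.wts η) (H3.OT.refl1 k x) :=
    m2.comp (H3.OT.refl1_preserving (k := k)).measurable
  refine ⟨(uniformProbOn (H3.OT.cube (k + 2))).map fun x =>
    (H3.OT.tmap (H3.OT.atoms k η) (H3.OT.wts η) x,
      H3.OT.tmap (H3.OT.atoms k (-η)) (H3.OT.wts η) (H3.OT.refl1 k x)), ⟨?_, ?_⟩, ?_⟩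
  · exact Measure.map_map measurable_fst (m1.prodMk m3)
  · refine (Measure.map_map measurable_snd (m1.prodMk m3)).trans ?_
    refine (Measure.map_map m2 (H3.OT.refl1_preserving (k := k)).measurable).symm.trans ?_
    rw [H3.OT.refl1_preserving.map_eq]
  · have e1 := H3.OT.cost_upper hs h0
    have e2 := H3.OT.dist_lower (k := k) h0 h1
    rw [hV, ← ENNReal.ofReal_mul (by positivity)] at e1 e2
    rw [quadCost, lintegral_map (f := fun p => ‖p.1 - p.2‖ₑ ^ 2)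
      ((measurable_fst.sub measurable_snd).enorm.pow_const 2) (m1.prodMk m3)]
    refine lt_of_lt_of_le ?_ (e2.trans (le_of_eq (lintegral_congr_ae ?_)))
    · refine lt_of_le_of_lt (mul_le_mul_right (ENNReal.rpow_le_rpow e1 (by linarith)) _) ?_
      rw [ENNReal.ofReal_rpow_of_nonneg (by positivity) (by linarith), ← ENNReal.ofReal_coe_nnreal,
        ← ENNReal.ofReal_mul C.coe_nonneg, ENNReal.ofReal_lt_ofReal_iff (by positivity)]
      rwa [mul_right_comm _ (η ^ 3), mul_right_comm _ η]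
    · filter_upwards [(hO η).2 _ hμ, (hO (-η)).2 _ hν] with x hx hx'
      rw [hx, hx']

end Crest.Agent.S0110
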