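import Crest.Statements.S0112
import Crest.Agent.H3.ModGreedy

set_option autoImplicit false
open Crest Crest.AnalysisR Crest.AnalysisR.OperatorAlgebra

namespace Crest.Agent.S0112

section helpers

open MeasureTheory Filter Topology Crest.OpAlg Crest.Agent.H3.Mod
open scoped BoundedContinuousFunction InnerProductSpace FourierTransform

/-- a band filter with an integrable kernel whose `L¹` norm does not depend on the band -/
lemma exists_kernel : ∃ C₀ : ℝ, 0 ≤ C₀ ∧ ∀ s δ : ℝ, 0 < δ → ∃ (ψ : ℝ →ᵇ ℂ) (f : ℝ → ℂ) (τ : ℝ → ℝ),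
    Continuous τ ∧ Integrable f volume ∧ ∫ w, ‖f w‖ ≤ C₀ ∧ ‖ψ‖ ≤ 1 ∧
    (∀ u ∈ Set.Icc (s - δ) (s + δ), ψ u = 1) ∧
    (∀ u, u ∉ Set.Icc (s - 4 * δ) (s + 4 * δ) → ψ u = 0) ∧
    ∀ u, ψ u = ∫ w, f w * LineCalculus.character (τ w) u := by
  let b : ContDiffBump (0 : ℝ) := ⟨1, 4, one_pos, by norm_num⟩
  have hbc : HasCompactSupport fun u => ((b u : ℝ) : ℂ) :=
    b.hasCompactSupport.comp_left (g := fun r : ℝ => (r : ℂ)) (by simp)
  have hbs : ContDiff ℝ (⊤ : ℕ∞) fun u => ((b u : ℝ) : ℂ) :=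
    Complex.ofRealCLM.contDiff.comp b.contDiff
  let B : SchwartzMap ℝ ℂ := hbc.toSchwartzMap hbs
  have hB : ∀ u, B u = ((b u : ℝ) : ℂ) := fun u => rfl
  have hF : Integrable (𝓕 (B : ℝ → ℂ)) volume := by
    rw [← SchwartzMap.fourier_coe]; exact (𝓕 B).integrable
  have hinv : 𝓕⁻ (𝓕 (B : ℝ → ℂ)) = B := B.continuous.fourierInv_fourier_eq B.integrable hF
  refine ⟨∫ w, ‖𝓕 (B : ℝ → ℂ) w‖, integral_nonneg fun _ => norm_nonneg _, fun s δ hδ => ?_⟩
  have hb1 : ∀ u, ‖((b ((u - s) / δ) : ℝ) : ℂ)‖ ≤ 1 := fun u => by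
    rw [Complex.norm_real, Real.norm_eq_abs, abs_of_nonneg b.nonneg]; exact b.le_one
  have hcont : Continuous fun u : ℝ => ((b ((u - s) / δ) : ℝ) : ℂ) :=
    Complex.continuous_ofReal.comp (b.continuous.comp (by fun_prop))
  refine ⟨BoundedContinuousFunction.ofNormedAddCommGroup _ hcont 1 hb1,
    fun w => LineCalculus.character (2 * Real.pi * w / δ) (-s) * 𝓕 (B : ℝ → ℂ) w,
    fun w => 2 * Real.pi * w / δ, by fun_prop, ?_, ?_, ?_, ?_, ?_, ?_⟩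
  · refine hF.bdd_mul (c := 1) ?_ (ae_of_all _ fun w => (norm_character_apply _ _).le)
    simp only [character_apply]
    exact Continuous.aestronglyMeasurable (by fun_prop)
  · simp only [norm_mul, norm_character_apply, one_mul, le_refl]
  · exact (BoundedContinuousFunction.norm_le zero_le_one).2 hb1
  · intro u hu
    simp only [BoundedContinuousFunction.coe_ofNormedAddCommGroup]
    rw [b.one_of_mem_closedBall]; · simp
    rw [Metric.mem_closedBall, dist_zero_right, Real.norm_eq_abs, abs_div, abs_of_pos hδ,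
      div_le_iff₀ hδ, abs_le]
    simp only [b]
    constructor <;> linarith [hu.1, hu.2]
  · intro u hu
    simp only [BoundedContinuousFunction.coe_ofNormedAddCommGroup]
    rw [b.zero_of_le_dist]; · simp
    rw [dist_zero_right, Real.norm_eq_abs, abs_div, abs_of_pos hδ, le_div_iff₀ hδ]
    simp only [b]
    rw [Set.mem_Icc, not_and_or, not_le, not_le] at hu
    rcases hu with hu | hu
    · rw [abs_of_neg (by linarith)]; linarith
    · rw [abs_of_pos (by linarith)]; linarith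
  · intro u
    simp only [BoundedContinuousFunction.coe_ofNormedAddCommGroup]
    rw [← hB, ← congrFun hinv, Real.fourierInv_eq']
    congr 1; ext w
    simp only [character_apply, smul_eq_mul]
    conv_rhs => rw [mul_right_comm, ← Complex.exp_add]
    congr 2
    simp only [RCLike.inner_apply, conj_trivial]
    push_cast
    have : (δ : ℂ) ≠ 0 := by exact_mod_cast hδ.ne'
    field_simp
    ring

lemma sq_half_le {E : Type*} [NormedAddCommGroup E] (a b : E) :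
    ‖a‖ ^ 2 / 2 - ‖a - b‖ ^ 2 ≤ ‖b‖ ^ 2 := by
  have h : ‖a‖ ≤ ‖b‖ + ‖a - b‖ := by
    calc ‖a‖ = ‖b + (a - b)‖ := by simp
      _ ≤ _ := norm_add_le _ _
  nlinarith [norm_nonneg a, norm_nonneg b, norm_nonneg (a - b), sq_nonneg (‖b‖ - ‖a - b‖)]

lemma one_band {H : Type*} [NormedAddCommGroup H] [InnerProductSpace ℂ H] [CompleteSpace H]
    (S : ModularDatum H) (herg : S.Ergodic) (ω : Ultrafilter ℕ) (hω : (ω : Filter ℕ) ≤ atTop)
    (T : H →L[ℂ] H) (s c : ℝ) (hc : 0 < c) : ∃ C : ℝ, ∀ δ : ℝ, 0 < δ → δ ≤ 1 / 4 → ∀ h : H,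
      ‖h‖ = 1 → S.D.SupportedIn (Set.Icc (s - δ) (s + δ)) h →
      c ≤ ultraMean ω (fun t : ℝ => ‖T (S.D.wave t h)‖ ^ 2) →
      ∃ v ∈ S.M, ‖v‖ ≤ C ∧ Real.sqrt c / 4 ≤ ‖T (v S.vac)‖ ∧
        S.D.SupportedIn (Set.Icc (s - 4 * δ) (s + 4 * δ)) (v S.vac) := by
  obtain ⟨C₀, hC₀, hker⟩ := exists_kernel
  set A : ℝ := (2 + 2 * Real.exp (s + 1)) * 16 + 1 with hA
  have hA0 : 0 < A := by positivity
  set l : ℝ := c / 32 / A with hl
  have hl0 : 0 < l := by positivity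
  set R : ℝ := Real.sqrt (2 * ‖T‖ ^ 2 / l + 1) with hR
  have hR0 : 0 < R := Real.sqrt_pos.2 (by positivity)
  have hR2 : R ^ 2 = 2 * ‖T‖ ^ 2 / l + 1 := Real.sq_sqrt (by positivity)
  refine ⟨C₀ * R, fun δ hδ hδ' h hh hs hm => ?_⟩
  obtain ⟨ψ, f, τ, hτ, hf, hfC, hψ, hψ1, hψ0, hψf⟩ := hker s δ hδ
  have hψh : S.D.apply ψ h = h := by
    rw [app_eq_of_supp hs ψ 1 (fun u hu => by simp [hψ1 u hu]), map_one]; rfl
  have hψn : ∀ y, ‖S.D.apply ψ y‖ ≤ ‖y‖ := fun y =>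
    (norm_app_apply_le S.D ψ y).trans (mul_le_of_le_one_left (norm_nonneg _) hψ)
  set T₁ : H →L[ℂ] H := T.comp (S.D.apply ψ) with hT₁
  have hT₁n : ∀ y, ‖T₁ y‖ ≤ ‖T‖ * ‖y‖ := fun y =>
    (T.le_opNorm _).trans (mul_le_mul_of_nonneg_left (hψn y) (norm_nonneg _))
  -- approximate `h`
  obtain ⟨ε, hε0, hε1, hε2⟩ : ∃ ε : ℝ, 0 < ε ∧ ε ≤ 1 ∧ (‖T‖ * ε) ^ 2 ≤ c / 8 := by
    have : Tendsto (fun ε : ℝ => (‖T‖ * ε) ^ 2) (𝓝[>] 0) (𝓝 ((‖T‖ * 0) ^ 2)) :=
      tendsto_nhdsWithin_of_tendsto_nhds (Continuous.tendsto (by fun_prop) 0)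
    have h1 := this.eventually (gt_mem_nhds (show (‖T‖ * 0) ^ 2 < c / 8 by simp; positivity))
    obtain ⟨ε, h2, h3⟩ := (h1.and (Ioc_mem_nhdsGT (zero_lt_one' ℝ))).exists
    exact ⟨ε, h3.1, h3.2, h2.le⟩
  obtain ⟨_, ⟨a, rfl⟩, ha⟩ := Metric.mem_closure_iff.1 (S.cyclic h) ε hε0
  set x := smear S hf hτ a with hx
  have hxM : x ∈ S.M := smear_mem S hf hτ a.2
  have hxξ : x S.vac = S.D.apply ψ ((a : H →L[ℂ] H) S.vac) := smear_vac S hf hτ a ψ hψf
  have hxs : S.D.SupportedIn (Set.Icc (s - 4 * δ) (s + 4 * δ)) (x S.vac) := by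
    rw [hxξ]; exact supp_app ψ hψ0 _
  have hxh : ‖h - x S.vac‖ ≤ ε := by
    rw [hxξ]
    conv_lhs => rw [← hψh]
    rw [← map_sub]
    exact (hψn _).trans (by rw [← dist_eq_norm]; exact ha.le)
  have hxn : ‖x S.vac‖ ≤ 2 := by
    calc ‖x S.vac‖ = ‖h - (h - x S.vac)‖ := by simp
      _ ≤ ‖h‖ + ‖h - x S.vac‖ := norm_sub_le _ _
      _ ≤ 2 := by linarith
  have cG : Continuous fun t => ‖T (S.D.wave t h)‖ ^ 2 :=
    (T.continuous.comp (continuous_wave S.D _)).norm.pow 2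
  have cG₁ : Continuous fun t => ‖T₁ (S.D.wave t (x S.vac))‖ ^ 2 :=
    (T₁.continuous.comp (continuous_wave S.D _)).norm.pow 2
  have hev : ∀ᶠ k in (ω : Filter ℕ), c / 4 ≤ avg k fun t => ‖T₁ (S.D.wave t (x S.vac))‖ ^ 2 := by
    obtain ⟨m, hm'⟩ := exists_tendsto_ultra ω (fun k => avg k fun t => ‖T (S.D.wave t h)‖ ^ 2)
      (‖T‖ ^ 2) fun k => norm_avg_le k fun t => by
        rw [Real.norm_eq_abs, abs_of_nonneg (sq_nonneg _)]
        gcongr
        simpa [norm_wave, hh] using T.le_opNorm (S.D.wave t h)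
    have hm2 : ultraMean ω (fun t : ℝ => ‖T (S.D.wave t h)‖ ^ 2) = m := by
      rw [ultraMean]
      refine Tendsto.limUnder_eq ?_
      simpa only [← windowMean_eq] using hm'
    rw [hm2] at hm
    filter_upwards [hm'.eventually (lt_mem_nhds (show 3 * c / 4 < m by linarith)),
      hω (eventually_gt_atTop 0)] with k hk hk0
    have h1 : avg k (fun t => 1 / 2 * ‖T (S.D.wave t h)‖ ^ 2 - c / 8) ≤
        avg k fun t => ‖T₁ (S.D.wave t (x S.vac))‖ ^ 2 := by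
      refine avg_mono k (by fun_prop) cG₁ fun t => ?_
      have e1 : T (S.D.wave t h) = T₁ (S.D.wave t h) := by
        rw [hT₁, ContinuousLinearMap.comp_apply, app_wave, hψh]
      have e2 := sq_half_le (T₁ (S.D.wave t h)) (T₁ (S.D.wave t (x S.vac)))
      have e3 : ‖T₁ (S.D.wave t h) - T₁ (S.D.wave t (x S.vac))‖ ≤ ‖T‖ * ε := by
        rw [← map_sub, ← map_sub]
        refine (hT₁n _).trans ?_
        rw [norm_wave]; gcongr
      have e4 : ‖T₁ (S.D.wave t h) - T₁ (S.D.wave t (x S.vac))‖ ^ 2 ≤ (‖T‖ * ε) ^ 2 := by gcongr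
      rw [e1]; linarith
    rw [avg_sub k (by fun_prop) continuous_const, avg_const_mul, avg_const hk0] at h1
    linarith
  obtain ⟨v, hvM, hv⟩ := greedy S herg ω hω T₁ hxM hxs (c / 4) hev hl0.le (η := c / 32)
    (by positivity)
  have hlA : l * ((2 + 2 * Real.exp (s + 4 * δ)) * ‖x S.vac‖ ^ 4 + 1) ≤ c / 32 := by
    have h1 : Real.exp (s + 4 * δ) ≤ Real.exp (s + 1) := Real.exp_le_exp.2 (by linarith)
    have h2 : ‖x S.vac‖ ^ 4 ≤ 16 := by
      calc _ ≤ (2 : ℝ) ^ 4 := by gcongr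
        _ = 16 := by norm_num
    have h3 : (2 + 2 * Real.exp (s + 4 * δ)) * ‖x S.vac‖ ^ 4 + 1 ≤ A := by rw [hA]; gcongr
    calc _ ≤ l * A := by gcongr
      _ = c / 32 := by rw [hl]; field_simp
  obtain ⟨w, hwM, hwR, hw⟩ := exists_trunc S.M hvM hR0
  have hwξ : smear S hf hτ w S.vac = S.D.apply ψ (w S.vac) := smear_vac S hf hτ w ψ hψf
  refine ⟨smear S hf hτ w, smear_mem S hf hτ hwM, (norm_smear_le S hf hτ w).trans ?_, ?_, ?_⟩
  · exact mul_le_mul hfC hwR (norm_nonneg _) hC₀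
  · rw [hwξ]
    change _ ≤ ‖T₁ (w S.vac)‖
    have e1 := sq_half_le (T₁ (v S.vac)) (T₁ (w S.vac))
    have e2 : ‖T₁ (v S.vac) - T₁ (w S.vac)‖ ^ 2 ≤ l / 2 * ‖(star v * v) S.vac‖ ^ 2 := by
      rw [← map_sub]
      have e3 : (R * ‖v S.vac - w S.vac‖) ^ 2 ≤ ‖(star v * v) S.vac‖ ^ 2 := by
        gcongr; exact hw _
      have e4 : ‖T‖ ^ 2 ≤ l / 2 * R ^ 2 := by
        rw [hR2, mul_add]
        have : l / 2 * (2 * ‖T‖ ^ 2 / l) = ‖T‖ ^ 2 := by field_simp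
        linarith
      calc _ ≤ (‖T‖ * ‖v S.vac - w S.vac‖) ^ 2 := by gcongr; exact hT₁n _
        _ = ‖T‖ ^ 2 * ‖v S.vac - w S.vac‖ ^ 2 := by ring
        _ ≤ l / 2 * R ^ 2 * ‖v S.vac - w S.vac‖ ^ 2 := by gcongr
        _ = l / 2 * (R * ‖v S.vac - w S.vac‖) ^ 2 := by ring
        _ ≤ _ := by gcongr
    refine abs_le_of_sq_le_sq' ?_ (norm_nonneg _) |>.2
    rw [div_pow, Real.sq_sqrt hc.le]
    linarith
  · rw [hwξ]; exact supp_app ψ hψ0 _

end helpers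

/-- Bounded recovery. Let S be modular data on H (algebra M, cyclic separating unit vector ξ, D = log of the modular operator) with ergodic state, ω a free ultrafilter on ℕ, T a bounded operator, δₙ → 0 positive, hₙ unit vectors with D-spectral support in [s − δₙ, s + δₙ]. If some c > 0 bounds the ω-mean over t of ‖T exp(itD) hₙ‖² from below infinitely often, along a subsequence n_j there are v_j ∈ M, C and η > 0 with ‖v_j‖ ≤ C, ‖T (v_j ξ)‖ ≥ η, v_j ξ supported in [s − 4δ_{n_j}, s + 4δ_{n_j}]. -/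
theorem result
    {H : Type*} [NormedAddCommGroup H] [InnerProductSpace ℂ H] [CompleteSpace H]
    (S : Crest.OpAlg.ModularDatum H) (herg : S.Ergodic)
    (ω : Ultrafilter ℕ) (hω : (ω : Filter ℕ) ≤ Filter.atTop)
    (T : H →L[ℂ] H) (s : ℝ) (δ : ℕ → ℝ) (hδ : ∀ n, 0 < δ n)
    (hδ0 : Filter.Tendsto δ Filter.atTop (nhds 0))
    (h : ℕ → H) (hh : ∀ n, ‖h n‖ = 1)
    (hband : ∀ n, S.D.SupportedIn (Set.Icc (s - δ n) (s + δ n)) (h n))
    (hpos : ∃ c : ℝ, 0 < c ∧ ∃ᶠ n in Filter.atTop,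
      c ≤ Crest.OpAlg.ultraMean ω (fun t : ℝ => ‖T (S.D.wave t (h n))‖ ^ 2)) :
    ∃ (n' : ℕ → ℕ) (v : ℕ → (H →L[ℂ] H)) (C η : ℝ), StrictMono n' ∧ 0 < η ∧
      ∀ j : ℕ, v j ∈ S.M ∧ ‖v j‖ ≤ C ∧ η ≤ ‖T (v j S.vac)‖ ∧
        S.D.SupportedIn (Set.Icc (s - 4 * δ (n' j)) (s + 4 * δ (n' j))) (v j S.vac) := by
  obtain ⟨c, hc, hfr⟩ := hpos
  obtain ⟨C, hC⟩ := one_band S herg ω hω T s c hc
  obtain ⟨n', hn', hP⟩ := Filter.extraction_of_frequently_atTop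
    (hfr.and_eventually (hδ0.eventually (ge_mem_nhds (show (0 : ℝ) < 1 / 4 by norm_num))))
  choose v hv using fun j => hC (δ (n' j)) (hδ _) (hP j).2 (h (n' j)) (hh _) (hband _) (hP j).1
  exact ⟨n', v, C, Real.sqrt c / 4, hn', by positivity, fun j => hv j⟩

end Crest.Agent.S0112
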