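import Crest.Statements.S0122
import Crest.Agent.H3.PermODE

set_option autoImplicit false
open Crest.AnalysisR.MassAction
open Crest Crest.AnalysisR Crest.AnalysisR.MassAction

namespace Crest.Agent.S0122

open Crest.Agent.H3.Perm

/-- For a finite reaction network on `d ≥ 1` species that is weakly reversible, with positive rate constants and mass-action kinetics, every positive stoichiometric class `P` contains a nonempty compact convex set `K` that is forward invariant and absorbing: from every point of `P` there is a solution defined for all forward time, it is unique, it stays coordinatewise positive, and it lies in `K` from some finite time on. -/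
theorem result
    (d : ℕ) (hd : 1 ≤ d) (R : Network d) (hR : IsWeaklyReversible R)
    (k : (Fin d → ℕ) × (Fin d → ℕ) → ℝ) (hk : ∀ r ∈ R, 0 < k r)
    (c : Fin d → ℝ) (hc : ∀ i, 0 < c i) :
    ∃ K : Set (Fin d → ℝ), K ⊆ positiveClass R c ∧ K.Nonempty ∧ IsCompact K ∧ Convex ℝ K ∧
      (∀ x : ℝ → (Fin d → ℝ), IsForwardSolution (field R k) x → x 0 ∈ K →
        ∀ t : ℝ, 0 ≤ t → x t ∈ K) ∧
      (∀ x₀ ∈ positiveClass R c,
        (∃ x : ℝ → (Fin d → ℝ), IsForwardSolution (field R k) x ∧ x 0 = x₀) ∧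
        (∀ x x' : ℝ → (Fin d → ℝ), IsForwardSolution (field R k) x →
          IsForwardSolution (field R k) x' → x 0 = x₀ → x' 0 = x₀ →
          ∀ t : ℝ, 0 ≤ t → x t = x' t) ∧
        (∀ x : ℝ → (Fin d → ℝ), IsForwardSolution (field R k) x → x 0 = x₀ →
          (∀ t : ℝ, 0 ≤ t → ∀ i, 0 < x t i) ∧
          ∃ T : ℝ, 0 ≤ T ∧ ∀ t : ℝ, T ≤ t → x t ∈ K)) := by
  obtain ⟨N, hN, δ, hδ⟩ := react hR hk
  have hN' : (1 : ℤ) ≤ N := by exact_mod_cast hN
  obtain ⟨Δ₀, hΔ₀⟩ := exists_lyap d N hN'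
  have hly : ∀ x₀ ∈ pos d, ∃ Δ Φ D, δ ≤ Δ ∧ IsLyap N Δ Φ D ∧ Φ x₀ ≤ 0 := by
    intro x₀ hx₀
    obtain ⟨Φ, D, h1, h2, h3, h4⟩ := hΔ₀ (max (max Δ₀ δ) (1 + ∑ i, |Real.log (x₀ i)|))
      ((le_max_left _ _).trans (le_max_left _ _))
    have hL : IsLyap N _ Φ D := ⟨h1, h2, h3, h4⟩
    refine ⟨_, Φ, D, (le_max_right _ _).trans (le_max_left _ _), hL,
      hL.le_zero_of_small hN' hx₀ fun i => lt_of_lt_of_le ?_ (le_max_right _ _)⟩
    have : |Real.log (x₀ i)| ≤ ∑ i, |Real.log (x₀ i)| :=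
      Finset.single_le_sum (f := fun i => |Real.log (x₀ i)|) (fun _ _ => abs_nonneg _)
        (Finset.mem_univ i)
    linarith
  have hinv : ∀ {Δ Φ D}, δ ≤ Δ → IsLyap N Δ Φ D → ∀ {x}, IsForwardSolution (field R k) x →
      ∀ {a}, 0 ≤ a → x a ∈ {x ∈ pos d | Φ x ≤ 0} → ∀ {b}, a ≤ b → x b ∈ {x ∈ pos d | Φ x ≤ 0} :=
    fun hΔ hL _ hx _ ha h0 _ hab => hL.invariant (fun y hy w hw => (hδ _ hΔ w y hy hw).1)
      (isOpen_pos d) subset_rfl (fun _ h => h.1) (fun _ _ => rfl) hx ha h0 hab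
  obtain ⟨Δ, Φ, D, hΔ, hL, hc0⟩ := hly c hc
  have hcls : ∀ {x}, IsForwardSolution (field R k) x → x 0 - c ∈ stoichSubspace R →
      ∀ {t}, 0 ≤ t → x t - c ∈ stoichSubspace R := by
    intro x hx h0 t ht
    have := Submodule.add_mem _ (sub_mem_stoich hx ht) h0
    simpa using this
  refine ⟨{x ∈ pos d | Φ x ≤ 0} ∩ {x | x - c ∈ stoichSubspace R}, fun x hx => ⟨hx.1.1, hx.2⟩,
    ⟨c, ⟨hc, hc0⟩, by simp⟩, ?_, ?_, fun x hx h0 t ht => ⟨hinv hΔ hL hx le_rfl h0.1 ht,
      hcls hx h0.2 ht⟩, fun x₀ hx₀ => ?_⟩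
  · refine hL.isCompact.inter_right ?_
    exact (stoichSubspace R).closed_of_finiteDimensional.preimage (by fun_prop)
  · refine (hL.convex.convex_le 0).inter ?_
    intro x hx y hy a b _ _ hab
    have : a • x + b • y - c = a • (x - c) + b • (y - c) := by
      rw [smul_sub, smul_sub]
      have : c = a • c + b • c := by rw [← add_smul, hab, one_smul]
      conv_lhs => rw [this]
      abel
    show a • x + b • y - c ∈ stoichSubspace R
    rw [this]
    exact Submodule.add_mem _ (Submodule.smul_mem _ _ hx) (Submodule.smul_mem _ _ hy)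
  obtain ⟨Δ₁, Φ₁, D₁, hΔ₁, hL₁, h₁⟩ := hly x₀ hx₀.1
  obtain ⟨lo, hlo⟩ : ∃ lo : ℝ, lo = Real.exp (-D₁) / 2 := ⟨_, rfl⟩
  obtain ⟨hi, hhi⟩ : ∃ hi : ℝ, hi = Real.exp (-D₁) + Real.exp D₁ := ⟨_, rfl⟩
  have e1 := Real.exp_pos (-D₁)
  have e2 := Real.exp_pos D₁
  have hM : ∀ y ∈ {x ∈ pos d | Φ₁ x ≤ 0}, ∀ i, lo < y i ∧ y i < hi := fun y hy i => by
    have := hL₁.mem_Icc hy.1 hy.2 i
    constructor <;> linarith
  obtain ⟨K, hK⟩ := (contDiff_field R k).contDiffOn.exists_lipschitzOnWith one_ne_zero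
    (convex_Icc (fun _ : Fin d => lo) (fun _ => hi)) isCompact_Icc
  have hstay : ∀ {x}, IsForwardSolution (field R k) x → x 0 = x₀ → ∀ t, 0 ≤ t →
      x t ∈ {x ∈ pos d | Φ₁ x ≤ 0} :=
    fun hx h0 t ht => hinv hΔ₁ hL₁ hx le_rfl (h0 ▸ ⟨hx₀.1, h₁⟩) ht
  refine ⟨?_, fun x x' hx hx' h0 h0' t ht => ?_, fun x hx h0 => ⟨fun t ht => (hstay hx h0 t ht).1, ?_⟩⟩
  · let cl : (Fin d → ℝ) → (Fin d → ℝ) := fun y i => max lo (min (y i) hi)
    have hcl : LipschitzWith 1 cl := by
      refine LipschitzWith.of_dist_le_mul fun y z => ?_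
      rw [NNReal.coe_one, one_mul, dist_pi_le_iff dist_nonneg]
      intro i
      have := ((LipschitzWith.id.min_const hi).const_max lo).dist_le_mul (y i) (z i)
      simp only [NNReal.coe_one, one_mul, id] at this
      exact this.trans (dist_le_pi_dist y z i)
    have hclm : ∀ y, cl y ∈ Set.Icc (fun _ : Fin d => lo) (fun _ => hi) := fun y =>
      ⟨fun i => le_max_left _ _, fun i => max_le (by linarith) (min_le_right _ _)⟩
    have hlip : LipschitzWith (K * 1) (field R k ∘ cl) := by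
      rw [← lipschitzOnWith_univ]
      exact hK.comp hcl.lipschitzOnWith (fun y _ => hclm y)
    obtain ⟨B, hB⟩ := (isCompact_Icc (a := fun _ : Fin d => lo)
      (b := fun _ => hi)).exists_bound_of_continuousOn (contDiff_field R k).continuous.continuousOn
    obtain ⟨x, hx, hx0⟩ := global_exists hlip (L := B.toNNReal)
      (fun y => (hB _ (hclm y)).trans (Real.le_coe_toNNReal B)) x₀
    have heq : ∀ y ∈ {y : Fin d → ℝ | ∀ i, lo < y i ∧ y i < hi},
        (field R k ∘ cl) y = field R k y := by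
      intro y hy
      have : cl y = y := funext fun i => by
        simp only [cl]
        rw [min_eq_left (hy i).2.le, max_eq_right (hy i).1.le]
      simp [this]
    have hU : IsOpen {y : Fin d → ℝ | ∀ i, lo < y i ∧ y i < hi} := by
      rw [Set.ofPred_forall]
      exact isOpen_iInter_of_finite fun i => (isOpen_lt continuous_const (continuous_apply i)).inter
        (isOpen_lt (continuous_apply i) continuous_const)
    refine ⟨x, fun t ht => ?_, hx0⟩
    have := hL₁.invariant (fun y hy w hw => (hδ _ hΔ₁ w y hy hw).1) hU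
      (fun y hy i => by linarith [(hy i).1]) hM heq hx le_rfl (hx0 ▸ ⟨hx₀.1, h₁⟩) ht
    rw [← heq _ (hM _ this)]
    exact hx t ht
  · have hin : ∀ {x}, IsForwardSolution (field R k) x → x 0 = x₀ → ∀ s ∈ Set.Ico 0 t,
        x s ∈ Set.Icc (fun _ : Fin d => lo) (fun _ => hi) := fun hx h0 s hs =>
      ⟨fun i => (hM _ (hstay hx h0 s hs.1) i).1.le, fun i => (hM _ (hstay hx h0 s hs.1) i).2.le⟩
    exact ODE_solution_unique_of_mem_Icc_right (v := fun _ => field R k)
      (s := fun _ => Set.Icc (fun _ : Fin d => lo) (fun _ => hi)) (fun _ _ => hK)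
      (fun s hs => (hx s hs.1).continuousWithinAt.mono fun r hr => hr.1)
      (fun s hs => (hx s hs.1).mono (Set.Ici_subset_Ici.2 hs.1)) (hin hx h0)
      (fun s hs => (hx' s hs.1).continuousWithinAt.mono fun r hr => hr.1)
      (fun s hs => (hx' s hs.1).mono (Set.Ici_subset_Ici.2 hs.1)) (hin hx' h0')
      (h0.trans h0'.symm) ⟨ht, le_rfl⟩
  · have hcl : ∀ t, 0 ≤ t → x t - c ∈ stoichSubspace R := fun t ht => hcls hx (h0 ▸ hx₀.2) ht
    suffices ∃ T, 0 ≤ T ∧ Φ (x T) ≤ 0 by
      obtain ⟨T, hT, hT0⟩ := this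
      exact ⟨T, hT, fun t ht => ⟨hinv hΔ hL hx hT ⟨(hstay hx h0 T hT).1, hT0⟩ ht,
        hcl t (hT.trans ht)⟩⟩
    by_contra hcon
    push Not at hcon
    have hlo0 : 0 < lo := by linarith
    obtain ⟨ρ, hρ, hρle⟩ : ∃ ρ > 0, ∀ r ∈ R, ρ ≤ k r * mono (fun _ => lo) r.1 / 3 := by
      have hp : ∀ r ∈ R, 0 < k r * mono (fun _ : Fin d => lo) r.1 / 3 := fun r hr => by
        have := hk r hr
        have := mono_pos (x := fun _ : Fin d => lo) (fun _ => hlo0) r.1
        positivity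
      rcases R.eq_empty_or_nonempty with rfl | hne
      · exact ⟨1, one_pos, by simp⟩
      · obtain ⟨r, hr, hmin⟩ := Finset.exists_min_image R
          (fun r => k r * mono (fun _ : Fin d => lo) r.1 / 3) hne
        exact ⟨_, hp r hr, hmin⟩
    have hΦ0 := hL.nonneg _ (hstay hx h0 0 le_rfl).1
    obtain ⟨T, hT⟩ : ∃ T, T = Φ (x 0) / ρ := ⟨_, rfl⟩
    have hT0 : 0 ≤ T := hT ▸ div_nonneg hΦ0 hρ.le
    have := hL.decrease (x := x) (x' := fun r => field R k (x r)) (ρ := ρ) hT0
      (fun s hs => (hx s hs.1).continuousWithinAt.mono fun r hr => hr.1)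
      (fun s hs => (hstay hx h0 s hs.1).1)
      (fun s hs => (hx s hs.1.le).hasDerivAt (Ici_mem_nhds hs.1))
      (fun s hs => ⟨Φ (x s) / 2, half_pos (hcon s hs.1.le), fun ε w _ hε hw hcp => by
        have hxs := hstay hx h0 s hs.1.le
        by_cases hall : ∀ r ∈ R, w ⬝ᵥ reactionVector r = 0
        · exfalso
          have a1 := hw c hc
          have a2 : ∀ y ∈ stoichSubspace R, w ⬝ᵥ y = 0 := by
            intro y hy
            induction hy using Submodule.span_induction with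
            | mem _ h => obtain ⟨r, hr, rfl⟩ := h; exact hall r hr
            | zero => simp
            | add _ _ _ _ h1 h2 => rw [dotProduct_add, h1, h2, add_zero]
            | smul _ _ _ h1 => rw [dotProduct_smul, h1, smul_zero]
          have a3 := a2 _ (hcl s hs.1.le)
          rw [dotProduct_sub] at a1 a3
          linarith [hcon s hs.1.le]
        · push Not at hall
          obtain ⟨r, hr, hne⟩ := hall
          have a1 := (hδ _ hΔ w _ hxs.1 hcp).2 r hr hne
          have a2 : mono (fun _ => lo) r.1 ≤ mono (x s) r.1 :=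
            Finset.prod_le_prod (fun i _ => by positivity)
              (fun i _ => pow_le_pow_left₀ hlo0.le (hM _ hxs i).1.le _)
          have a3 := hρle r hr
          have a4 := hk r hr
          nlinarith⟩)
    have h5 : ρ * (T - 0) = Φ (x 0) := by rw [hT]; field_simp; simp
    linarith [hcon T hT0]

end Crest.Agent.S0122
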