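import Crest.Statements.S0161
import Crest.Agent.H4.HcLoc
import Crest.Agent.H4.HcInf
import Crest.Agent.H4.HcDiag
import Crest.Agent.H4.HcArc
import Crest.Agent.H4.HcFlat
import Crest.Agent.H3.HcB
import Crest.Agent.H3.HcC
import Crest.Agent.H5.HcMean
import Crest.Agent.H7.HcC2
import Crest.Agent.H7.HcD2
import Crest.Agent.H9.HcW
import Crest.Agent.H9.HcCB

set_option autoImplicit false
open Crest Crest.AnalysisR Crest.AnalysisR.OperatorAlgebra

namespace Crest.Agent.S0161

/-- Let M be a von Neumann algebra on a complex Hilbert space and n ≥ 1. Every bounded complex-multilinear map f from (n+1)-tuples of elements of M to M whose Hochschild differential vanishes is the Hochschild differential of some bounded complex-multilinear map g on n-tuples: f = dg. Here (dg)(a₀,…,a_n) = a₀ g(a₁,…,a_n) + ∑_{j<n} (−1)^(j+1) g(…, a_j a_{j+1}, …) + (−1)^(n+1) g(a₀,…,a_{n−1}) a_n. -/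
theorem result
    (H : Type*) [NormedAddCommGroup H] [InnerProductSpace ℂ H] [CompleteSpace H]
    (M : VonNeumannAlgebra H) (n : ℕ) (hn : 1 ≤ n)
    (f : ContinuousMultilinearMap ℂ (fun _ : Fin (n + 1) => M.toStarSubalgebra) M.toStarSubalgebra)
    (hf : ∀ a : Fin (n + 2) → M.toStarSubalgebra, Crest.OpAlg.hochschildDiff f a = 0) :
    ∃ g : ContinuousMultilinearMap ℂ (fun _ : Fin n => M.toStarSubalgebra) M.toStarSubalgebra,
      ∀ a : Fin (n + 1) → M.toStarSubalgebra, Crest.OpAlg.hochschildDiff g a = f a := by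
  exact Crest.Agent.H4.Hc.patch (Crest.Agent.H4.Hc.localStmt Crest.Agent.H3.Hc.shiftStmt
    Crest.Agent.H3.Hc.finalStmt Crest.Agent.H4.Hc.diagStmt Crest.Agent.H4.Hc.infStmt
    Crest.Agent.H9.Hc.limStmt Crest.Agent.H9.Hc.csStmt Crest.Agent.H5.Hc.meanStmt
    Crest.Agent.H3.Hc.coreIStmt (Crest.Agent.H7.Hc.coreII Crest.Agent.H7.Hc.decStmt
      Crest.Agent.H4.Hc.arcStmt Crest.Agent.H4.Hc.flatStmt)) H M n f hf

end Crest.Agent.S0161
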