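import Crest.Statements.S0167
import Crest.Agent.H8.AUCDaug

set_option autoImplicit false
open Crest Crest.AnalysisR

namespace Crest.Agent.S0167

/-- Let E be an infinite-dimensional closed subspace of the real L¹ of a probability space whose closed unit ball is totally bounded for convergence in measure and whose norm has the Daugavet property. Then at every unit x ∈ E and every t > 0 the averaged midpoint quantity sup_F inf_y ((‖x+ty‖+‖x-ty‖)/2 - 1) equals max(t/2, t-1) and the one-sided one sup_F inf_y (‖x+ty‖ - 1) equals max(0, t-2), as matching lower and upper bounds, and E admits no equivalent asymptotically uniformly convex norm. -/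
theorem result (Ω : Type) [MeasurableSpace Ω] (P : MeasureTheory.Measure Ω) [MeasureTheory.IsProbabilityMeasure P]
    (E : Submodule ℝ (MeasureTheory.Lp ℝ 1 P)) (hcl : IsClosed (E : Set (MeasureTheory.Lp ℝ 1 P)))
    (hinf : ¬ FiniteDimensional ℝ E)
    (htb : Crest.AnalysisR.L1Subspace.UnitBallTotallyBoundedInMeasure P E)
    (hD : Crest.AnalysisR.L1Subspace.HasDaugavetProperty E) :
    (∀ t : ℝ, 0 < t →
      (Crest.AnalysisR.L1Subspace.toRealBanach P E hcl).MidpointModulusGE
          (Crest.AnalysisR.L1Subspace.toRealBanach P E hcl).norm t (max (t / 2) (t - 1)) ∧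
        (Crest.AnalysisR.L1Subspace.toRealBanach P E hcl).MidpointModulusLE
          (Crest.AnalysisR.L1Subspace.toRealBanach P E hcl).norm t (max (t / 2) (t - 1)) ∧
        (Crest.AnalysisR.L1Subspace.toRealBanach P E hcl).OneSidedModulusGE
          (Crest.AnalysisR.L1Subspace.toRealBanach P E hcl).norm t (max 0 (t - 2)) ∧
        (Crest.AnalysisR.L1Subspace.toRealBanach P E hcl).OneSidedModulusLE
          (Crest.AnalysisR.L1Subspace.toRealBanach P E hcl).norm t (max 0 (t - 2))) ∧
      ∀ N : E → ℝ, (Crest.AnalysisR.L1Subspace.toRealBanach P E hcl).IsEquivNorm N →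
        ¬ (Crest.AnalysisR.L1Subspace.toRealBanach P E hcl).IsAUC N := by
  have : CompleteSpace E := hcl.completeSpace_coe
  refine ⟨fun t ht => ⟨?_, ?_, ?_, ?_⟩, fun N hN => H8.AUC.daug_noAUC hD hinf N hN⟩
  · intro (x : E) (hx : ‖x‖ = 1) η hη
    obtain ⟨F, hF, hF'⟩ := H8.AUC.l1_lower E htb x hx t ht η hη
    refine ⟨F, hF, fun (y : E) hy (hy1 : ‖y‖ = 1) => ?_⟩
    have h1 := hF' y hy hy1
    have h2 := norm_sub_le (x + t • y) (x - t • y)
    rw [show x + t • y - (x - t • y) = (2 * t) • y by module, norm_smul, hy1,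
      Real.norm_of_nonneg (by positivity)] at h2
    change max (t / 2) (t - 1) - η ≤ (‖x + t • y‖ + ‖x - t • y‖) / 2 - 1
    rcases le_total (t / 2) (t - 1) with h | h
    · rw [max_eq_right h]; linarith
    · rw [max_eq_left h]; linarith
  · intro (x : E) (hx : ‖x‖ = 1) F hF η hη
    obtain ⟨y, hy, hy1, hy2⟩ := H8.AUC.daug_dir hD x hx hF t ht η hη
    refine ⟨y, hy, hy1, ?_⟩
    have h2 := norm_sub_le x (t • y)
    rw [norm_smul, hy1, hx, Real.norm_of_nonneg ht.le] at h2
    change (‖x + t • y‖ + ‖x - t • y‖) / 2 - 1 ≤ max (t / 2) (t - 1) + η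
    have h3 := le_max_left (t / 2) (t - 1)
    have h4 := le_max_right (t / 2) (t - 1)
    rcases le_total 1 (t - 1) with h | h
    · rw [max_eq_right h] at hy2; linarith
    · rw [max_eq_left h] at hy2; linarith
  · intro (x : E) (hx : ‖x‖ = 1) η hη
    obtain ⟨g, hg, hg'⟩ := exists_dual_vector'' ℝ x
    refine ⟨_, H8.AUC.cof_ker g, fun (y : E) (hy : g y = 0) (hy1 : ‖y‖ = 1) => ?_⟩
    have h1 := g.le_opNorm (x + t • y)
    rw [map_add, map_smul, hy, hg', hx] at h1
    have h2 := norm_sub_norm_le (t • y) (-x)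
    rw [norm_neg, norm_smul, hy1, hx, sub_neg_eq_add, add_comm, Real.norm_of_nonneg ht.le] at h2
    have h3 : ‖g‖ * ‖x + t • y‖ ≤ 1 * ‖x + t • y‖ := by gcongr
    change max 0 (t - 2) - η ≤ ‖x + t • y‖ - 1
    simp only [RCLike.ofReal_real_eq_id, id_eq, smul_zero, add_zero, norm_one] at h1
    rcases le_total 0 (t - 2) with h | h
    · rw [max_eq_right h]; linarith
    · rw [max_eq_left h]; linarith
  · intro (x : E) (hx : ‖x‖ = 1) F hF η hη
    obtain ⟨y, hy, hy1, hy2⟩ := H8.AUC.daug_dir hD x hx hF t ht η hη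
    refine ⟨y, hy, hy1, ?_⟩
    change ‖x + t • y‖ - 1 ≤ max 0 (t - 2) + η
    have h3 := le_max_left 0 (t - 2)
    have h4 := le_max_right 0 (t - 2)
    rcases le_total 1 (t - 1) with h | h
    · rw [max_eq_right h] at hy2; linarith
    · rw [max_eq_left h] at hy2; linarith

end Crest.Agent.S0167
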