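import Crest.Statements.S0175
import Crest.Agent.H4.OTData

set_option autoImplicit false
open MeasureTheory
open scoped ENNReal ContDiff
open Crest.AnalysisR.OT
open Crest Crest.AnalysisR Crest.AnalysisR.OT

namespace Crest.Agent.S0175

/-- For every d ≥ 2 and s > 0 there is a smooth, compactly supported, nonnegative ρ on ℝᵈ with integral 1 and smooth square root such that, for μ = ρ dx and the cost summing ‖xᵢ - xⱼ‖^(-s) over the three pairs of a triple: some coupling with all three marginals μ has finite cost, minimal among all such couplings; every pair of Borel maps T₂, T₃ pushing μ to itself gives the plan x ↦ (x, T₂ x, T₃ x) strictly larger cost; and such pairs have costs arbitrarily close to that minimum. -/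
theorem result
    (d : ℕ) (hd : 2 ≤ d) (s : ℝ) (hs : 0 < s) :
    ∃ ρ : EuclideanSpace ℝ (Fin d) → ℝ, (∀ x, 0 ≤ ρ x) ∧ ContDiff ℝ ∞ ρ ∧ HasCompactSupport ρ ∧
      ContDiff ℝ ∞ (fun x => Real.sqrt (ρ x)) ∧ ∫ x, ρ x = 1 ∧
      ∃ π₀ : Measure (EuclideanSpace ℝ (Fin d) × EuclideanSpace ℝ (Fin d) × EuclideanSpace ℝ (Fin d)),
        IsCoupling₃ (measOfDensity ρ) π₀ ∧ ∫⁻ p, tripleCost s p ∂π₀ < ⊤ ∧
        (∀ π : Measure (EuclideanSpace ℝ (Fin d) × EuclideanSpace ℝ (Fin d) × EuclideanSpace ℝ (Fin d)), IsCoupling₃ (measOfDensity ρ) π →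
          ∫⁻ p, tripleCost s p ∂π₀ ≤ ∫⁻ p, tripleCost s p ∂π) ∧
        (∀ T₂ T₃ : EuclideanSpace ℝ (Fin d) → EuclideanSpace ℝ (Fin d), Measurable T₂ → Measurable T₃ →
          (measOfDensity ρ).map T₂ = measOfDensity ρ → (measOfDensity ρ).map T₃ = measOfDensity ρ →
          ∫⁻ p, tripleCost s p ∂π₀ < ∫⁻ x, tripleCost s (x, T₂ x, T₃ x) ∂(measOfDensity ρ)) ∧
        (∀ ε : ℝ≥0∞, 0 < ε → ∃ T₂ T₃ : EuclideanSpace ℝ (Fin d) → EuclideanSpace ℝ (Fin d), Measurable T₂ ∧ Measurable T₃ ∧
          (measOfDensity ρ).map T₂ = measOfDensity ρ ∧ (measOfDensity ρ).map T₃ = measOfDensity ρ ∧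
          ∫⁻ x, tripleCost s (x, T₂ x, T₃ x) ∂(measOfDensity ρ) < ∫⁻ p, tripleCost s p ∂π₀ + ε) := by
  classical
  set e₀ : EuclideanSpace ℝ (Fin d) := EuclideanSpace.single ⟨0, by omega⟩ 1 with he₀
  set e₁ : EuclideanSpace ℝ (Fin d) := EuclideanSpace.single ⟨1, by omega⟩ 1 with he₁
  have h0 : ‖e₀‖ = 1 := by simp [he₀]
  have h1 : ‖e₁‖ = 1 := by simp [he₁]
  have h01 : inner ℝ e₀ e₁ = 0 := by
    simp [he₀, he₁, EuclideanSpace.inner_single_left]
  have : Nontrivial (EuclideanSpace ℝ (Fin d)) := ⟨⟨e₀, 0, fun h => by simp [h] at h0⟩⟩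
  obtain ⟨φ, ψ, hD, r₀, hr₀, hdata⟩ := H4.OT.exists_data hs h0 h1 h01
  choose rr hrr hdens using fun i => (hD i).density (volume : Measure (EuclideanSpace ℝ (Fin d)))
  obtain ⟨r, hr, hrr₀, hrrr⟩ : ∃ r : ℝ, 0 < r ∧ r ≤ r₀ ∧ ∀ i, r ≤ rr i := by
    refine ⟨min r₀ (Finset.univ.inf' Finset.univ_nonempty rr), lt_min hr₀ ?_, min_le_left _ _,
      fun i => (min_le_right _ _).trans (Finset.inf'_le _ (Finset.mem_univ i))⟩
    rw [Finset.lt_inf'_iff]; exact fun i _ => hrr i
  obtain ⟨φ', ψ', u, hφ', hdata⟩ := hdata r hr hrr₀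
  let b : ContDiffBump (0 : EuclideanSpace ℝ (Fin d)) := ⟨r / 4, r / 2, by positivity, by linarith⟩
  have hb2c : Continuous fun x => b x ^ 2 := b.continuous.pow 2
  have hb2s : HasCompactSupport fun x => b x ^ 2 :=
    b.hasCompactSupport.comp_left (g := fun t : ℝ => t ^ 2) (by simp)
  have hI : 0 < ∫ x, b x ^ 2 := by
    refine hb2c.integral_pos_of_hasCompactSupport_nonneg_nonzero hb2s (fun x => sq_nonneg _)
      (x := 0) ?_
    rw [b.one_of_mem_closedBall (Metric.mem_closedBall_self b.rIn_pos.le)]; norm_num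
  set I := ∫ x, b x ^ 2 with hIdef
  set η : EuclideanSpace ℝ (Fin d) → ℝ := fun x => √(1 / (6 * I)) * b x with hη
  have hηs : ContDiff ℝ ∞ η := contDiff_const.mul b.contDiff
  have hη0 : ∀ x, 0 ≤ η x := fun x => mul_nonneg (Real.sqrt_nonneg _) b.nonneg
  have hηc : HasCompactSupport η := b.hasCompactSupport.mul_left
  have hηt : tsupport η ⊆ Metric.ball 0 r := by
    refine (tsupport_mul_subset_right (f := fun _ => √(1 / (6 * I))) (g := b)).trans ?_
    rw [b.tsupport_eq]
    exact Metric.closedBall_subset_ball (by show r / 2 < r; linarith)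
  have hη2 : ∀ x, η x ^ 2 = 1 / (6 * I) * b x ^ 2 := fun x => by
    rw [hη, mul_pow, Real.sq_sqrt (by positivity)]
  set m : Measure (EuclideanSpace ℝ (Fin d)) :=
    volume.withDensity fun x => ENNReal.ofReal (η x ^ 2) with hm
  have hmu : m Set.univ = ENNReal.ofReal (1 / 6) := by
    rw [hm, withDensity_apply _ MeasurableSet.univ, Measure.restrict_univ,
      ← ofReal_integral_eq_lintegral_ofReal]
    · simp only [hη2]
      rw [integral_const_mul, ← hIdef]
      congr 1; field_simp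
    · simp only [hη2]
      exact (hb2c.integrable_of_hasCompactSupport hb2s).const_mul _
    · exact Filter.Eventually.of_forall fun x => sq_nonneg _
  have : IsFiniteMeasure m := ⟨by rw [hmu]; simp⟩
  have hm0 : m ≠ 0 := by
    intro h
    rw [h, Measure.coe_zero, Pi.zero_apply, eq_comm, ENNReal.ofReal_eq_zero] at hmu
    norm_num at hmu
  have hmA : ∀ᵐ a ∂m, a ∈ Metric.ball (0 : EuclideanSpace ℝ (Fin d)) r := by
    rw [hm, ae_withDensity_iff (f := fun x => ENNReal.ofReal (η x ^ 2))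
      (hηs.continuous.pow 2).measurable.ennreal_ofReal]
    refine Filter.Eventually.of_forall fun x hx => hηt (subset_tsupport _ fun h => hx ?_)
    simp [h]
  have D := hdata m hm0 hmA
    (fun t => withDensity_absolutelyContinuous _ _ (Measure.addHaar_sphere volume 0 t))
  choose F hFs hFc hF0 hFsupp hFm using fun i => hdens i r (hrrr i) η hηs hη0 hηc hηt
  have hFm' : ∀ i, m.map (φ' i) = volume.withDensity fun x => ENNReal.ofReal (F i x ^ 2) :=
    fun i => hFm i (φ' i) (D.hφ i) (hφ' i)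
  have hFF : ∀ i j, i ≠ j → ∀ x, F i x * F j x = 0 := fun i j hij x => by
    by_contra h
    obtain ⟨a, ha, e1⟩ := hFsupp i (left_ne_zero_of_mul h)
    obtain ⟨a', ha', e2⟩ := hFsupp j (right_ne_zero_of_mul h)
    exact hij (D.hdisj i j a ha a' ha' (by rw [hφ' i ha, hφ' j ha', e1, e2]))
  set h : EuclideanSpace ℝ (Fin d) → ℝ :=
    fun x => √2 * F 0 x + F 1 x + F 2 x + F 3 x + F 4 x with hh
  have hh0 : ∀ x, 0 ≤ h x := fun x => by
    have := hF0 0 x; have := hF0 1 x; have := hF0 2 x; have := hF0 3 x; have := hF0 4 x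
    simp only [hh]; positivity
  have hhs : ContDiff ℝ ∞ h :=
    ((((contDiff_const.mul (hFs 0)).add (hFs 1)).add (hFs 2)).add (hFs 3)).add (hFs 4)
  have hhc : HasCompactSupport h :=
    (((((hFc 0).mul_left (f := fun _ => √2)).add (hFc 1)).add (hFc 2)).add (hFc 3)).add (hFc 4)
  have hsq : ∀ x, h x ^ 2 =
      F 0 x ^ 2 + F 0 x ^ 2 + F 1 x ^ 2 + F 2 x ^ 2 + F 3 x ^ 2 + F 4 x ^ 2 := fun x => by
    have s2 : √2 ^ 2 = (2 : ℝ) := Real.sq_sqrt (by norm_num)
    simp only [hh]
    linear_combination (F 0 x ^ 2) * s2 + 2 * √2 * (hFF 0 1 (by decide) x + hFF 0 2 (by decide) x +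
      hFF 0 3 (by decide) x + hFF 0 4 (by decide) x) + 2 * (hFF 1 2 (by decide) x +
      hFF 1 3 (by decide) x + hFF 1 4 (by decide) x + hFF 2 3 (by decide) x +
      hFF 2 4 (by decide) x + hFF 3 4 (by decide) x)
  have hG : ∀ i, Measurable fun x => ENNReal.ofReal (F i x ^ 2) :=
    fun i => ((hFs i).continuous.pow 2).measurable.ennreal_ofReal
  have hμ : measOfDensity (fun x => h x ^ 2) = H4.OT.mu φ' m := by
    have e0 := hFm' 0
    rw [D.map0] at e0
    unfold H4.OT.mu measOfDensity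
    rw [hFm' 1, hFm' 2, hFm' 3, hFm' 4, e0, ← withDensity_add_right _ (hG _),
      ← withDensity_add_right _ (hG _), ← withDensity_add_right _ (hG _),
      ← withDensity_add_right _ (hG _), ← withDensity_add_right _ (hG _)]
    congr 1
    ext x
    simp only [Pi.add_apply, hsq]
    rw [ENNReal.ofReal_add (by positivity) (by positivity),
      ENNReal.ofReal_add (by positivity) (by positivity),
      ENNReal.ofReal_add (by positivity) (by positivity),
      ENNReal.ofReal_add (by positivity) (by positivity),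
      ENNReal.ofReal_add (by positivity) (by positivity)]
  refine ⟨fun x => h x ^ 2, fun x => sq_nonneg _, hhs.pow 2,
    hhc.comp_left (g := fun t : ℝ => t ^ 2) (by simp), ?_, ?_, H4.OT.pi0 φ' m, ?_⟩
  · simp only [Real.sqrt_sq (hh0 _)]; exact hhs
  · rw [integral_eq_lintegral_of_nonneg_ae (Filter.Eventually.of_forall fun x => sq_nonneg _)
      (hhs.continuous.pow 2).aestronglyMeasurable]
    have e : ∫⁻ x, ENNReal.ofReal (h x ^ 2) = measOfDensity (fun x => h x ^ 2) Set.univ := by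
      rw [measOfDensity, withDensity_apply _ MeasurableSet.univ, Measure.restrict_univ]
    rw [e, hμ]
    simp only [H4.OT.mu, Measure.add_apply, Measure.map_apply (D.hφ _) MeasurableSet.univ,
      Set.preimage_univ, hmu]
    rw [← ENNReal.ofReal_add (by positivity) (by positivity),
      ← ENNReal.ofReal_add (by positivity) (by positivity),
      ← ENNReal.ofReal_add (by positivity) (by positivity),
      ← ENNReal.ofReal_add (by positivity) (by positivity),
      ← ENNReal.ofReal_add (by positivity) (by positivity), ENNReal.toReal_ofReal (by positivity)]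
    norm_num
  · rw [hμ]
    exact ⟨D.coupling_pi0, D.cost_lt, fun π hπ => D.optimal hπ,
      fun T₂ T₃ h2 h3 hT2 hT3 => D.not_monge h2 h3 hT2 hT3, fun ε hε => D.approx ε hε⟩

end Crest.Agent.S0175
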