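import Crest.Statements.S0209
import Crest.Agent.H5.Gas.Params

set_option autoImplicit false
open Crest Crest.ProbabilityR

namespace Crest.Agent.S0209

/-- There is a bounded continuous stable radial pair potential in three-space (energy of `N` particles `≥ -B N`) with `φ(r)` at most `C r^(-3-1/32)` in size for `r ≥ 1`, an open density interval centred at `5p/3`, `p > 0` the unit-separation packing density (`packingNumber L / L^3 → p`), and one `β_c ∈ [7/8, 9/8]` such that at each `ρ` in it the free energy per volume `-lim_L log Z_{[0,L]^3, ⌊ρL^3⌋}(β)/(β L^3)` exists for `β > 0`, with one-sided `β`-derivatives at `β_c`, left above right. -/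
theorem result :
    ∃ φ : ℝ → ℝ, Continuous φ ∧ (∃ M : ℝ, ∀ r : ℝ, |φ r| ≤ M) ∧
      (∃ B : ℝ, ∀ (N : ℕ) (x : Fin N → Crest.ProbabilityR.Continuum.Pt), -B * N ≤ Crest.ProbabilityR.Continuum.energy φ x) ∧
      (∃ C : ℝ, ∀ r : ℝ, 1 ≤ r → |φ r| ≤ C * r ^ (-(3 + 1 / 32 : ℝ))) ∧
      ∃ p η βc : ℝ, 0 < p ∧
        Filter.Tendsto (fun L : ℝ => (Crest.ProbabilityR.Continuum.packingNumber L : ℝ) / L ^ 3)
          Filter.atTop (nhds p) ∧
        0 < η ∧ η ≤ 5 * p / 3 ∧ 7 / 8 ≤ βc ∧ βc ≤ 9 / 8 ∧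
        ∃ f : ℝ → ℝ → ℝ,
          (∀ ρ : ℝ, 5 * p / 3 - η < ρ → ρ < 5 * p / 3 + η → ∀ β : ℝ, 0 < β →
            Filter.Tendsto (fun L : ℝ => -(1 / (β * L ^ 3)) *
                Real.log (Crest.ProbabilityR.Continuum.partitionFn φ L ⌊ρ * L ^ 3⌋₊ β))
              Filter.atTop (nhds (f β ρ))) ∧
          (∀ ρ : ℝ, 5 * p / 3 - η < ρ → ρ < 5 * p / 3 + η → ∃ Dl Dr : ℝ,
            HasDerivWithinAt (fun β => f β ρ) Dl (Set.Iio βc) βc ∧
            HasDerivWithinAt (fun β => f β ρ) Dr (Set.Ioi βc) βc ∧ Dr < Dl) := by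
  obtain ⟨p, hp, hlim, δ, φ1, hδ, -, hc, ⟨M, hM⟩, h⟩ := H5.Gas.exists_model
  obtain ⟨S, h1, rfl, h2⟩ := h (fun _ => 0) measurable_const (fun _ => le_rfl) fun _ _ => rfl
  obtain ⟨β, hβ, hk⟩ := h2.kink
  obtain ⟨C1, hC1⟩ := S.psi_bdd
  obtain ⟨C2, hC2⟩ := S.decay
  have e : ∀ r, S.φ r = φ1 r - H5.Gas.psi S.a S.v 0 r := fun r => by simp [H5.Gas.Sys.φ, h1]
  have hb : ∀ r, |S.φ r| ≤ M + C1 := fun r => by
    rw [e, abs_le]; constructor <;> linarith [hM r, hC1 r]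
  refine ⟨S.φ, ?_, ⟨_, hb⟩, ⟨_, S.stable⟩,
    ⟨max C2 ((M + C1) / 2 ^ (-(3 + 1 / 32 : ℝ))), fun r hr => ?_⟩, S.p, S.p / 12, β, by linarith,
    hlim, by linarith, by linarith, hβ.1, hβ.2, fun β ρ => -(1 / β) * H5.Gas.gl S.φ β ρ,
    fun ρ h3 _ β hβ => S.pot.tendsto_free hβ (by linarith), hk⟩
  · rw [funext e]
    exact hc.sub (H5.Gas.continuous_psi S.a0 S.v2 0)
  · have h0 : 0 ≤ r ^ (-(3 + 1 / 32 : ℝ)) := by positivity
    rcases le_total 2 r with h3 | h3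
    · exact (hC2 r h3).trans (mul_le_mul_of_nonneg_right (le_max_left _ _) h0)
    · refine (hb r).trans (le_trans ?_ (mul_le_mul_of_nonneg_right (le_max_right _ _) h0))
      rw [div_mul_eq_mul_div, le_div_iff₀ (by positivity)]
      exact mul_le_mul_of_nonneg_left (Real.rpow_le_rpow_of_nonpos (by linarith) h3 (by norm_num))
        ((abs_nonneg _).trans (hb 0))

end Crest.Agent.S0209
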