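import Crest.Statements.S0210
import Crest.Agent.H5.Gas.Params

set_option autoImplicit false
open Crest Crest.ProbabilityR

namespace Crest.Agent.S0210

/-- There is a measurable radial pair potential in three-space, finite and locally bounded at positive distances, tending to `+∞` at `0`, below `-a < 0` on an interval, with `r² φ(r)` integrable at large `r`, `r³ φ(r) → 0`, and stable on configurations of distinct points, whose canonical free energy per volume `-lim_L log Z_{[0,L]^3, ⌊ρL^3⌋}(β)/(β L^3)` exists for all `β, ρ > 0` and has, on some open density interval, at one `β_c ∈ (1/2, 3/2)` a left `β`-derivative strictly above the right. -/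
theorem result :
    ∃ φ : ℝ → ℝ, Measurable φ ∧
      (∀ a b : ℝ, 0 < a → a ≤ b → ∃ M : ℝ, ∀ r : ℝ, a ≤ r → r ≤ b → |φ r| ≤ M) ∧
      Filter.Tendsto φ (nhdsWithin 0 (Set.Ioi 0)) Filter.atTop ∧
      (∃ r₁ r₂ a : ℝ, 0 < r₁ ∧ r₁ < r₂ ∧ 0 < a ∧ ∀ r : ℝ, r₁ ≤ r → r ≤ r₂ → φ r ≤ -a) ∧
      (∃ R : ℝ, 0 < R ∧ MeasureTheory.IntegrableOn (fun r : ℝ => r ^ 2 * |φ r|) (Set.Ioi R)) ∧
      Filter.Tendsto (fun r : ℝ => r ^ 3 * φ r) Filter.atTop (nhds 0) ∧
      (∃ B : ℝ, ∀ (N : ℕ) (x : Fin N → Crest.ProbabilityR.Continuum.Pt), Function.Injective x →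
        -B * N ≤ Crest.ProbabilityR.Continuum.energy φ x) ∧
      ∃ f : ℝ → ℝ → ℝ,
        (∀ ρ : ℝ, 0 < ρ → ∀ β : ℝ, 0 < β →
          Filter.Tendsto (fun L : ℝ => -(1 / (β * L ^ 3)) *
              Real.log (Crest.ProbabilityR.Continuum.partitionFn φ L ⌊ρ * L ^ 3⌋₊ β))
            Filter.atTop (nhds (f β ρ))) ∧
        ∃ ρ₁ ρ₂ βc : ℝ, 0 ≤ ρ₁ ∧ ρ₁ < ρ₂ ∧ 1 / 2 < βc ∧ βc < 3 / 2 ∧
          ∀ ρ : ℝ, ρ₁ < ρ → ρ < ρ₂ → ∃ Dl Dr : ℝ,
            HasDerivWithinAt (fun β => f β ρ) Dl (Set.Iio βc) βc ∧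
            HasDerivWithinAt (fun β => f β ρ) Dr (Set.Ioi βc) βc ∧ Dr < Dl := by
  obtain ⟨p, hp, -, δ, φ1, hδ, hδ1, hc, ⟨M, hM⟩, h⟩ := H5.Gas.exists_model
  obtain ⟨S, h1, rfl, h2⟩ := h (fun r => max 0 (r⁻¹ - 2 / δ)) (by fun_prop)
    (fun _ => le_max_left _ _) fun r hr => max_eq_left (by
      rw [sub_nonpos, ← inv_div]; exact inv_anti₀ (by positivity) hr)
  obtain ⟨β, hβ, hk⟩ := h2.kink
  obtain ⟨C1, hC1⟩ := S.psi_bdd
  obtain ⟨C2, hC2⟩ := S.decay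
  have e : ∀ r, S.φ r = φ1 r + max 0 (r⁻¹ - 2 / δ) - H5.Gas.psi S.a S.v 0 r := fun r => by
    simp [H5.Gas.Sys.φ, h1]
  have hm := S.pot.meas
  have hd : ∀ (n : ℕ) (r : ℝ), 2 ≤ r → r ^ n * |S.φ r| ≤ C2 * r ^ (n - (3 + 1 / 32 : ℝ)) :=
    fun n r hr => by
      rw [sub_eq_add_neg, Real.rpow_add (by linarith), Real.rpow_natCast, mul_left_comm]
      exact mul_le_mul_of_nonneg_left (hC2 r hr) (by positivity)
  refine ⟨S.φ, hm, fun a b ha _ => ⟨M + a⁻¹ + C1, fun r h3 _ => ?_⟩, ?_, ?_, ⟨2, two_pos, ?_⟩, ?_,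
    ⟨_, fun N x _ => S.stable N x⟩, fun β ρ => -(1 / β) * H5.Gas.gl S.φ β ρ,
    fun ρ h3 β hβ => S.pot.tendsto_free hβ h3, _, _, β, by linarith, by linarith,
    by linarith [hβ.1], by linarith [hβ.2], hk⟩
  · have h4 : max 0 (r⁻¹ - 2 / δ) ≤ a⁻¹ :=
      max_le (by positivity) ((sub_le_self _ (by positivity)).trans (inv_anti₀ ha h3))
    have h5 := le_max_left 0 (r⁻¹ - 2 / δ)
    rw [e, abs_le]; constructor <;> linarith [hM r, hC1 r]
  · refine Filter.tendsto_atTop_mono (fun r => ?_)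
      (Filter.tendsto_atTop_add_const_right _ (-(2 / δ) - C1) tendsto_inv_nhdsGT_zero)
    rw [e]
    linarith [hM r, hC1 r, le_max_right 0 (r⁻¹ - 2 / δ)]
  · have hR : (4 : ℝ) ≤ S.v ^ 16 :=
      le_trans (by linarith [S.v_ge]) (le_self_pow₀ (by linarith [S.v_ge]) (by norm_num))
    have hI := H5.Gas.IR_pos (R := S.v ^ 16) (by linarith)
    have ha := S.ha
    refine ⟨2, 3, S.a * (1 / 4 / H5.Gas.IR (S.v ^ 16)), two_pos, by norm_num, by positivity,
      fun r h3 h4 => ?_⟩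
    rw [H5.Gas.Sys.φ, S.far r h3, zero_sub, neg_le_neg_iff, H5.Gas.psi_succ S.a0 S.v2]
    refine le_add_of_le_of_nonneg ?_ (H5.Gas.psi_nonneg S.a0 S.v2 _ _)
    simp only [H5.Gas.tm, H5.Gas.tk, if_true, H5.Gas.vv_zero, H5.Gas.JR, H5.Gas.tent]
    gcongr
    refine le_max_of_le_right ?_
    have : |r| / S.v ^ 16 ≤ 3 / 4 := by
      rw [abs_of_nonneg (by linarith)]; gcongr
    linarith
  · refine MeasureTheory.Integrable.mono' ((integrableOn_Ioi_rpow_of_lt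
      (a := ((2 : ℕ) : ℝ) - (3 + 1 / 32)) (by norm_num) two_pos).const_mul C2)
      (Measurable.aestronglyMeasurable (by fun_prop)) ?_
    filter_upwards [MeasureTheory.ae_restrict_mem measurableSet_Ioi] with r hr
    rw [Real.norm_of_nonneg (by positivity)]
    exact hd 2 r (le_of_lt hr)
  · have h3 := (tendsto_rpow_neg_atTop (y := 1 / 32) (by norm_num)).const_mul C2
    rw [mul_zero] at h3
    refine squeeze_zero_norm' ((Filter.eventually_ge_atTop 2).mono fun r hr => ?_) h3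
    rw [Real.norm_eq_abs, abs_mul, abs_of_nonneg (by positivity)]
    exact (hd 3 r hr).trans (le_of_eq (by norm_num))

end Crest.Agent.S0210
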