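import Crest.Statements.S0267
import Crest.Agent.H6.KCW

set_option autoImplicit false
open Crest.Topology
open Crest Crest.AlgebraR

namespace Crest.Agent.S0267

/-- There is a finitely presented group in which only the identity has finite order, having a finite classifying complex of dimension at most two (a finite Hausdorff CW complex with no cells above dimension two, with a contractible cover and with fundamental group isomorphic to the group), together with two nonzero elements of its group algebra over the field with two elements whose product is zero. -/
theorem result :
    ∃ (G : Type) (_ : Group G), Group.IsFinitelyPresented G ∧ (∀ g : G, IsOfFinOrder g → g = 1) ∧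
      HasFiniteClassifyingComplex G 2 ∧
      ∃ a b : MonoidAlgebra (ZMod 2) G, a ≠ 0 ∧ b ≠ 0 ∧ a * b = 0 := by
  obtain ⟨G, _, h0, h1, h2, a, b, c, h3, h4, h5⟩ := Crest.Agent.H6.Kap.main_cw 2
  exact ⟨G, inferInstance, h0, h1, h2, a, c, left_ne_zero_of_mul_eq_one h3, h5, h4⟩

end Crest.Agent.S0267
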