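import Crest.Statements.S0268
import Crest.Agent.H9.FdF
import Crest.Agent.H2.FdKos
import Crest.Agent.H2.FdRes
import Crest.Agent.H4.FdRep
import Crest.Agent.H5.FdHom
import Crest.Agent.H7.FdSym

set_option autoImplicit false
open Crest Crest.AlgebraR

namespace Crest.Agent.S0268

/-- There is a finite-dimensional unital associative algebra over the complex numbers whose finitely generated left modules have unbounded finite projective dimensions: for every natural number k some finitely generated left module has projective dimension at least k and finite. Projective dimension is taken in the category of left modules, through Mathlib's HasProjectiveDimensionLT. -/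
theorem result :
    ∃ (A : Type) (_ : Ring A) (_ : Algebra ℂ A), FiniteDimensional ℂ A ∧
      ∀ k : ℕ, ∃ N : ModuleCat.{0} A, Module.Finite A N ∧
        ¬ CategoryTheory.HasProjectiveDimensionLT N k ∧
        ∃ n : ℕ, CategoryTheory.HasProjectiveDimensionLT N n :=
  Crest.Agent.H9.Fd.final (Crest.Agent.H2.FdRes.resStmt Crest.Agent.H7.FdSym.symStmt
    Crest.Agent.H2.FdKos.kosStmt) Crest.Agent.H4.FdRep.repStmt Crest.Agent.H5.Fd.homStmt

end Crest.Agent.S0268
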