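import Crest.Statements.S0326
import Crest.Agent.H7.CylLoc

set_option autoImplicit false
open MeasureTheory
open scoped ENNReal
open Crest Crest.GeometryTopology Crest.GeometryTopology.Convex

namespace Crest.Agent.S0326

/-- Let D ⊂ ℝ² be compact, V : ℝ² → ℝ² be C¹ on an open set containing D, and L, h > 0, with tr DV(p) = 0 and −1/L² < det DV(p) ≤ 0 for p ∈ D. Let E ⊂ ℝ × ℝ² be the ruled set of points (s, p + s V(p)), p ∈ D, −L ≤ s ≤ L. For every ε > 0, finitely many squares Tᵢ = cᵢ + [0,1]aᵢ + [0,1]bᵢ (aᵢ ⊥ bᵢ of equal nonzero length) and velocities gᵢ ∈ ℝ² exist whose sheared cylinders {(s, ξ) : ξ ∈ Tᵢ + s gᵢ} cover E, with ∑ᵢ area(Tᵢ) J(gᵢ) ≤ ∫_D J(V(p)) dp + ε, where J(g) = (1 + g₁² + h² g₂²)^(−1/2). -/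
theorem result
    (D : Set (EuclideanSpace ℝ (Fin 2))) (hD : IsCompact D)
    (V : EuclideanSpace ℝ (Fin 2) → EuclideanSpace ℝ (Fin 2)) (U : Set (EuclideanSpace ℝ (Fin 2)))
    (hU : IsOpen U) (hDU : D ⊆ U) (hV : ContDiffOn ℝ 1 V U) (L h : ℝ) (hL : 0 < L) (hh : 0 < h)
    (htr : ∀ p ∈ D, LinearMap.trace ℝ _ (fderiv ℝ V p).toLinearMap = 0)
    (hdet : ∀ p ∈ D, -(L ^ 2)⁻¹ < LinearMap.det (fderiv ℝ V p).toLinearMap ∧
      LinearMap.det (fderiv ℝ V p).toLinearMap ≤ 0)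
    (ε : ℝ) (hε : 0 < ε) :
    ∃ (k : ℕ) (c a b g : Fin k → EuclideanSpace ℝ (Fin 2)),
      (∀ i, a i ≠ 0 ∧ ‖b i‖ = ‖a i‖ ∧ inner ℝ (a i) (b i) = 0) ∧
      {z : ℝ × EuclideanSpace ℝ (Fin 2) | ∃ p ∈ D, abs z.1 ≤ L ∧ z.2 = p + z.1 • V p} ⊆
        ⋃ i, {z : ℝ × EuclideanSpace ℝ (Fin 2) | ∃ x ∈ Set.Icc (0 : ℝ) 1, ∃ y ∈ Set.Icc (0 : ℝ) 1,
          z.2 = c i + x • a i + y • b i + z.1 • g i} ∧
      ∑ i, ‖a i‖ ^ 2 / Real.sqrt (1 + (g i 0) ^ 2 + h ^ 2 * (g i 1) ^ 2) ≤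
        (∫ p in D, 1 / Real.sqrt (1 + (V p 0) ^ 2 + h ^ 2 * (V p 1) ^ 2)) + ε := by
  have hw : Continuous fun g : EuclideanSpace ℝ (Fin 2) =>
      1 / Real.sqrt (1 + (g 0) ^ 2 + h ^ 2 * (g 1) ^ 2) :=
    Continuous.div continuous_const (by fun_prop) fun g => by positivity
  obtain ⟨ι, _, c, l, g, k1, k2, k3⟩ := H7.Cyl.global_cov D hD V U hU hDU hV L hL htr hdet hw
    (fun g => by positivity) (fun g => by
      rw [div_le_one (by positivity)]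
      refine Real.one_le_sqrt.2 ?_
      nlinarith [sq_nonneg (g 0), mul_nonneg (sq_nonneg h) (sq_nonneg (g 1))]) ε hε
  set e := (Fintype.equivFin ι).symm
  have n1 : ∀ i, ‖(!₂[l i, 0] : EuclideanSpace ℝ (Fin 2))‖ = l i := fun i => by
    simp [EuclideanSpace.norm_eq, Real.sqrt_sq (k1 i).le]
  have n2 : ∀ i, ‖(!₂[0, l i] : EuclideanSpace ℝ (Fin 2))‖ = l i := fun i => by
    simp [EuclideanSpace.norm_eq, Real.sqrt_sq (k1 i).le]
  refine ⟨_, fun j => c (e j), fun j => !₂[l (e j), 0], fun j => !₂[0, l (e j)], fun j => g (e j),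
    fun j => ⟨?_, by rw [n1, n2], by simp [H7.Cyl.inner2]⟩, fun z hz => ?_, ?_⟩
  · rw [← norm_pos_iff, n1]; exact k1 _
  · obtain ⟨i, hi⟩ := k2 z hz
    exact Set.mem_iUnion.2 ⟨e.symm i, by simpa only [Equiv.apply_symm_apply, Set.mem_ofPred_eq] using hi⟩
  · refine le_trans (le_of_eq ?_) k3
    rw [← Equiv.sum_comp e]
    refine Finset.sum_congr rfl fun j _ => ?_
    rw [n1, mul_one_div]

end Crest.Agent.S0326
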