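import Crest.Statements.S0327
import Crest.Agent.H7.CylSim

set_option autoImplicit false
open MeasureTheory
open scoped ENNReal
open Crest Crest.GeometryTopology Crest.GeometryTopology.Convex

namespace Crest.Agent.S0327

/-- Let K ⊂ ℝ³ be a regular tetrahedron (convex hull of four points with equal pairwise distances ℓ > 0); areas are Lebesgue-normalised 2-dimensional Hausdorff measure, π_v y = y − ⟪y, v⟫ v. (1) Finitely many cylinders Bᵢ + ℝ uᵢ, ‖uᵢ‖ = 1, with parallelogram bases Bᵢ = cᵢ + [0,1]aᵢ + [0,1]bᵢ in uᵢ^⊥ cover K, ∑ᵢ area(Bᵢ) being below half of area(π_v K) by a positive margin for all unit v, and ∑ᵢ area(Bᵢ)/area(π_{uᵢ} K) < 1/2. (2) The same with bounded relatively open subsets of the uᵢ^⊥ as bases. -/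
theorem result
    (w : Fin 4 → EuclideanSpace ℝ (Fin 3)) (ℓ : ℝ) (hℓ : 0 < ℓ)
    (hw : ∀ i j, i ≠ j → dist (w i) (w j) = ℓ) :
    (∃ (k : ℕ) (u c a b : Fin k → EuclideanSpace ℝ (Fin 3)),
      (∀ i, ‖u i‖ = 1) ∧
      (∀ i, inner ℝ (c i) (u i) = 0 ∧ inner ℝ (a i) (u i) = 0 ∧ inner ℝ (b i) (u i) = 0) ∧
      convexHull ℝ (Set.range w) ⊆ ⋃ i, {x : EuclideanSpace ℝ (Fin 3) |
        ∃ s ∈ Set.Icc (0 : ℝ) 1, ∃ t ∈ Set.Icc (0 : ℝ) 1, ∃ τ : ℝ, x = c i + s • a i + t • b i + τ • u i} ∧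
      (∃ δ : ℝ, 0 < δ ∧ ∀ v : EuclideanSpace ℝ (Fin 3), ‖v‖ = 1 →
        (∑ i, (μHE[2] {x : EuclideanSpace ℝ (Fin 3) |
            ∃ s ∈ Set.Icc (0 : ℝ) 1, ∃ t ∈ Set.Icc (0 : ℝ) 1, x = c i + s • a i + t • b i}).toReal) + δ ≤
          (μHE[2] ((fun y => y - inner ℝ y v • v) '' convexHull ℝ (Set.range w))).toReal / 2) ∧
      ∑ i, (μHE[2] {x : EuclideanSpace ℝ (Fin 3) |
            ∃ s ∈ Set.Icc (0 : ℝ) 1, ∃ t ∈ Set.Icc (0 : ℝ) 1, x = c i + s • a i + t • b i}).toReal /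
          (μHE[2] ((fun y => y - inner ℝ y (u i) • u i) '' convexHull ℝ (Set.range w))).toReal < 1 / 2) ∧
    (∃ (k : ℕ) (u : Fin k → EuclideanSpace ℝ (Fin 3)) (B : Fin k → Set (EuclideanSpace ℝ (Fin 3))),
      (∀ i, ‖u i‖ = 1) ∧
      (∀ i, Bornology.IsBounded (B i) ∧ ∃ O : Set (EuclideanSpace ℝ (Fin 3)), IsOpen O ∧
        B i = O ∩ {x | inner ℝ x (u i) = 0}) ∧
      convexHull ℝ (Set.range w) ⊆
        ⋃ i, {x : EuclideanSpace ℝ (Fin 3) | ∃ y ∈ B i, ∃ τ : ℝ, x = y + τ • u i} ∧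
      (∃ δ : ℝ, 0 < δ ∧ ∀ v : EuclideanSpace ℝ (Fin 3), ‖v‖ = 1 →
        (∑ i, (μHE[2] (B i)).toReal) + δ ≤
          (μHE[2] ((fun y => y - inner ℝ y v • v) '' convexHull ℝ (Set.range w))).toReal / 2) ∧
      ∑ i, (μHE[2] (B i)).toReal /
          (μHE[2] ((fun y => y - inner ℝ y (u i) • u i) '' convexHull ℝ (Set.range w))).toReal < 1 / 2) := by
  obtain ⟨Φ, m, hK⟩ := H7.Cyl.exists_sim w ℓ hℓ hw
  obtain ⟨N, hN⟩ : ∃ N : ℕ, N = 2 * 10 ^ 6 := ⟨_, rfl⟩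
  obtain ⟨n, hn⟩ : ∃ n : ℕ, n = 10 ^ 8 := ⟨_, rfl⟩
  obtain ⟨A, hA, hcov⟩ := H7.Cyl.exists_triCov N hN.ge
  have hs : 0 < Real.sqrt 2 := by positivity
  have hcov2 := ((hcov.toPar n (by omega)).sim Φ m (ℓ / 2)).reindex (Fintype.equivFin _).symm
  rw [← hK] at hcov2
  obtain ⟨k, hcov3⟩ : ∃ k : ℕ, H7.Cyl.ParCov (Fin k) (convexHull ℝ (Set.range w))
    ((ℓ / 2) ^ 2 * (A * (1 + 1 / n))) := ⟨_, hcov2⟩
  obtain ⟨u, c, a, b, h1, h2, h3, h4⟩ := hcov3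
  obtain ⟨L, hL⟩ : ∃ L, L = (ℓ / 2) ^ 2 * Real.sqrt 2 := ⟨_, rfl⟩
  have hL0 : 0 < L := by rw [hL]; positivity
  have hlow : ∀ v : EuclideanSpace ℝ (Fin 3), ‖v‖ = 1 →
      L ≤ (μHE[2] ((fun y => y - inner ℝ y v • v) '' convexHull ℝ (Set.range w))).toReal := by
    intro v hv
    rw [hK, H7.Cyl.proj_sim, H7.Cyl.area_sim Φ _ (by positivity), ENNReal.toReal_mul,
      ENNReal.toReal_ofReal (by positivity), hL]
    gcongr
    exact H7.Cyl.proj_lower_toReal (by simpa using hv)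
  have hsum : ∑ i, H7.Cyl.gr (a i) (b i) ≤ L * (1 / 2 - 1 / (2 * 10 ^ 8)) := by
    refine h4.trans ?_
    rw [hL, mul_assoc]
    refine mul_le_mul_of_nonneg_left ?_ (by positivity)
    calc A * (1 + 1 / n) ≤ Real.sqrt 2 * (1 / 2 - 1 / 10 ^ 8) * (1 + 1 / n) := by gcongr
      _ ≤ _ := by
        rw [mul_assoc, hn]
        refine mul_le_mul_of_nonneg_left ?_ (by positivity)
        norm_num
  have hfin : ∀ s : Fin k → ℝ, (∀ i, 0 ≤ s i) → ∑ i, s i ≤ L * (1 / 2 - 1 / (4 * 10 ^ 8)) →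
      (∃ δ : ℝ, 0 < δ ∧ ∀ v : EuclideanSpace ℝ (Fin 3), ‖v‖ = 1 → (∑ i, s i) + δ ≤
          (μHE[2] ((fun y => y - inner ℝ y v • v) '' convexHull ℝ (Set.range w))).toReal / 2) ∧
      ∑ i, s i / (μHE[2] ((fun y => y - inner ℝ y (u i) • u i) ''
        convexHull ℝ (Set.range w))).toReal < 1 / 2 := by
    intro s hs0 hs1
    refine ⟨⟨L / (4 * 10 ^ 8), by positivity, fun v hv => ?_⟩, ?_⟩
    · have := hlow v hv
      linarith
    · calc _ ≤ ∑ i, s i / L := Finset.sum_le_sum fun i _ => by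
            have := hlow (u i) (h1 i)
            have := hs0 i
            gcongr
        _ < 1 / 2 := by
          rw [← Finset.sum_div, div_lt_iff₀ hL0]
          linarith
  have hpar : ∀ i, {x : EuclideanSpace ℝ (Fin 3) |
      ∃ s ∈ Set.Icc (0 : ℝ) 1, ∃ t ∈ Set.Icc (0 : ℝ) 1, x = c i + s • a i + t • b i} =
      H7.Cyl.par (c i) (a i) (b i) H7.Cyl.sq0 := by
    intro i
    ext x
    constructor
    · rintro ⟨s, hs, t, ht, rfl⟩; exact ⟨(s, t), ⟨hs, ht⟩, rfl⟩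
    · rintro ⟨⟨s, t⟩, ⟨hs, ht⟩, rfl⟩; exact ⟨s, hs, t, ht, rfl⟩
  have harea : ∀ i, (μHE[2] (H7.Cyl.par (c i) (a i) (b i) H7.Cyl.sq0)).toReal =
      H7.Cyl.gr (a i) (b i) := fun i => by
    rw [H7.Cyl.area_sq, ENNReal.toReal_ofReal (H7.Cyl.gr_nonneg _ _)]
  refine ⟨⟨k, u, c, a, b, h1, h2, h3, ?_⟩, ?_⟩
  · simp only [hpar, harea]
    exact hfin _ (fun i => H7.Cyl.gr_nonneg _ _) (by nlinarith)
  · have hu : ∀ i, u i ≠ 0 := fun i h => by simpa [h] using h1 i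
    have hop := fun i => H7.Cyl.openify (hu i)
      (H7.Cyl.isCompact_par (c i) (a i) (b i) H7.Cyl.isCompact_sq0)
      (by
        rintro _ ⟨x, -, rfl⟩
        simp [inner_add_left, inner_smul_left, (h2 i).1, (h2 i).2.1, (h2 i).2.2])
      (θ := L / (4 * 10 ^ 8) / (k + 1)) (by positivity)
    choose B hB1 hB2 hB3 using hop
    refine ⟨k, u, B, h1, hB1, fun x hx => ?_, hfin _ (fun i => ENNReal.toReal_nonneg) ?_⟩
    · obtain ⟨i, s, hs, t, ht, τ, rfl⟩ := Set.mem_iUnion.1 (h3 hx)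
      exact Set.mem_iUnion.2 ⟨i, _, hB2 i ⟨(s, t), ⟨hs, ht⟩, rfl⟩, τ, rfl⟩
    · refine (Finset.sum_le_sum fun i _ => hB3 i).trans ?_
      simp only [harea, Finset.sum_add_distrib, Finset.sum_const, Finset.card_univ,
        Fintype.card_fin, nsmul_eq_mul]
      have : (k : ℝ) * (L / (4 * 10 ^ 8) / (k + 1)) ≤ L / (4 * 10 ^ 8) := by
        rw [mul_div_assoc', div_le_iff₀ (by positivity)]
        have : 0 < L / (4 * 10 ^ 8) := by positivity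
        nlinarith
      linarith

end Crest.Agent.S0327
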