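import Crest.Statements.S0328
import Crest.Agent.H7.CylFan

set_option autoImplicit false
open MeasureTheory
open scoped ENNReal
open Crest Crest.GeometryTopology Crest.GeometryTopology.Convex

namespace Crest.Agent.S0328

lemma arith_est {x R B ε δ J κ g : ℝ} (hδ : 0 < δ) (hRB : R ≤ B) (hR : 0 ≤ R) (hJ : J ≤ κ)
    (hJ0 : 0 ≤ J) (hε : 0 < ε) (hε1 : ε ≤ 1) (h4 : 0 ≤ g) (h3 : g ≤ ε)
    (hx1 : (max (R - ε) 0) ^ 2 * δ * J / 2 ≤ x) (hx2 : x ≤ (R + ε + g) ^ 2 * δ * J / 2) :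
    |x - R ^ 2 * δ * J / 2| ≤ κ * (2 * B + 2) * ε * δ := by
  have hB0 : 0 ≤ B := hR.trans hRB
  have u1 : (R + ε + g) ^ 2 - R ^ 2 ≤ (4 * B + 4) * ε := by nlinarith
  have u2 : R ^ 2 - (max (R - ε) 0) ^ 2 ≤ (4 * B + 4) * ε := by
    rcases le_total (R - ε) 0 with h | h
    · rw [max_eq_right h]; nlinarith
    · rw [max_eq_left h]; nlinarith
  have v : (4 * B + 4) * ε * (δ * J) ≤ (4 * B + 4) * ε * (δ * κ) := by gcongr
  have hδJ : 0 ≤ δ * J := by positivity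
  rw [abs_le]
  constructor
  · nlinarith [mul_le_mul_of_nonneg_right u2 hδJ]
  · nlinarith [mul_le_mul_of_nonneg_right u1 hδJ]

/-- Unit e; a, b, p₀ ∈ e^⊥, a, b independent; α < β; L > 0; R ≥ 0, λ both continuous on [α, β]; w(t) ∈ e^⊥, w′ = λ(t)(a + tb). S = {p₀ + ρ(a + t b) + s(e + w t) : α ≤ t ≤ β, 0 ≤ ρ ≤ R t, ‖s‖ ≤ L}; A = κ ∫_α^β R²/(2√(1 + ‖w‖²)), κ = area spanned by a, b. For η > 0 a δ > 0 makes each partition t₀ < … < t_N of [α, β] of mesh ≤ δ, tags cᵢ, admit N cylinders (axes e + w(cᵢ), nondegenerate triangle bases) covering S, total area within η of A; same for S's pieces tᵢ ≤ t ≤ tᵢ₊₁ projected along these axes. -/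
theorem result
    (e a b p₀ : EuclideanSpace ℝ (Fin 3)) (he : ‖e‖ = 1)
    (ha : inner ℝ a e = 0) (hb : inner ℝ b e = 0) (hp₀ : inner ℝ p₀ e = 0)
    (hab : LinearIndependent ℝ ![a, b]) (L : ℝ) (hL : 0 < L) (α β : ℝ) (hαβ : α < β)
    (R : ℝ → ℝ) (hR : ContinuousOn R (Set.Icc α β)) (hR0 : ∀ t ∈ Set.Icc α β, 0 ≤ R t)
    (w : ℝ → EuclideanSpace ℝ (Fin 3)) (hw : ∀ t ∈ Set.Icc α β, inner ℝ (w t) e = 0)
    (lam : ℝ → ℝ) (hlam : ContinuousOn lam (Set.Icc α β))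
    (hw' : ∀ t ∈ Set.Icc α β, HasDerivWithinAt w (lam t • (a + t • b)) (Set.Icc α β) t)
    (η : ℝ) (hη : 0 < η) :
    ∃ δ : ℝ, 0 < δ ∧ ∀ (N : ℕ) (t : Fin (N + 1) → ℝ) (c : Fin N → ℝ),
      StrictMono t → t 0 = α → t (Fin.last N) = β →
      (∀ i : Fin N, t i.succ - t i.castSucc ≤ δ) →
      (∀ i : Fin N, t i.castSucc ≤ c i ∧ c i ≤ t i.succ) →
      (∃ (p q r : Fin N → EuclideanSpace ℝ (Fin 3)),
        (∀ i, inner ℝ (p i) (e + w (c i)) = 0 ∧ inner ℝ (q i) (e + w (c i)) = 0 ∧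
          inner ℝ (r i) (e + w (c i)) = 0) ∧
        (∀ i, AffineIndependent ℝ ![p i, q i, r i]) ∧
        {x : EuclideanSpace ℝ (Fin 3) | ∃ τ ∈ Set.Icc α β, ∃ ρ ∈ Set.Icc 0 (R τ), ∃ s : ℝ, abs s ≤ L ∧
            x = p₀ + ρ • (a + τ • b) + s • (e + w τ)} ⊆
          ⋃ i, {x : EuclideanSpace ℝ (Fin 3) | ∃ y ∈ convexHull ℝ {p i, q i, r i}, ∃ σ : ℝ,
            x = y + σ • (e + w (c i))} ∧
        abs ((∑ i, (μHE[2] (convexHull ℝ ({p i, q i, r i} : Set (EuclideanSpace ℝ (Fin 3))))).toReal) -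
            Real.sqrt (‖a‖ ^ 2 * ‖b‖ ^ 2 - inner ℝ a b ^ 2) *
              ∫ τ in α..β, R τ ^ 2 / (2 * Real.sqrt (1 + ‖w τ‖ ^ 2))) ≤ η) ∧
      abs ((∑ i : Fin N, (μHE[2] ((fun y => y - (inner ℝ y (e + w (c i)) / ‖e + w (c i)‖ ^ 2) • (e + w (c i))) ''
            {x : EuclideanSpace ℝ (Fin 3) | ∃ τ ∈ Set.Icc (t i.castSucc) (t i.succ), ∃ ρ ∈ Set.Icc 0 (R τ),
              ∃ s : ℝ, abs s ≤ L ∧ x = p₀ + ρ • (a + τ • b) + s • (e + w τ)})).toReal) -
          Real.sqrt (‖a‖ ^ 2 * ‖b‖ ^ 2 - inner ℝ a b ^ 2) *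
            ∫ τ in α..β, R τ ^ 2 / (2 * Real.sqrt (1 + ‖w τ‖ ^ 2))) ≤ η := by
  open Crest.Agent.H7.Cyl Set in
  have hκ : 0 < gr a b := gr_pos_of_linearIndependent hab
  obtain ⟨n₀, n₁, ha0, hb0, ha1, hb1, hdec⟩ := exists_dual he ha hb hκ
  have hwc : ContinuousOn w (Icc α β) := fun t ht => (hw' t ht).continuousWithinAt
  obtain ⟨B, hB⟩ := isCompact_Icc.exists_bound_of_continuousOn hR
  obtain ⟨M, hM⟩ := isCompact_Icc.exists_bound_of_continuousOn hlam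
  have hα : α ∈ Icc α β := left_mem_Icc.2 hαβ.le
  have hB0 : 0 ≤ B := (norm_nonneg _).trans (hB α hα)
  have hM0 : 0 ≤ M := (norm_nonneg _).trans (hM α hα)
  set f : ℝ → ℝ := fun τ => R τ ^ 2 / (2 * Real.sqrt (1 + ‖w τ‖ ^ 2)) with hf
  have hsq : ∀ τ, 1 ≤ Real.sqrt (1 + ‖w τ‖ ^ 2) := fun τ =>
    Real.one_le_sqrt.2 (by nlinarith [sq_nonneg ‖w τ‖])
  have hfc : ContinuousOn f (Icc α β) :=
    (hR.pow 2).div (continuousOn_const.mul ((continuousOn_const.add (hwc.norm.pow 2)).sqrt))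
      (fun τ _ => by have := hsq τ; positivity)
  have hba : 0 < β - α := sub_pos.2 hαβ
  obtain ⟨ε, hε, hε1, hεη⟩ : ∃ ε : ℝ, 0 < ε ∧ ε ≤ 1 ∧
      (gr a b * (2 * B + 2) * ε + gr a b * ε) * (β - α) ≤ η := by
    refine ⟨min 1 (η / (gr a b * (2 * B + 3) * (β - α))), lt_min one_pos (by positivity),
      min_le_left _ _, ?_⟩
    have := min_le_right 1 (η / (gr a b * (2 * B + 3) * (β - α)))
    rw [le_div_iff₀ (by positivity)] at this
    nlinarith
  obtain ⟨δ₁, hδ₁, hU₁⟩ := Metric.uniformContinuousOn_iff_le.1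
    (isCompact_Icc.uniformContinuousOn_of_continuous hR) ε hε
  obtain ⟨δ₂, hδ₂, hU₂⟩ := Metric.uniformContinuousOn_iff_le.1
    (isCompact_Icc.uniformContinuousOn_of_continuous hfc) ε hε
  refine ⟨min (min δ₁ δ₂) (ε / (3 * (L * M) + 1)), lt_min (lt_min hδ₁ hδ₂) (by positivity), ?_⟩
  intro N t c ht h0 h1 hmesh hc
  have hmem : ∀ j, t j ∈ Icc α β := fun j =>
    ⟨h0 ▸ ht.monotone (Fin.zero_le j), h1 ▸ ht.monotone (Fin.le_last j)⟩
  have hlt : ∀ i : Fin N, t i.castSucc < t i.succ := fun i => ht Fin.castSucc_lt_succ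
  have hsub : ∀ i : Fin N, Icc (t i.castSucc) (t i.succ) ⊆ Icc α β := fun i =>
    Icc_subset_Icc (hmem _).1 (hmem _).2
  have hcm : ∀ i, c i ∈ Icc α β := fun i => hsub i (hc i)
  have hdist : ∀ i : Fin N, ∀ τ ∈ Icc (t i.castSucc) (t i.succ),
      |τ - c i| ≤ t i.succ - t i.castSucc := fun i τ hτ => by
    rw [abs_le]; constructor <;> linarith [hτ.1, hτ.2, (hc i).1, (hc i).2]
  have hRε : ∀ i : Fin N, ∀ τ ∈ Icc (t i.castSucc) (t i.succ), |R τ - R (c i)| ≤ ε :=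
    fun i τ hτ => hU₁ τ (hsub i hτ) (c i) (hcm i)
      ((hdist i τ hτ).trans ((hmesh i).trans ((min_le_left _ _).trans (min_le_left _ _))))
  have hfε : ∀ i : Fin N, ∀ τ ∈ Icc (t i.castSucc) (t i.succ), |f τ - f (c i)| ≤ ε :=
    fun i τ hτ => hU₂ τ (hsub i hτ) (c i) (hcm i)
      ((hdist i τ hτ).trans ((hmesh i).trans ((min_le_left _ _).trans (min_le_right _ _))))
  have hh : ∀ i : Fin N, 3 * (L * M) * (t i.succ - t i.castSucc) ≤ ε := fun i => by
    have h2 := (hmesh i).trans (min_le_right _ _)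
    rw [le_div_iff₀ (by positivity)] at h2
    nlinarith [hlt i]
  -- mean value bounds
  have hmv : ∀ i : Fin N, ∀ (n : E3) (C : ℝ),
      (∀ x ∈ Icc (t i.castSucc) (t i.succ), |lam x * (inner ℝ a n + x * inner ℝ b n)| ≤ C) →
      ∀ τ ∈ Icc (t i.castSucc) (t i.succ),
        |inner ℝ (w τ - w (c i)) n| ≤ C * (t i.succ - t i.castSucc) := by
    intro i n C hC τ hτ
    have hC0 : 0 ≤ C := (abs_nonneg _).trans (hC τ hτ)
    have := (convex_Icc (t i.castSucc) (t i.succ)).norm_image_sub_le_of_norm_hasDerivWithin_le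
      (f := fun x => inner ℝ (w x) n) (f' := fun x => lam x * (inner ℝ a n + x * inner ℝ b n))
      (C := C) (fun x hx => by
        have h2 := ((hw' x (hsub i hx)).mono (hsub i)).inner ℝ (hasDerivWithinAt_const x _ n)
        simpa [inner_smul_left, inner_add_left, mul_add] using h2)
      (fun x hx => hC x hx) (hc i) hτ
    rw [inner_sub_left]
    exact this.trans (mul_le_mul_of_nonneg_left (hdist i τ hτ) hC0)
  have hfac := fun i : Fin N => factor_eq he ha hb (hw (c i) (hcm i))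
  have hpos : ∀ i : Fin N, 0 < (R (c i) + ε + L * M * (t i.succ - t i.castSucc)) +
      2 * (L * M * (t i.succ - t i.castSucc) ^ 2) / (t i.succ - t i.castSucc) := fun i => by
    have := hR0 _ (hcm i)
    have := sub_pos.2 (hlt i)
    positivity
  have hpiece := fun i : Fin N => fan_piece p₀ a b (hfac i).1 (t i.castSucc) (t i.succ)
    (R (c i) + ε + L * M * (t i.succ - t i.castSucc)) (L * M * (t i.succ - t i.castSucc) ^ 2)
    (hlt i) (hpos i)
  choose p q r hperp hgr hin using hpiece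
  have hD : ∀ i : Fin N, (R (c i) + ε + L * M * (t i.succ - t i.castSucc)) +
      2 * (L * M * (t i.succ - t i.castSucc) ^ 2) / (t i.succ - t i.castSucc) =
      R (c i) + ε + 3 * (L * M) * (t i.succ - t i.castSucc) := fun i => by
    have := (sub_pos.2 (hlt i)).ne'
    field_simp
    ring
  have hkey : ∀ i : Fin N, ∀ τ ∈ Icc (t i.castSucc) (t i.succ), ∀ ρ ∈ Icc 0 (R τ), ∀ s : ℝ,
      |s| ≤ L → proj (e + w (c i)) (p₀ + ρ • (a + τ • b) + s • (e + w τ)) ∈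
        convexHull ℝ ({p i, q i, r i} : Set E3) := by
    intro i τ hτ ρ hρ s hs
    have hδ := (sub_pos.2 (hlt i))
    have hx : inner ℝ (w τ - w (c i)) e = 0 := by
      rw [inner_sub_left, hw τ (hsub i hτ), hw _ (hcm i), sub_zero]
    have hd := hdec _ hx
    set Λ₀ := inner ℝ (w τ - w (c i)) n₀ with hΛ₀
    set Λ₁ := inner ℝ (w τ - w (c i)) n₁ with hΛ₁
    have b0 : |Λ₀| ≤ M * (t i.succ - t i.castSucc) := hmv i n₀ M (fun x hx => by
      rw [ha0, hb0]; simpa using hM x (hsub i hx)) τ hτ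
    have b1 : ∀ T ∈ Icc (t i.castSucc) (t i.succ),
        |Λ₁ - T * Λ₀| ≤ M * (t i.succ - t i.castSucc) * (t i.succ - t i.castSucc) := by
      intro T hT
      have := hmv i (n₁ - T • n₀) (M * (t i.succ - t i.castSucc)) (fun x hx => by
        rw [inner_sub_right, inner_sub_right, inner_smul_right, inner_smul_right, ha0, ha1, hb0,
          hb1, abs_mul]
        refine mul_le_mul (by simpa using hM x (hsub i hx)) ?_ (abs_nonneg _) hM0
        rw [abs_le]; constructor <;> linarith [hx.1, hx.2, hT.1, hT.2]) τ hτ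
      rwa [inner_sub_right, inner_smul_right] at this
    have e1 : p₀ + ρ • (a + τ • b) + s • (e + w τ) =
        (p₀ + (ρ + s * Λ₀) • a + (ρ * τ + s * Λ₁) • b) + s • (e + w (c i)) := by
      have : w τ = w (c i) + (Λ₀ • a + Λ₁ • b) := by rw [← hd]; abel
      rw [this]; module
    rw [e1, proj_add, proj_smul, proj_self (hfac i).1, smul_zero, add_zero]
    have m0 : |s * Λ₀| ≤ L * (M * (t i.succ - t i.castSucc)) := by
      rw [abs_mul]; exact mul_le_mul hs b0 (abs_nonneg _) hL.le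
    have m1 : ∀ T ∈ Icc (t i.castSucc) (t i.succ), |s * (Λ₁ - T * Λ₀)| ≤
        L * (M * (t i.succ - t i.castSucc) * (t i.succ - t i.castSucc)) := fun T hT => by
      rw [abs_mul]; exact mul_le_mul hs (b1 T hT) (abs_nonneg _) hL.le
    refine hin i _ _ ?_ ?_ ?_
    · have := (abs_le.1 (hRε i τ hτ)).2
      have := (abs_le.1 m0).2
      linarith [hρ.2]
    · have := (abs_le.1 (m1 _ (left_mem_Icc.2 (hlt i).le))).1
      linear_combination this + mul_nonneg hρ.1 (sub_nonneg.2 hτ.1)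
    · have := (abs_le.1 (m1 _ (right_mem_Icc.2 (hlt i).le))).2
      linear_combination this + mul_nonneg hρ.1 (sub_nonneg.2 hτ.2)
  -- arithmetic estimate
  have harith : ∀ i : Fin N, ∀ x : ℝ,
      (max (R (c i) - ε) 0) ^ 2 * (t i.succ - t i.castSucc) *
        (gr a b / Real.sqrt (1 + ‖w (c i)‖ ^ 2)) / 2 ≤ x →
      x ≤ (R (c i) + ε + 3 * (L * M) * (t i.succ - t i.castSucc)) ^ 2 * (t i.succ - t i.castSucc) *
        (gr a b / Real.sqrt (1 + ‖w (c i)‖ ^ 2)) / 2 →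
      |x - gr a b * f (c i) * (t i.succ - t i.castSucc)| ≤
        gr a b * (2 * B + 2) * ε * (t i.succ - t i.castSucc) := by
    intro i x hx1 hx2
    have hδ := (sub_pos.2 (hlt i))
    have hRB : R (c i) ≤ B := (le_abs_self _).trans (hB _ (hcm i))
    have hR' := hR0 _ (hcm i)
    have hJ : gr a b / Real.sqrt (1 + ‖w (c i)‖ ^ 2) ≤ gr a b := div_le_self hκ.le (hsq _)
    have hJ0 : 0 ≤ gr a b / Real.sqrt (1 + ‖w (c i)‖ ^ 2) := by positivity
    have e1 : gr a b * f (c i) * (t i.succ - t i.castSucc) = R (c i) ^ 2 *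
        (t i.succ - t i.castSucc) * (gr a b / Real.sqrt (1 + ‖w (c i)‖ ^ 2)) / 2 := by
      simp only [hf]; ring
    rw [e1]
    exact arith_est hδ hRB hR' hJ hJ0 hε hε1 (by positivity) (hh i) hx1 hx2
  have hmax : ∀ i : Fin N, (max (R (c i) - ε) 0) ≤
      (R (c i) + ε + 3 * (L * M) * (t i.succ - t i.castSucc)) := fun i => by
    have := hR0 _ (hcm i)
    have := sub_pos.2 (hlt i)
    have h4 : 0 ≤ 3 * (L * M) * (t i.succ - t i.castSucc) := by positivity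
    exact max_le (by linarith) (by linarith)
  have harea : ∀ i : Fin N, gr (q i - p i) (r i - p i) =
      (R (c i) + ε + 3 * (L * M) * (t i.succ - t i.castSucc)) ^ 2 * (t i.succ - t i.castSucc) *
        (gr a b / Real.sqrt (1 + ‖w (c i)‖ ^ 2)) := fun i => by
    rw [hgr i, hD i, (hfac i).2]
  refine ⟨⟨p, q, r, hperp, fun i => affineIndependent_of_gr ?_, ?_, ?_⟩, ?_⟩
  · rw [hgr i, (hfac i).2]
    have := hpos i
    have := sub_pos.2 (hlt i)
    have := hsq (c i)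
    positivity
  · rintro x ⟨τ, hτ, ρ, hρ, s, hs, rfl⟩
    obtain ⟨i, hi⟩ := exists_piece t (by rw [h0, h1]; exact hαβ) (h0 ▸ hτ.1) (h1 ▸ hτ.2)
    exact mem_iUnion.2 ⟨i, _, hkey i τ hi ρ hρ s hs, _, eq_proj_add _ _⟩
  · refine (riemann_close hfc t c ht h0 h1 hκ.le hfε _ (fun i => harith i _ ?_ ?_)).trans hεη
    · rw [area_triangle_toReal, harea i]
      have := sub_pos.2 (hlt i)
      have := hsq (c i)
      gcongr
      exact hmax i
    · rw [area_triangle_toReal, harea i]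
  · refine (riemann_close hfc t c ht h0 h1 hκ.le hfε _ (fun i => ?_)).trans hεη
    have hsubT : (fun y => y - (inner ℝ y (e + w (c i)) / ‖e + w (c i)‖ ^ 2) • (e + w (c i))) ''
        {x : E3 | ∃ τ ∈ Set.Icc (t i.castSucc) (t i.succ), ∃ ρ ∈ Set.Icc 0 (R τ),
          ∃ s : ℝ, abs s ≤ L ∧ x = p₀ + ρ • (a + τ • b) + s • (e + w τ)} ⊆
        convexHull ℝ ({p i, q i, r i} : Set E3) := by
      rintro _ ⟨_, ⟨τ, hτ, ρ, hρ, s, hs, rfl⟩, rfl⟩
      exact hkey i τ hτ ρ hρ s hs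
    have hfin : μHE[2] (convexHull ℝ ({p i, q i, r i} : Set E3)) ≠ ∞ := by
      rw [area_triangle]; exact ENNReal.ofReal_ne_top
    refine harith i _ ?_ ?_
    · rw [← (hfac i).2]
      refine (ENNReal.ofReal_le_iff_le_toReal (ne_top_of_le_ne_top hfin (measure_mono hsubT))).1 ?_
      refine fan_lower p₀ a b (hfac i).1 _ _ _ (hlt i).le (le_max_right _ _) fun τ hτ ρ hρ => ?_
      refine ⟨_, ⟨τ, hτ, ρ, ⟨hρ.1, hρ.2.trans (max_le ?_ (hR0 _ (hsub i hτ)))⟩, 0, by simp [hL.le],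
        rfl⟩, by simp [proj]⟩
      linarith [(abs_le.1 (hRε i τ hτ)).1]
    · rw [← harea i, ← area_triangle_toReal]
      exact ENNReal.toReal_mono hfin (measure_mono hsubT)

end Crest.Agent.S0328
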