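import Crest.Statements.S0329
import Crest.Agent.H7.CylLoc
import Crest.Agent.H7.CylFan

set_option autoImplicit false
open MeasureTheory
open scoped ENNReal
open Crest Crest.GeometryTopology Crest.GeometryTopology.Convex

namespace Crest.Agent.S0329

/-- Let h, M > 0, D ⊂ ℝ² be compact with Lebesgue-null boundary, and V : ℝ² → ℝ² be C¹ on an open set containing D with tr DV(p) = 0 and −1/M² < det DV(p) < 0 for p ∈ D. For every ε > 0 the set of points (x, p₁ + x V₁(p), h (p₂ + x V₂(p))) ∈ ℝ³ with p ∈ D, −M ≤ x ≤ M is covered by finitely many cylinders Bᵢ + ℝ uᵢ, ‖uᵢ‖ = 1, with bases Bᵢ bounded relatively open subsets of the planes uᵢ^⊥ and ∑ᵢ area(Bᵢ) ≤ h ∫_D (1 + V₁² + h² V₂²)^(−1/2) + ε (areas: normalised 2-dimensional Hausdorff measure). -/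
theorem result
    (h M : ℝ) (hh : 0 < h) (hM : 0 < M) (D : Set (EuclideanSpace ℝ (Fin 2))) (hD : IsCompact D)
    (hbd : volume (frontier D) = 0)
    (V : EuclideanSpace ℝ (Fin 2) → EuclideanSpace ℝ (Fin 2)) (U : Set (EuclideanSpace ℝ (Fin 2)))
    (hU : IsOpen U) (hDU : D ⊆ U) (hV : ContDiffOn ℝ 1 V U)
    (htr : ∀ p ∈ D, LinearMap.trace ℝ _ (fderiv ℝ V p).toLinearMap = 0)
    (hdet : ∀ p ∈ D, -(M ^ 2)⁻¹ < LinearMap.det (fderiv ℝ V p).toLinearMap ∧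
      LinearMap.det (fderiv ℝ V p).toLinearMap < 0)
    (ε : ℝ) (hε : 0 < ε) :
    ∃ (k : ℕ) (u : Fin k → EuclideanSpace ℝ (Fin 3)) (B : Fin k → Set (EuclideanSpace ℝ (Fin 3))),
      (∀ i, ‖u i‖ = 1) ∧
      (∀ i, Bornology.IsBounded (B i) ∧ ∃ O : Set (EuclideanSpace ℝ (Fin 3)), IsOpen O ∧
        B i = O ∩ {x | inner ℝ x (u i) = 0}) ∧
      {z : EuclideanSpace ℝ (Fin 3) | ∃ p ∈ D, ∃ x : ℝ, abs x ≤ M ∧
          z = !₂[x, p 0 + x * V p 0, h * (p 1 + x * V p 1)]} ⊆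
        ⋃ i, {z : EuclideanSpace ℝ (Fin 3) | ∃ y ∈ B i, ∃ τ : ℝ, z = y + τ • u i} ∧
      ∑ i, (μHE[2] (B i)).toReal ≤
        h * (∫ p in D, 1 / Real.sqrt (1 + (V p 0) ^ 2 + h ^ 2 * (V p 1) ^ 2)) + ε := by
  have hw : Continuous fun g : EuclideanSpace ℝ (Fin 2) =>
      1 / Real.sqrt (1 + (g 0) ^ 2 + h ^ 2 * (g 1) ^ 2) :=
    Continuous.div continuous_const (by fun_prop) fun g => by positivity
  obtain ⟨ι, _, c, l, g, k1, k2, k3⟩ := H7.Cyl.global_cov D hD V U hU hDU hV M hM htr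
    (fun p hp => ⟨(hdet p hp).1, (hdet p hp).2.le⟩) hw
    (fun g => by positivity) (fun g => by
      rw [div_le_one (by positivity)]
      refine Real.one_le_sqrt.2 ?_
      nlinarith [sq_nonneg (g 0), mul_nonneg (sq_nonneg h) (sq_nonneg (g 1))]) (ε / (2 * h))
    (by positivity)
  set e := (Fintype.equivFin ι).symm
  set d : ι → EuclideanSpace ℝ (Fin 3) := fun i => !₂[1, g i 0, h * g i 1] with hd
  have hd0 : ∀ i, d i ≠ 0 := fun i h0 => by
    simpa [hd] using congrArg (fun x : EuclideanSpace ℝ (Fin 3) => x 0) h0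
  have hdn : ∀ i, ‖d i‖ = Real.sqrt (1 + (g i 0) ^ 2 + h ^ 2 * (g i 1) ^ 2) := fun i => by
    rw [← Real.sqrt_sq (norm_nonneg (d i)), H7.Cyl.normsq3]
    simp [hd, mul_pow]
  have hu0 : ∀ i, ‖d i‖⁻¹ • d i ≠ 0 := fun i =>
    smul_ne_zero (inv_ne_zero (norm_ne_zero_iff.2 (hd0 i))) (hd0 i)
  have hop := fun i => H7.Cyl.openify (hu0 i)
    (H7.Cyl.isCompact_par (H7.Cyl.proj (d i) !₂[0, c i 0, h * c i 1])
      (H7.Cyl.proj (d i) !₂[0, l i, 0]) (H7.Cyl.proj (d i) !₂[0, 0, h * l i]) H7.Cyl.isCompact_sq0)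
    (by
      rintro _ ⟨x, -, rfl⟩
      simp [inner_add_left, inner_smul_left, inner_smul_right, H7.Cyl.inner_proj (hd0 i)])
    (θ := ε / 2 / (Fintype.card ι + 1)) (by positivity)
  choose B hB1 hB2 hB3 using hop
  refine ⟨_, fun j => ‖d (e j)‖⁻¹ • d (e j), fun j => B (e j),
    fun j => norm_smul_inv_norm (hd0 _), fun j => hB1 _, ?_, ?_⟩
  · rintro _ ⟨p, hp, s, hs, rfl⟩
    obtain ⟨i, x, hx, y, hy, hi⟩ := k2 (s, p + s • V p) ⟨p, hp, hs, rfl⟩
    refine Set.mem_iUnion.2 ⟨e.symm i, ?_⟩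
    simp only [Equiv.apply_symm_apply, Set.mem_ofPred_eq]
    set Y : EuclideanSpace ℝ (Fin 3) :=
      !₂[0, c i 0, h * c i 1] + x • !₂[0, l i, 0] + y • !₂[0, 0, h * l i] with hY
    refine ⟨H7.Cyl.proj (d i) Y, hB2 i ⟨(x, y), ⟨hx, hy⟩, ?_⟩,
      (inner ℝ Y (d i) / ‖d i‖ ^ 2 + s) * ‖d i‖, ?_⟩
    · simp only [hY, H7.Cyl.proj_add, H7.Cyl.proj_smul]
    · rw [smul_smul, mul_assoc _ ‖d i‖, mul_inv_cancel₀ (norm_ne_zero_iff.2 (hd0 i)), mul_one,
        add_smul, ← add_assoc, ← H7.Cyl.eq_proj_add]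
      have h0 := congrArg (fun v : EuclideanSpace ℝ (Fin 2) => v 0) hi
      have h1 := congrArg (fun v : EuclideanSpace ℝ (Fin 2) => v 1) hi
      simp at h0 h1
      ext j
      fin_cases j <;> simp [hY, hd]
      · linarith
      · rw [h1]; ring
  · rw [Equiv.sum_comp e (fun i => (μHE[2] (B i)).toReal)]
    refine (Finset.sum_le_sum fun i _ => hB3 i).trans ?_
    have ha : ∀ i, (μHE[2] (H7.Cyl.par (H7.Cyl.proj (d i) !₂[0, c i 0, h * c i 1])
        (H7.Cyl.proj (d i) !₂[0, l i, 0]) (H7.Cyl.proj (d i) !₂[0, 0, h * l i]) H7.Cyl.sq0)).toReal =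
        h * (l i ^ 2 * (1 / Real.sqrt (1 + (g i 0) ^ 2 + h ^ 2 * (g i 1) ^ 2))) := by
      intro i
      rw [H7.Cyl.area_sq, ENNReal.toReal_ofReal (H7.Cyl.gr_nonneg _ _), H7.Cyl.gr_proj (hd0 i), hdn]
      have : H7.Cyl.det3 !₂[0, l i, 0] !₂[0, 0, h * l i] (d i) = h * l i ^ 2 := by
        simp [H7.Cyl.det3, hd]; ring
      rw [this, abs_of_nonneg (by positivity)]
      ring
    simp only [ha, Finset.sum_add_distrib, ← Finset.mul_sum]
    have h5 : ∑ _i : ι, ε / 2 / (Fintype.card ι + 1) ≤ ε / 2 := by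
      rw [Finset.sum_const, nsmul_eq_mul, Finset.card_univ, mul_div_assoc',
        div_le_iff₀ (by positivity)]
      nlinarith
    have h6 := mul_le_mul_of_nonneg_left k3 hh.le
    have h7 : h * (ε / (2 * h)) = ε / 2 := by field_simp
    rw [mul_add, h7] at h6
    linarith

end Crest.Agent.S0329
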