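import Crest.Statements.S0392
import Crest.Agent.H1.LPf

set_option autoImplicit false
open Crest.GeometryTopology
universe u v
open Crest Crest.GeometryTopology

namespace Crest.Agent.S0392

lemma doubling_of_col {B : Type u} [NormedAddCommGroup B] {Col : Type} [Fintype Col] (K : Set B)
    (h2 : ∀ r : ℝ, 0 < r → ∀ S ⊆ K, (∀ p ∈ S, ∀ q ∈ S, ‖p - q‖ ≤ 4 * r) →
        ∃ col : B → Col, ∀ p ∈ S, ∀ q ∈ S, col p = col q → ‖p - q‖ ≤ r) :
    DoublingConstLE K (Fintype.card Col) := by
  classical
  intro x hx r hr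
  obtain ⟨col, hcol⟩ := h2 r hr (K ∩ Metric.closedBall x (2 * r)) Set.inter_subset_left
    fun p hp q hq => by
      have := dist_triangle_right p q x
      rw [dist_eq_norm] at this
      linarith [Metric.mem_closedBall.1 hp.2, Metric.mem_closedBall.1 hq.2]
  have : ∀ c : Col, ∃ p ∈ K, ∀ q ∈ K ∩ Metric.closedBall x (2 * r), col q = c →
      q ∈ Metric.closedBall p r := by
    intro c
    by_cases h : ∃ p ∈ K ∩ Metric.closedBall x (2 * r), col p = c
    · obtain ⟨p, hp, rfl⟩ := h
      exact ⟨p, hp.1, fun q hq hc => by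
        rw [Metric.mem_closedBall, dist_eq_norm]; exact hcol q hq p hp hc⟩
    · exact ⟨x, hx, fun q hq hc => absurd ⟨q, hq, hc⟩ h⟩
  choose w hw1 hw2 using this
  refine ⟨Finset.univ.image w, ?_, Finset.card_image_le.trans Finset.card_univ.le, fun q hq => ?_⟩
  · intro p hp
    obtain ⟨c, -, rfl⟩ := Finset.mem_image.1 (Finset.mem_coe.1 hp)
    exact hw1 c
  · exact Set.mem_iUnion₂.2 ⟨w (col q), Finset.mem_image_of_mem _ (Finset.mem_univ _),
      hw2 _ q hq rfl⟩

/-- There is a universal constant `Λ` such that every infinite-dimensional real Banach space contains a compact subset that is doubling with constant at most `Λ` and admits no map into any finite-dimensional real normed space that is Lipschitz with a Lipschitz inverse on its image, whatever the two Lipschitz constants. Doubling is measured with closed balls centred at points of the subset. -/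
theorem result :
    ∃ Λ : ℕ, ∀ (B : Type u) [NormedAddCommGroup B] [NormedSpace ℝ B] [CompleteSpace B],
      ¬ FiniteDimensional ℝ B →
      ∃ K : Set B, IsCompact K ∧ DoublingConstLE K Λ ∧
        ∀ (Y : Type v) [NormedAddCommGroup Y] [NormedSpace ℝ Y] [FiniteDimensional ℝ Y]
          (f : K → Y) (c C : NNReal), ¬ (LipschitzWith C f ∧ AntilipschitzWith c f) := by
  refine ⟨Fintype.card H1.LP.Col, fun B _ _ _ hB => ?_⟩
  obtain ⟨K, h1, h2, h3⟩ := H1.LP.assemble hB
  refine ⟨K, h1, doubling_of_col K h2, fun Y _ _ _ f c C ⟨hC, hc⟩ => ?_⟩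
  · exact h3 (EuclideanSpace ℝ (Fin (Module.finrank ℝ Y))) (toEuclidean ∘ f) _ _
      ⟨(toEuclidean (E := Y)).lipschitz.comp hC, (toEuclidean (E := Y)).antilipschitz.comp hc⟩

end Crest.Agent.S0392
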