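import Crest.Statements.S0423
import Crest.Agent.H1.ExpTruncD

set_option autoImplicit false
open Crest Crest.AlgGeometry

namespace Crest.Agent.S0423

/-- For independent mean-one exponential random variables `X_1, …, X_N` (written as an integral over the positive orthant against the density `exp (-(x_1 + ⋯ + x_N))`), real coefficients `a_1, …, a_N` summing to zero, and the weight `g = truncExpWeight`, the quantity `(e^{4/3} / (4/3)) · E[g(4/3 + a_1 X_1 + ⋯ + a_N X_N)]` has supremum over all `N ≥ 1` and all such `a` exactly `(3/4) e^{4/3} − e/3`: it never exceeds this value, and comes within any `ε > 0` of it for some `N` and `a`. -/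
theorem result :
    (∀ (N : ℕ) (a : Fin N → ℝ), 1 ≤ N → ∑ i, a i = 0 →
      Real.exp (4 / 3) / (4 / 3) *
          ∫ x in Set.pi Set.univ (fun _ : Fin N => Set.Ioi (0 : ℝ)),
            Crest.AlgGeometry.truncExpWeight (4 / 3 + ∑ i, a i * x i) * Real.exp (-∑ i, x i)
        ≤ 3 / 4 * Real.exp (4 / 3) - Real.exp 1 / 3) ∧
    (∀ ε : ℝ, 0 < ε → ∃ (N : ℕ) (a : Fin N → ℝ), 1 ≤ N ∧ ∑ i, a i = 0 ∧
      3 / 4 * Real.exp (4 / 3) - Real.exp 1 / 3 - ε <
        Real.exp (4 / 3) / (4 / 3) *
          ∫ x in Set.pi Set.univ (fun _ : Fin N => Set.Ioi (0 : ℝ)),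
            Crest.AlgGeometry.truncExpWeight (4 / 3 + ∑ i, a i * x i) * Real.exp (-∑ i, x i)) := by
  have hc := Crest.Agent.H1.ExpTrunc.const_eq
  have hp : 0 < Real.exp (4 / 3) / (4 / 3) := by positivity
  refine ⟨fun N a _ ha => ?_, fun ε hε => ?_⟩
  · rw [Crest.Agent.H1.ExpTrunc.En_g]
    have h1 := mul_le_mul_of_nonneg_left (Crest.Agent.H1.ExpTrunc.upper N a ha) hp.le
    rw [hc] at h1
    linarith
  · obtain ⟨n, hn, hlt⟩ := Crest.Agent.H1.ExpTrunc.lower_lim (div_pos hε hp)
    refine ⟨n + 1, Fin.cons 2 fun _ => -2 / n, by omega, ?_, ?_⟩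
    · have hn' : (n : ℝ) ≠ 0 := by exact_mod_cast hn.ne'
      rw [Fin.sum_univ_succ]
      simp only [Fin.cons_zero, Fin.cons_succ, Finset.sum_const, Finset.card_univ,
        Fintype.card_fin, nsmul_eq_mul]
      field_simp
      ring
    · rw [Crest.Agent.H1.ExpTrunc.En_g]
      have h1 := mul_lt_mul_of_pos_left
        ((Crest.Agent.H1.ExpTrunc.lower n hn).trans_lt hlt) hp
      rw [mul_add, hc, mul_div_cancel₀ _ hp.ne'] at h1
      linarith

end Crest.Agent.S0423
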