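import Crest.Statements.S0535
import Crest.Agent.H4.GadE

set_option autoImplicit false
open Crest.Quantum Crest.MathPhysics.AmpDamp
open Crest Crest.MathPhysics

namespace Crest.Agent.S0535

/-- Tensor the generalized amplitude-damping qubit channel (parameters in `[0, 1]`) with any channel `Ψ` between nonzero finite-dimensional systems (linear, completely positive, trace preserving): Holevo capacity and minimum output entropy (nats) are additive: each ensemble for the product map is matched, up to any `ε > 0`, by ensembles for the two factors whose Holevo informations add up to at least as much, and conversely; likewise, reversed, for output entropies of single states. -/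
theorem result (γ ν : ℝ)
    (hγ : γ ∈ Set.Icc (0 : ℝ) 1) (hν : ν ∈ Set.Icc (0 : ℝ) 1)
    (d e : Type) [Fintype d] [Fintype e] [DecidableEq d] [DecidableEq e] [Nonempty d] [Nonempty e]
    (Ψ : Matrix d d ℂ → Matrix e e ℂ) (hΨ : IsChannel Ψ) :
    (∀ (m : ℕ) (q : Fin m → ℝ) (ρ : Fin m → Matrix (Bool × d) (Bool × d) ℂ), IsEnsemble q ρ →
      ∀ ε > (0 : ℝ), ∃ (m₁ : ℕ) (q₁ : Fin m₁ → ℝ) (ρ₁ : Fin m₁ → Matrix Bool Bool ℂ)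
        (m₂ : ℕ) (q₂ : Fin m₂ → ℝ) (ρ₂ : Fin m₂ → Matrix d d ℂ),
        IsEnsemble q₁ ρ₁ ∧ IsEnsemble q₂ ρ₂ ∧
          holevoInfo (qubitTensor (gadMap γ ν) Ψ) q ρ ≤
            holevoInfo (gadMap γ ν) q₁ ρ₁ + holevoInfo Ψ q₂ ρ₂ + ε) ∧
    (∀ (m₁ : ℕ) (q₁ : Fin m₁ → ℝ) (ρ₁ : Fin m₁ → Matrix Bool Bool ℂ)
      (m₂ : ℕ) (q₂ : Fin m₂ → ℝ) (ρ₂ : Fin m₂ → Matrix d d ℂ), IsEnsemble q₁ ρ₁ → IsEnsemble q₂ ρ₂ →
      ∃ (m : ℕ) (q : Fin m → ℝ) (ρ : Fin m → Matrix (Bool × d) (Bool × d) ℂ), IsEnsemble q ρ ∧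
        holevoInfo (gadMap γ ν) q₁ ρ₁ + holevoInfo Ψ q₂ ρ₂ ≤
          holevoInfo (qubitTensor (gadMap γ ν) Ψ) q ρ) ∧
    (∀ ρ : Matrix (Bool × d) (Bool × d) ℂ, IsDensity ρ → ∀ ε > (0 : ℝ),
      ∃ (ρ₁ : Matrix Bool Bool ℂ) (ρ₂ : Matrix d d ℂ), IsDensity ρ₁ ∧ IsDensity ρ₂ ∧
        vnEntropy (gadMap γ ν ρ₁) + vnEntropy (Ψ ρ₂) ≤ vnEntropy (qubitTensor (gadMap γ ν) Ψ ρ) + ε) ∧
    (∀ (ρ₁ : Matrix Bool Bool ℂ) (ρ₂ : Matrix d d ℂ), IsDensity ρ₁ → IsDensity ρ₂ →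
      ∃ ρ : Matrix (Bool × d) (Bool × d) ℂ, IsDensity ρ ∧
        vnEntropy (qubitTensor (gadMap γ ν) Ψ ρ) ≤ vnEntropy (gadMap γ ν ρ₁) + vnEntropy (Ψ ρ₂)) := by
  have h := H4.Gad.Ch.of_isChannel hΨ
  refine ⟨fun m p ρ he ε hε => ?_, fun m₁ q₁ ρ₁ m₂ q₂ ρ₂ h1 h2 => ?_, fun ρ hρ ε hε => ?_,
    fun ρ₁ ρ₂ h1 h2 => ?_⟩
  · have he' : H4.Gad.Ens p ρ := he
    obtain ⟨q, p', ρ', hq, h2, k⟩ := H4.Gad.step hγ hν h he'
    obtain ⟨h1, k1⟩ := H4.Gad.psi_ens hγ hν he'.1 he'.2.1 hq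
    obtain ⟨m₁, q₁, ρ₁, a1, b1⟩ := H4.Gad.toFin (gadMap γ ν) h1
    obtain ⟨m₂, q₂, ρ₂, a2, b2⟩ := H4.Gad.toFin Ψ h2
    refine ⟨m₁, q₁, ρ₁, m₂, q₂, ρ₂, a1, a2, ?_⟩
    have k' : holevoInfo (qubitTensor (gadMap γ ν) Ψ) p ρ ≤ _ := k
    rw [b1, b2, k1]
    linarith
  · have h1' : H4.Gad.Ens q₁ ρ₁ := h1
    have h2' : H4.Gad.Ens q₂ ρ₂ := h2
    obtain ⟨m, q, ρ, a, b⟩ := H4.Gad.toFin (qubitTensor (gadMap γ ν) Ψ) (h1'.kron h2')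
    refine ⟨m, q, ρ, a, ?_⟩
    rw [b, H4.Gad.hol_kron hγ hν h h1' h2']
    exact le_rfl
  · obtain ⟨q, ρ0, ρ1, hq, d0, d1, -, -, k⟩ := H4.Gad.single hγ hν h hρ
    have e := H4.Gad.psi_ent hγ hν hq true
    have q0 := hq.1
    have q1 : 0 ≤ 1 - q := by linarith [hq.2]
    rcases le_total (vnEntropy (Ψ ρ0)) (vnEntropy (Ψ ρ1)) with c | c
    · refine ⟨_, ρ0, H4.Gad.psi_dens hq true, d0, ?_⟩
      have := mul_le_mul_of_nonneg_left c q0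
      rw [e]; linarith
    · refine ⟨_, ρ1, H4.Gad.psi_dens hq true, d1, ?_⟩
      have := mul_le_mul_of_nonneg_left c q1
      rw [e]; linarith
  · refine ⟨_, H4.Gad.density_kron h1 h2, ?_⟩
    rw [H4.Gad.tensor_kron h.lin,
      H4.Gad.ent_kron ((H4.Gad.gad_ch hγ hν).dens h1) (h.dens h2)]

end Crest.Agent.S0535
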