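import Crest.Statements.S0541
import Crest.Agent.H8.PPTFinal

set_option autoImplicit false
open Crest.Quantum
open Crest Crest.MathPhysics

namespace Crest.Agent.S0541

/-- There are two complex-linear maps on `10 × 10` complex matrices, each PPT (completely positive, and still completely positive when followed by transposition of the output), such that the Choi matrix of their composition (unnormalised, input factor first) is nonzero and its range contains no nonzero product vector (whenever a vector of the form `p ↦ u p.1 * v p.2` lies in the range, `u = 0` or `v = 0`), and the composition is not entanglement breaking. -/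
theorem result :
    ∃ Φ₁ Φ₂ : Matrix (Fin 10) (Fin 10) ℂ → Matrix (Fin 10) (Fin 10) ℂ,
      IsLinearMap ℂ Φ₁ ∧ IsLinearMap ℂ Φ₂ ∧ IsPPT Φ₁ ∧ IsPPT Φ₂ ∧
      choiMatrix (Φ₂ ∘ Φ₁) ≠ 0 ∧
      (∀ u v : Fin 10 → ℂ, (∃ w, (choiMatrix (Φ₂ ∘ Φ₁)).mulVec w = fun p => u p.1 * v p.2) →
        u = 0 ∨ v = 0) ∧
      ¬ IsEntanglementBreaking (Φ₂ ∘ Φ₁) := by
  refine ⟨H8.PPT.kraus H8.PPT.cr H8.PPT.Vc, H8.PPT.kraus H8.PPT.cr H8.PPT.Wc,
    H8.PPT.kraus_linear _ _, H8.PPT.kraus_linear _ _, H8.PPT.ppt1, H8.PPT.ppt2, H8.PPT.Ch_ne,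
    H8.PPT.Ch_range, H8.PPT.not_eb id Function.injective_id _ 1 one_ne_zero ?_⟩
  intro X
  simp

end Crest.Agent.S0541
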